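import Mathlib.Analysis.SpecialFunctions.Pow.Real
import Mathlib.Analysis.Complex.ExponentialBounds
import Mathlib.Tactic

/-! P065: choice of the parameters. -/

namespace Vale.Agent.P065
open Filter

theorem AsymX.choose {L s a : ℝ} (hL : L = Real.exp (s ^ 2)) (hs : 15 ≤ s) (a1 : 1 ≤ a)
    (a2 : a ≤ s) : ∃ T d : ℕ, 1 ≤ T ∧ (T * (120 * T) ^ d : ℝ) * a ≤ L ∧
      L * Real.exp (-14 * s) ≤ (T : ℝ) ^ d := by
  obtain ⟨d, hd⟩ : ∃ d : ℕ, d = ⌈s⌉₊ := ⟨_, rfl⟩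
  have d1 : s ≤ d := hd ▸ Nat.le_ceil s
  have d2 : (d : ℝ) ≤ 2 * s := by
    have := Nat.ceil_lt_add_one (show 0 ≤ s by linarith)
    rw [← hd] at this
    linarith
  have L0 : 0 < L := hL ▸ Real.exp_pos _
  have e6 : (240 : ℝ) ≤ Real.exp 6 := by
    have h1 : (5 / 2 : ℝ) ≤ Real.exp 1 := by linarith [Real.exp_one_gt_d9]
    have h2 : Real.exp 6 = Real.exp 1 ^ 6 := by rw [← Real.exp_nat_mul]; norm_num
    rw [h2]
    exact le_trans (by norm_num) (pow_le_pow_left₀ (by norm_num) h1 6)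
  have q1 : (240 : ℝ) ^ d ≤ Real.exp (12 * s) := by
    calc (240 : ℝ) ^ d ≤ Real.exp 6 ^ d := by gcongr
      _ = Real.exp (d * 6) := (Real.exp_nat_mul _ _).symm
      _ ≤ _ := Real.exp_le_exp.mpr (by linarith)
  have q2 : a ≤ Real.exp s := by linarith [Real.add_one_le_exp s]
  have q3 : (240 : ℝ) ^ d * a ≤ Real.exp (13 * s) := by
    calc (240 : ℝ) ^ d * a ≤ Real.exp (12 * s) * Real.exp s := by gcongr
      _ = _ := by rw [← Real.exp_add]; congr 1; ring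
  obtain ⟨Q, hQ⟩ : ∃ Q : ℝ, Q = 120 ^ d * a := ⟨_, rfl⟩
  have Q1 : 1 ≤ Q := hQ ▸ one_le_mul_of_one_le_of_one_le (one_le_pow₀ (by norm_num)) a1
  have Q2 : 2 ^ d * Q ≤ Real.exp (13 * s) := by
    rw [hQ, ← mul_assoc, ← mul_pow]
    norm_num
    exact q3
  have Q3 : Q ≤ L := by
    calc Q ≤ 2 ^ d * Q := le_mul_of_one_le_left (by linarith) (one_le_pow₀ (by norm_num))
      _ ≤ Real.exp (13 * s) := Q2
      _ ≤ L := hL ▸ Real.exp_le_exp.mpr (by nlinarith)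
  have y1 : 1 ≤ L / Q := by rwa [le_div_iff₀ (by linarith), one_mul]
  obtain ⟨x, hx⟩ : ∃ x, x = Real.exp (Real.log (L / Q) / (d + 1)) := ⟨_, rfl⟩
  have x1 : 1 ≤ x := hx ▸ Real.one_le_exp (div_nonneg (Real.log_nonneg y1) (by positivity))
  have x2 : x ^ (d + 1) = L / Q := by
    rw [hx, ← Real.exp_nat_mul]
    push_cast
    rw [mul_div_cancel₀ _ (by positivity), Real.exp_log (by linarith)]
  have x3 : x ≤ Real.exp s := by
    rw [hx]
    apply Real.exp_le_exp.mpr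
    rw [div_le_iff₀ (by positivity)]
    have h1 : Real.log (L / Q) ≤ s ^ 2 := by
      rw [Real.log_le_iff_le_exp (by linarith), ← hL]
      exact div_le_self L0.le Q1
    nlinarith
  have t1 : (⌊x⌋₊ : ℝ) ≤ x := Nat.floor_le (by linarith)
  have t0 : 1 ≤ ⌊x⌋₊ := Nat.le_floor (by simpa using x1)
  have t2 : x ≤ 2 * ⌊x⌋₊ := by
    have h1 := Nat.lt_floor_add_one x
    have h2 : (1 : ℝ) ≤ ⌊x⌋₊ := by exact_mod_cast t0
    linarith
  refine ⟨⌊x⌋₊, d, t0, ?_, ?_⟩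
  · calc (⌊x⌋₊ * (120 * ⌊x⌋₊) ^ d : ℝ) * a ≤ x * (120 * x) ^ d * a := by gcongr
      _ = x ^ (d + 1) * Q := by rw [hQ, mul_pow]; ring
      _ = L := by rw [x2]; field_simp
  · have h1 : L ≤ Real.exp (14 * s) * (⌊x⌋₊ : ℝ) ^ d := by
      calc L = x * x ^ d * Q := by rw [← pow_succ', x2]; field_simp
        _ ≤ Real.exp s * (2 * ⌊x⌋₊) ^ d * Q := by gcongr
        _ = Real.exp s * (2 ^ d * Q) * (⌊x⌋₊ : ℝ) ^ d := by rw [mul_pow]; ring
        _ ≤ Real.exp s * Real.exp (13 * s) * (⌊x⌋₊ : ℝ) ^ d := by gcongr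
        _ = _ := by rw [← Real.exp_add]; congr 2; ring
    calc L * Real.exp (-14 * s) ≤ Real.exp (14 * s) * (⌊x⌋₊ : ℝ) ^ d * Real.exp (-14 * s) := by
          gcongr
      _ = (⌊x⌋₊ : ℝ) ^ d * Real.exp (14 * s + -14 * s) := by rw [Real.exp_add]; ring
      _ = _ := by simp

theorem asym (c : ℕ) (hc : 2 ≤ c) : ∃ C : ℝ, 0 < C ∧ ∃ n0 : ℕ, ∀ n ≥ n0, ∃ T d : ℕ, 1 ≤ T ∧
    c ^ (T * (120 * T) ^ d) + 1 ≤ n ∧
    Real.exp (Real.log n * Real.exp (-C * √(Real.log (Real.log n))))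
      ≤ (12 / 11 : ℝ) ^ (T ^ d) / 2 := by
  refine ⟨15, by norm_num, ?_⟩
  have h0 : Tendsto (fun n : ℕ => Real.log n) atTop atTop :=
    Real.tendsto_log_atTop.comp tendsto_natCast_atTop_atTop
  have h1 : Tendsto (fun n : ℕ => √(Real.log (Real.log n))) atTop atTop :=
    Real.tendsto_sqrt_atTop.comp (Real.tendsto_log_atTop.comp h0)
  rw [← eventually_atTop]
  filter_upwards [h1.eventually_ge_atTop 15, h1.eventually_ge_atTop (2 * Real.log c),
    h0.eventually_ge_atTop 1, eventually_ge_atTop 4] with n b1 b2 b3 b4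
  obtain ⟨s, hs⟩ : ∃ s, s = √(Real.log (Real.log n)) := ⟨_, rfl⟩
  rw [← hs] at b1 b2 ⊢
  have hL : Real.log n = Real.exp (s ^ 2) := by
    rw [hs, Real.sq_sqrt (Real.log_nonneg b3), Real.exp_log (by linarith)]
  have c2 : (2 : ℝ) ≤ c := by exact_mod_cast hc
  have a1 : 1 ≤ 2 * Real.log c := by
    have := Real.log_le_log (by norm_num) c2
    linarith [Real.log_two_gt_d9]
  obtain ⟨T, d, T1, k1, k2⟩ := AsymX.choose hL b1 a1 b2
  have n4 : (4 : ℝ) ≤ n := by exact_mod_cast b4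
  refine ⟨T, d, T1, ?_, ?_⟩
  · obtain ⟨k, hk⟩ : ∃ k, k = T * (120 * T) ^ d := ⟨_, rfl⟩
    have e : (T * (120 * T) ^ d : ℝ) = k := by rw [hk]; push_cast; rfl
    rw [e] at k1
    rw [← hk]
    have g1 : ((c : ℝ) ^ k) ^ 2 ≤ n := by
      rw [← Real.log_le_log_iff (by positivity) (by linarith), Real.log_pow, Real.log_pow]
      push_cast
      linarith
    have g2 : (c : ℝ) ^ k + 1 ≤ n := by nlinarith [sq_nonneg ((c : ℝ) ^ k - 2)]
    exact_mod_cast g2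
  · have g1 : (24 : ℝ) ≤ Real.exp s := by
      have e : Real.exp s = Real.exp (s / 2) * Real.exp (s / 2) := by
        rw [← Real.exp_add]; congr 1; ring
      have := Real.add_one_le_exp (s / 2)
      rw [e]
      nlinarith
    obtain ⟨Y, hY⟩ : ∃ Y, Y = Real.log n * Real.exp (-15 * s) := ⟨_, rfl⟩
    have g2 : Real.log n * Real.exp (-14 * s) = Y * Real.exp s := by
      rw [hY, mul_assoc, ← Real.exp_add]; congr 2; ring
    have g3 : 1 ≤ Y := by
      rw [hY, hL, ← Real.exp_add]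
      exact Real.one_le_exp (by nlinarith)
    have g4 : 24 * Y ≤ (T : ℝ) ^ d := by nlinarith
    have g5 : Real.exp (1 / 12) ≤ 12 / 11 := by
      have := Real.exp_bound_div_one_sub_of_interval' (x := 1 / 12) (by norm_num) (by norm_num)
      linarith
    rw [← hY, le_div_iff₀ (by norm_num)]
    calc Real.exp Y * 2 ≤ Real.exp Y * Real.exp Y := by
          gcongr; linarith [Real.add_one_le_exp Y]
      _ = Real.exp (Y + Y) := (Real.exp_add _ _).symm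
      _ ≤ Real.exp ((T ^ d : ℕ) * (1 / 12)) := Real.exp_le_exp.mpr (by push_cast; linarith)
      _ = Real.exp (1 / 12) ^ (T ^ d) := Real.exp_nat_mul _ _
      _ ≤ _ := by gcongr

end Vale.Agent.P065
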