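import Mathlib.Data.Real.Basic
import Mathlib.Data.Finset.Powerset
import Mathlib.Data.Finset.Card

/-! P065: halving lines, definitions used in the statement. -/

namespace Vale.Agent.P065

/-- orientation determinant of three points of the plane -/
def orient (a b c : ℝ × ℝ) : ℝ := (b.1 - a.1) * (c.2 - a.2) - (b.2 - a.2) * (c.1 - a.1)

/-- no three points are collinear -/
def GenPos (P : Finset (ℝ × ℝ)) : Prop :=
  ∀ a ∈ P, ∀ b ∈ P, ∀ c ∈ P, a ≠ b → a ≠ c → b ≠ c → orient a b c ≠ 0

open Classical in
/-- the line through `a` and `b` has exactly `(n - 2) / 2` points in each open halfplane -/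
def Halving (P : Finset (ℝ × ℝ)) (a b : ℝ × ℝ) : Prop :=
  a ≠ b ∧ 2 * (P.filter fun c => 0 < orient a b c).card + 2 = P.card ∧
    2 * (P.filter fun c => orient a b c < 0).card + 2 = P.card

open Classical in
/-- the number of unordered pairs of points of `P` that span a halving line -/
noncomputable def halv (P : Finset (ℝ × ℝ)) : ℕ :=
  ((P.powersetCard 2).filter fun S => ∃ a b, S = {a, b} ∧ Halving P a b).card

end Vale.Agent.P065
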