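import Mathlib.Analysis.SpecialFunctions.Pow.Real
import Mathlib.Tactic
import Vale.Agent.P065.Stmt

/-! P065: weighted line configurations (dual picture: the line `s * t + b`). -/

namespace Vale.Agent.P065
open Finset

/-- `x` has sign `σ` with margin `m` -/
def Side (x m : ℝ) (σ : ℤ) : Prop := (σ = 1 ∧ m ≤ x) ∨ (σ = -1 ∧ x ≤ -m)

theorem Side.mono {x m x' m' : ℝ} {σ : ℤ} (h : Side x m σ) (H : |x' - x| + m' ≤ m) :
    Side x' m' σ := by
  have := abs_le.1 (show |x' - x| ≤ m - m' by linarith)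
  rcases h with ⟨a, b⟩ | ⟨a, b⟩
  · exact Or.inl ⟨a, by linarith [this.1]⟩
  · exact Or.inr ⟨a, by linarith [this.2]⟩

theorem Side.scale {x m c : ℝ} {σ : ℤ} (h : Side x m σ) (hc : 0 ≤ c) : Side (c * x) (c * m) σ := by
  rcases h with ⟨a, b⟩ | ⟨a, b⟩
  · exact Or.inl ⟨a, mul_le_mul_of_nonneg_left b hc⟩
  · exact Or.inr ⟨a, by nlinarith⟩

theorem Side.le_abs {x m : ℝ} {σ : ℤ} (h : Side x m σ) : m ≤ |x| := by
  rcases h with ⟨_, b⟩ | ⟨_, b⟩
  · exact b.trans (le_abs_self x)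
  · linarith [neg_abs_le x, neg_le_abs x]

theorem side_sign {k : ℤ} (hk : k ≠ 0) {c : ℝ} (hc : 0 ≤ c) : Side (k * c) c k.sign := by
  rcases lt_or_gt_of_ne hk with h | h
  · have : (k : ℝ) ≤ -1 := by exact_mod_cast Int.le_sub_one_of_lt h
    exact Or.inr ⟨Int.sign_eq_neg_one_of_neg h, by nlinarith⟩
  · have : (1 : ℝ) ≤ k := by exact_mod_cast h
    exact Or.inl ⟨Int.sign_eq_one_of_pos h, by nlinarith⟩

/-- weighted lines `ι`; every event `e` has two lines `p e`, `q e` meeting at time `t e` and its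
own marker line (their average, weight one) -/
structure Cfg (ι E : Type) where
  s : ι → ℝ
  b : ι → ℝ
  w : ι → ℕ
  p : E → ι
  q : E → ι
  t : E → ℝ
  sg : E → ι → ℤ
  sm : E → E → ℤ

namespace Cfg
variable {ι E : Type} (C : Cfg ι E)

noncomputable def ms (e : E) : ℝ := (C.s (C.p e) + C.s (C.q e)) / 2
noncomputable def mb (e : E) : ℝ := (C.b (C.p e) + C.b (C.q e)) / 2
/-- height of the line `a * t + b` over the marker of `e` at the time of `e` -/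
noncomputable def vl (e : E) (a b : ℝ) : ℝ := (a - C.ms e) * C.t e + (b - C.mb e)

structure Geo (π : ℕ) (δ τ θ R A : ℝ) : Prop where
  wp : ∀ e, C.w (C.p e) = π
  wq : ∀ e, C.w (C.q e) = π
  lo : ∀ e, 2 * δ ≤ C.s (C.q e) - C.s (C.p e)
  hi : ∀ e, C.s (C.q e) - C.s (C.p e) ≤ 2 * R * δ
  meet : ∀ e, C.s (C.p e) * C.t e + C.b (C.p e) = C.s (C.q e) * C.t e + C.b (C.q e)
  bs : ∀ i, |C.s i| ≤ A
  bb : ∀ i, |C.b i| ≤ A
  bt : ∀ e, |C.t e| ≤ A
  side : ∀ e i, Side (C.vl e (C.s i) (C.b i)) (τ * (δ + |C.s i - C.ms e|)) (C.sg e i) ∨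
    (C.sg e i = 0 ∧ (C.w i = 0 ∨ i = C.p e ∨ i = C.q e))
  sidem : ∀ e e', e' ≠ e → Side (C.vl e (C.ms e') (C.mb e'))
    (τ * (δ + |C.ms e' - C.ms e|) + θ * δ * |C.t e - C.t e'|) (C.sm e e')
  self : ∀ e, C.sm e e = 0

def imb [Fintype ι] [Fintype E] (e : E) : ℤ := ∑ i, C.sg e i * C.w i + ∑ e', C.sm e e'
def tot [Fintype ι] [Fintype E] : ℕ := ∑ i, C.w i + Fintype.card E

variable {C} {π : ℕ} {δ τ θ R A : ℝ}

theorem Geo.vl_p (h : C.Geo π δ τ θ R A) (e : E) : C.vl e (C.s (C.p e)) (C.b (C.p e)) = 0 := by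
  have := h.meet e
  simp only [vl, ms, mb]; linarith

theorem Geo.vl_q (h : C.Geo π δ τ θ R A) (e : E) : C.vl e (C.s (C.q e)) (C.b (C.q e)) = 0 := by
  have := h.meet e
  simp only [vl, ms, mb]; linarith

theorem Geo.sg_p (h : C.Geo π δ τ θ R A) (hδ : 0 < δ) (hτ : 0 < τ) (e : E) :
    C.sg e (C.p e) = 0 := by
  rcases h.side e (C.p e) with a | a
  · have := a.le_abs
    rw [h.vl_p, abs_zero] at this
    exact absurd this (not_le.2 (by positivity))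
  · exact a.1

theorem Geo.sg_q (h : C.Geo π δ τ θ R A) (hδ : 0 < δ) (hτ : 0 < τ) (e : E) :
    C.sg e (C.q e) = 0 := by
  rcases h.side e (C.q e) with a | a
  · have := a.le_abs
    rw [h.vl_q, abs_zero] at this
    exact absurd this (not_le.2 (by positivity))
  · exact a.1

theorem Geo.ne (h : C.Geo π δ τ θ R A) (hδ : 0 < δ) (e : E) : C.p e ≠ C.q e := fun H => by
  have := h.lo e
  rw [H] at this; linarith

theorem Geo.ms_le (h : C.Geo π δ τ θ R A) (e : E) : |C.ms e| ≤ A := by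
  have a := abs_le.1 (h.bs (C.p e))
  have b := abs_le.1 (h.bs (C.q e))
  rw [abs_le, ms]; constructor <;> linarith [a.1, a.2, b.1, b.2]

theorem Geo.mb_le (h : C.Geo π δ τ θ R A) (e : E) : |C.mb e| ≤ A := by
  have a := abs_le.1 (h.bb (C.p e))
  have b := abs_le.1 (h.bb (C.q e))
  rw [abs_le, mb]; constructor <;> linarith [a.1, a.2, b.1, b.2]

end Cfg

/-- a balanced configuration of total weight `N` with `V` events -/
def Has (N V π : ℕ) (δ τ θ R A : ℝ) : Prop :=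
  ∃ (ι E : Type) (_ : Fintype ι) (_ : Fintype E) (C : Cfg ι E),
    C.Geo π δ τ θ R A ∧ (∀ e, C.imb e = 0) ∧ C.tot = N ∧ Fintype.card E = V

/-- normal form of the parameters -/
def Inn (N V π : ℕ) (M : ℝ) : Prop := Has N V π (1 / M) (1 / M) 0 (M ^ 2) M

open Classical in
/-- every line of `C` is replaced by a pattern of parallel lines, every marker by a small thin
copy of `D` (total weight `W`) -/
noncomputable def plugCfg {ι E κ F J : Type} (C : Cfg ι E) (D : Cfg κ F) (j0 : J) (o : J → ℝ)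
    (a : J → ℕ) (sp sq : F → J → ℤ) (π W : ℕ) (k ω : ℝ) : Cfg ((ι × J) ⊕ (E × κ)) (E × F) where
  s := Sum.elim (fun x => C.s x.1) fun x => C.ms x.1 + ω * D.s x.2
  b := Sum.elim (fun x => C.b x.1 + k * o x.2) fun x => C.mb x.1 - ω * D.s x.2 * C.t x.1
    + ω * (2 * k / (C.s (C.q x.1) - C.s (C.p x.1))) * D.b x.2
  w := Sum.elim (fun x => if C.w x.1 = π then a x.2 else if x.2 = j0 then C.w x.1 * W else 0)
    fun x => D.w x.2
  p e := Sum.inr (e.1, D.p e.2)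
  q e := Sum.inr (e.1, D.q e.2)
  t e := C.t e.1 + 2 * k / (C.s (C.q e.1) - C.s (C.p e.1)) * D.t e.2
  sg e := Sum.elim
    (fun x => if x.1 = C.p e.1 then sp e.2 x.2 else if x.1 = C.q e.1 then sq e.2 x.2
      else C.sg e.1 x.1)
    fun x => if x.1 = e.1 then D.sg e.2 x.2 else C.sm e.1 x.1
  sm e e' := if e'.1 = e.1 then D.sm e.2 e'.2 else C.sm e.1 e'.1

/-- sign, seen from the event `ε` of the cell `(c, v)`, of the marker line of type `ε'` through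
the cell `(c', y)` -/
def mkSg {ι E : Type} (C : Cfg ι E) (z : ι → ℤ) (c v : ℤ) (ε ε' : E) (c' y : ℤ) : ℤ :=
  if y - v + (z (C.p ε') + z (C.q ε')) * (c - c') ≠ 0 then
    (y - v + (z (C.p ε') + z (C.q ε')) * (c - c')).sign
  else if c' ≠ c then (c' - c).sign else C.sm ε ε'

/-- copies of `C` at the points `(1 + c + v / K, v)` of a sheared lattice, sharing their lines -/
noncomputable def needleCfg {ι E : Type} (C : Cfg ι E) (z : ι → ℤ) (G Y H : ℕ)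
    (jo : ι → Fin G → Fin Y → Fin (Y + 2 * H)) (K Λ r : ℝ) :
    Cfg ((ι × Fin (Y + 2 * H)) ⊕ (E × Fin G × Fin (Y + 2 * H))) (Fin G × Fin Y × E) where
  s := Sum.elim (fun x => Λ * C.s x.1) fun x => Λ * C.ms x.1
  b := Sum.elim
    (fun x => (((x.2 : ℕ) : ℝ) - H) - Λ * C.s x.1 * (1 + (((x.2 : ℕ) : ℝ) - H) / K) + r * Λ * C.b x.1)
    fun x => (((x.2.2 : ℕ) : ℝ) - H)
      - Λ * C.ms x.1 * (1 + ((x.2.1 : ℕ) : ℝ) + (((x.2.2 : ℕ) : ℝ) - H) / K) + r * Λ * C.mb x.1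
  w := Sum.elim (fun x => C.w x.1) fun x => if H ≤ (x.2.2 : ℕ) ∧ (x.2.2 : ℕ) < H + Y then 0 else 1
  p e := Sum.inl (C.p e.2.2, jo (C.p e.2.2) e.1 e.2.1)
  q e := Sum.inl (C.q e.2.2, jo (C.q e.2.2) e.1 e.2.1)
  t e := 1 + ((e.1 : ℕ) : ℝ) + ((e.2.1 : ℕ) : ℝ) / K + r * C.t e.2.2
  sg e := Sum.elim
    (fun x => if x.2 = jo x.1 e.1 e.2.1 then C.sg e.2.2 x.1
      else (((x.2 : ℕ) : ℤ) - ((jo x.1 e.1 e.2.1 : ℕ) : ℤ)).sign)
    fun x => if H ≤ (x.2.2 : ℕ) ∧ (x.2.2 : ℕ) < H + Y then 0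
      else mkSg C z (e.1 : ℕ) (e.2.1 : ℕ) e.2.2 x.1 (x.2.1 : ℕ) (((x.2.2 : ℕ) : ℤ) - H)
  sm e e' := mkSg C z (e.1 : ℕ) (e.2.1 : ℕ) e.2.2 e'.2.2 (e'.1 : ℕ) (e'.2.1 : ℕ)

end Vale.Agent.P065
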