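import Vale.Agent.P065.GP

/-! P065: from a weighted configuration to a point set. -/

namespace Vale.Agent.P065
open Finset

namespace Expand

theorem sum1 (k n : ℕ) : ∑ j ∈ range n, (if j < k then (-1 : ℤ) else if j = k then 0 else 1) =
    if n ≤ k then -(n : ℤ) else n - 1 - 2 * k := by
  induction n with
  | zero => simp
  | succ n ih =>
    rw [sum_range_succ, ih]
    split_ifs <;> omega

theorem sum2 {k π : ℕ} (hk : k < π) (n : ℕ) :
    ∑ j ∈ range n, (if π ≤ j + k + 1 then (1 : ℤ) else -1) =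
    if n + k + 1 ≤ π then -(n : ℤ) else n - 2 * (π - 1 - k) := by
  induction n with
  | zero => simp; omega
  | succ n ih =>
    rw [sum_range_succ, ih]
    split_ifs <;> omega

theorem pert {m mb t a b d β δ τ ρ : ℝ} {σ : ℤ}
    (h : Side ((a - m) * t + (b - mb)) (τ * (δ + |a - m|) + ρ) σ) (δ0 : 0 < δ) (τ0 : 0 < τ)
    (ρ0 : 0 ≤ ρ) (hd : |d| ≤ τ / 4) (hβ : |β| ≤ τ * δ / 4) :
    (σ = 1 ∧ m * (t + d) + mb < a * (t + d) + (b + β)) ∨
      (σ = -1 ∧ a * (t + d) + (b + β) < m * (t + d) + mb) := by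
  have τδ : 0 < τ * δ := mul_pos τ0 δ0
  have h1 : |(a - m) * d + β| ≤ |a - m| * (τ / 4) + τ * δ / 4 := by
    refine (abs_add_le _ _).trans (add_le_add ?_ hβ)
    rw [abs_mul]
    exact mul_le_mul_of_nonneg_left hd (abs_nonneg _)
  have h2 : 0 ≤ τ * |a - m| := mul_nonneg τ0.le (abs_nonneg _)
  have h3 : Side ((a - m) * t + (b - mb) + ((a - m) * d + β)) (τ * δ / 2) σ := by
    refine h.mono ?_
    rw [add_sub_cancel_left]
    nlinarith
  rcases h3 with ⟨x, y⟩ | ⟨x, y⟩
  · exact Or.inl ⟨x, by nlinarith⟩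
  · exact Or.inr ⟨x, by nlinarith⟩

variable {ι E : Type} (C : Cfg ι E) (u : ℕ)

/-- the index set of the lines -/
abbrev K := (Σ i, Fin (C.w i)) ⊕ E ⊕ Fin u ⊕ Fin (u + 1)

/-- offset of a copy -/
noncomputable def off (w j : ℕ) : ℝ := (j : ℝ) - ((w : ℝ) - 1) / 2 + 1 / 4

noncomputable def ss : K C u → ℝ :=
  Sum.elim (fun x => C.s x.1) (Sum.elim C.ms fun _ => 0)

noncomputable def bb (η F : ℝ) : K C u → ℝ :=
  Sum.elim (fun x => C.b x.1 + η * off (C.w x.1) x.2) (Sum.elim C.mb (Sum.elim (fun _ => F) fun _ => -F))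

open Classical in
noncomputable def sg1 (π : ℕ) (e : E) (k : ℕ) (i : ι) (j : ℕ) : ℤ :=
  if i = C.p e then (if j < k then -1 else if j = k then 0 else 1)
  else if i = C.q e then (if π ≤ j + k + 1 then 1 else -1) else C.sg e i

noncomputable def sgn (π : ℕ) (e : E) (k : ℕ) : K C u → ℤ :=
  Sum.elim (fun x => sg1 C π e k x.1 x.2) (Sum.elim (C.sm e) (Sum.elim (fun _ => 1) fun _ => -1))

theorem off_le {w j : ℕ} (h : j < w) : |off w j| ≤ w + 1 := by
  have : (j : ℝ) + 1 ≤ w := by exact_mod_cast h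
  have : (0 : ℝ) ≤ j := Nat.cast_nonneg j
  rw [abs_le, off]; constructor <;> linarith

variable {C} {π : ℕ} {δ τ θ R A : ℝ}

theorem bal [Fintype ι] [Fintype E] (hC : C.Geo π δ τ θ R A) (δ0 : 0 < δ) (τ0 : 0 < τ) (e : E)
    (he : C.imb e = 0) {k : ℕ} (hk : k < π) : ∑ x, sgn C u π e k x = 0 := by
  classical
  have e1 : ∀ i, ∑ j : Fin (C.w i), sg1 C π e k i j = C.sg e i * C.w i +
      (if i = C.p e then (π : ℤ) - 1 - 2 * k else 0) +
      (if i = C.q e then 2 * (k : ℤ) + 2 - π else 0) := by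
    intro i
    rw [Fin.sum_univ_eq_sum_range (fun j => sg1 C π e k i j)]
    have hne := hC.ne δ0 e
    by_cases h1 : i = C.p e
    · subst h1
      simp only [sg1, if_true, hC.wp, hC.sg_p δ0 τ0, sum1, if_neg hne]
      rw [if_neg (by omega)]; ring
    by_cases h2 : i = C.q e
    · subst h2
      simp only [sg1, if_true, hC.wq, hC.sg_q δ0 τ0, if_neg h1, sum2 hk]
      rw [if_neg (by omega)]; ring
    simp [sg1, h1, h2, mul_comm]
  rw [Cfg.imb] at he
  simp only [Fintype.sum_sum_type, sgn, Sum.elim_inl, Sum.elim_inr, Fintype.sum_sigma, e1,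
    sum_add_distrib, sum_ite_eq', mem_univ, if_true, sum_const, card_univ, Fintype.card_fin]
  simp only [nsmul_eq_mul]
  push_cast
  linarith

end Expand
open Expand

theorem Has.points {N V π : ℕ} {δ τ θ R A : ℝ} (h : Has N V π δ τ θ R A) (δ0 : 0 < δ)
    (τ0 : 0 < τ) (θ0 : 0 ≤ θ) (u : ℕ) :
    ∃ X : Finset (ℝ × ℝ), X.card = N + 1 + 2 * u ∧ GenPos X ∧ V * π ≤ halv X := by
  classical
  obtain ⟨ι, E, _, _, C, hC, hb, hN, hV⟩ := h
  set η : ℝ := τ * δ / (4 * (N + 1)) with hη
  set F : ℝ := A * (A + τ) + A + 1 with hF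
  have τδ : 0 < τ * δ := mul_pos τ0 δ0
  have η0 : 0 < η := by positivity
  have hw : ∀ i, C.w i ≤ N := fun i => by
    rw [← hN, Cfg.tot]
    exact (single_le_sum (f := C.w) (fun _ _ => Nat.zero_le _) (mem_univ i)).trans
      (Nat.le_add_right _ _)
  have ho : ∀ i j, j < C.w i → |η * off (C.w i) j| ≤ τ * δ / 4 := fun i j hj => by
    have h1 := off_le hj
    have h2 : (C.w i : ℝ) ≤ N := by exact_mod_cast hw i
    rw [abs_mul, abs_of_pos η0]
    calc η * |off (C.w i) j| ≤ η * (N + 1) := mul_le_mul_of_nonneg_left (by linarith) η0.le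
      _ = τ * δ / 4 := by rw [hη]; field_simp
  set D : E → ℝ := fun e => C.ms e - C.s (C.p e) with hD
  have D1 : ∀ e, δ ≤ D e := fun e => by
    have := hC.lo e
    simp only [hD, Cfg.ms]; linarith
  have D2 : ∀ e, C.s (C.q e) - C.ms e = D e := fun e => by simp only [hD, Cfg.ms]; ring
  have D0 : ∀ e, 0 < D e := fun e => δ0.trans_le (D1 e)
  set d : E × Fin π → ℝ := fun h => η * off π h.2 / D h.1 with hd
  have dD : ∀ h : E × Fin π, D h.1 * d h = η * off π h.2 := fun h => by
    have := (D0 h.1).ne'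
    simp only [hd]; field_simp
  have d1 : ∀ h, |d h| ≤ τ / 4 := fun h => by
    have h1 := ho (C.p h.1) h.2 (by rw [hC.wp]; exact h.2.2)
    rw [hC.wp] at h1
    simp only [hd]
    rw [abs_div, abs_of_pos (D0 h.1), div_le_iff₀ (D0 h.1)]
    nlinarith [D1 h.1]
  have val : ∀ h : E × Fin π, C.s (C.p h.1) * (C.t h.1 + d h) + (C.b (C.p h.1) + η * off π h.2) =
      C.ms h.1 * (C.t h.1 + d h) + C.mb h.1 := fun h => by
    have h1 := hC.vl_p h.1
    have h2 := dD h
    simp only [Cfg.vl, hD] at h1 h2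
    linarith
  obtain ⟨X, h1, h2, h3⟩ := gp (κ := K C u) (H := E × Fin π) (ss C u) (bb C u η F)
    (fun h => Sum.inl ⟨C.p h.1, Fin.cast (hC.wp h.1).symm h.2⟩) (fun h => Sum.inr (Sum.inl h.1))
    (fun h => C.t h.1 + d h) (fun h => sgn C u π h.1 h.2)
    (fun h => by
      have := D0 h.1
      simp only [ss, Sum.elim_inl, Sum.elim_inr, hD] at this ⊢
      linarith)
    (fun h => by
      simp only [ss, bb, Sum.elim_inl, Sum.elim_inr, hC.wp, Fin.val_cast]
      exact val h)
    (fun h h' a c => by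
      have c' : h.1 = h'.1 := Sum.inl.inj (Sum.inr.inj c)
      have a' := congrArg (fun x : (Σ i, Fin (C.w i)) => (x.2 : ℕ)) (Sum.inl.inj a)
      exact Prod.ext c' (Fin.ext a'))
    (fun h x a c => by
      have hv := val h
      simp only [ss, bb, Sum.elim_inl, Sum.elim_inr, hC.wp, Fin.val_cast]
      rcases x with ⟨i, j⟩ | e' | j | j
      · simp only [sgn, Sum.elim_inl, sg1]
        by_cases h1 : i = C.p h.1
        · subst h1
          have hjk : (j : ℕ) ≠ h.2 := fun H => a (by
            congr 2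
            exact Fin.ext H)
          simp only [if_true, hC.wp, off, if_neg hjk]
          by_cases h2 : (j : ℕ) < h.2
          · have : ((j : ℕ) : ℝ) < (h.2 : ℕ) := by exact_mod_cast h2
            exact Or.inr ⟨if_pos h2, by nlinarith⟩
          · have : ((h.2 : ℕ) : ℝ) < (j : ℕ) := by
              exact_mod_cast lt_of_le_of_ne (not_lt.1 h2) hjk.symm
            exact Or.inl ⟨if_neg h2, by nlinarith⟩
        rw [hv, if_neg h1]
        by_cases h2 : i = C.q h.1
        · subst h2
          have e1 := hC.vl_q h.1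
          have e2 := dD h
          have e3 := D2 h.1
          have e4 : C.s (C.q h.1) * (C.t h.1 + d h) + (C.b (C.q h.1) + η * off π j) =
              C.ms h.1 * (C.t h.1 + d h) + C.mb h.1 + η * (off π j + off π h.2) := by
            simp only [Cfg.vl] at e1
            rw [← e3] at e2
            linarith
          simp only [if_true, hC.wq]
          rw [e4]
          by_cases h3 : π ≤ j + h.2 + 1
          · have : (π : ℝ) ≤ (j : ℕ) + (h.2 : ℕ) + 1 := by exact_mod_cast h3
            have : 0 < off π j + off π h.2 := by simp only [off]; linarith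
            exact Or.inl ⟨if_pos h3, by nlinarith⟩
          · have : ((j : ℕ) : ℝ) + (h.2 : ℕ) + 1 + 1 ≤ π := by
              exact_mod_cast Nat.succ_le_of_lt (not_le.1 h3)
            have : off π j + off π h.2 < 0 := by simp only [off]; linarith
            exact Or.inr ⟨if_neg h3, by nlinarith⟩
        rw [if_neg h2]
        rcases hC.side h.1 i with H | ⟨-, H | H | H⟩
        · exact pert (ρ := 0) (by rw [add_zero]; exact H) δ0 τ0 le_rfl (d1 h) (ho i j j.2)
        · exact absurd j.2 (by omega)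
        · exact absurd H h1
        · exact absurd H h2
      · have hne : e' ≠ h.1 := fun H => c (by rw [H])
        have := pert (β := 0) (hC.sidem h.1 e' hne) δ0 τ0 (by positivity) (d1 h)
          (by rw [abs_zero]; positivity)
        rw [add_zero] at this
        simp only [sgn, Sum.elim_inl, Sum.elim_inr]
        rw [hv]
        exact this
      all_goals
        have a1 := hC.ms_le h.1
        have a2 := abs_le.1 (hC.mb_le h.1)
        have a3 : |C.t h.1 + d h| ≤ A + τ :=
          (abs_add_le _ _).trans (add_le_add (hC.bt h.1) ((d1 h).trans (by linarith)))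
        have a4 : |C.ms h.1 * (C.t h.1 + d h)| ≤ A * (A + τ) := by
          rw [abs_mul]
          exact mul_le_mul a1 a3 (abs_nonneg _) ((abs_nonneg _).trans a1)
        have a5 := abs_le.1 a4
        simp only [sgn, Sum.elim_inl, Sum.elim_inr]
        rw [hv]
      · exact Or.inl ⟨trivial, by linarith [a5.2, a2.2]⟩
      · exact Or.inr ⟨trivial, by linarith [a5.1, a2.1]⟩)
    (fun h => by simp [sgn, sg1])
    (fun h => by simp [sgn, hC.self])
    (fun h => bal u hC δ0 τ0 h.1 (hb h.1) h.2.2)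
  refine ⟨X, ?_, h2, ?_⟩
  · rw [h1, ← hN, Cfg.tot]
    simp only [Fintype.card_sum, Fintype.card_sigma, Fintype.card_fin]
    omega
  · rwa [Fintype.card_prod, hV, Fintype.card_fin] at h3

end Vale.Agent.P065
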