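import Vale.Agent.P065.Defs

/-! P065: from lines to points in general position. -/

namespace Vale.Agent.P065
open Finset

namespace GP
open Filter Topology

theorem ev_ne {f : ℝ → ℝ} (hf : Continuous f) (h0 : f 0 ≠ 0) :
    ∀ᶠ ε in 𝓝[>] (0 : ℝ), f ε ≠ 0 :=
  (hf.continuousAt.eventually_ne h0).filter_mono nhdsWithin_le_nhds

theorem ev_pos {f : ℝ → ℝ} (hf : Continuous f) (h0 : 0 < f 0) :
    ∀ᶠ ε in 𝓝[>] (0 : ℝ), 0 < f ε :=
  (continuousAt_const.eventually_lt hf.continuousAt h0).filter_mono nhdsWithin_le_nhds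

theorem ev_neg {f : ℝ → ℝ} (hf : Continuous f) (h0 : f 0 < 0) :
    ∀ᶠ ε in 𝓝[>] (0 : ℝ), f ε < 0 :=
  (hf.continuousAt.eventually_lt continuousAt_const h0).filter_mono nhdsWithin_le_nhds

theorem lin_ev (A B : ℝ) (hB : B ≠ 0) : ∀ᶠ ε in 𝓝[>] (0 : ℝ), A + B * ε ≠ 0 := by
  by_cases hA : A = 0
  · filter_upwards [self_mem_nhdsWithin] with ε hε
    rw [hA, zero_add]
    exact mul_ne_zero hB (ne_of_gt hε)
  · exact ev_ne (f := fun ε => A + B * ε) (by fun_prop) (by simpa using hA)

theorem quad_ev (A B C : ℝ) (hC : C ≠ 0) :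
    ∀ᶠ ε in 𝓝[>] (0 : ℝ), A + B * ε + C * ε ^ 2 ≠ 0 := by
  by_cases hA : A = 0
  · filter_upwards [self_mem_nhdsWithin, lin_ev B C hC] with ε hε h
    have : A + B * ε + C * ε ^ 2 = (B + C * ε) * ε := by rw [hA]; ring
    rw [this]
    exact mul_ne_zero h (ne_of_gt hε)
  · exact ev_ne (f := fun ε => A + B * ε + C * ε ^ 2) (by fun_prop) (by simpa using hA)

/-- the perturbed points -/
def pt {κ : Type} (s b n : κ → ℝ) (ε : ℝ) (i : κ) : ℝ × ℝ := (s i + ε * n i, b i + ε * n i ^ 2)

theorem orient_ev {κ : Type} (s b n : κ → ℝ) {i j k : κ} (h1 : n i ≠ n j) (h2 : n i ≠ n k)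
    (h3 : n j ≠ n k) :
    ∀ᶠ ε in 𝓝[>] (0 : ℝ), orient (pt s b n ε i) (pt s b n ε j) (pt s b n ε k) ≠ 0 := by
  have hC : (n j - n i) * (n k - n i) * (n k - n j) ≠ 0 :=
    mul_ne_zero (mul_ne_zero (sub_ne_zero.2 h1.symm) (sub_ne_zero.2 h2.symm))
      (sub_ne_zero.2 h3.symm)
  filter_upwards [quad_ev ((s j - s i) * (b k - b i) - (b j - b i) * (s k - s i))
    ((s j - s i) * (n k ^ 2 - n i ^ 2) + (n j - n i) * (b k - b i)
      - (b j - b i) * (n k - n i) - (n j ^ 2 - n i ^ 2) * (s k - s i)) _ hC] with ε h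
  refine fun H => h ?_
  rw [← H]
  simp only [orient, pt]
  ring

theorem cont_orient {κ : Type} (s b n : κ → ℝ) (i j k : κ) :
    Continuous fun ε => orient (pt s b n ε i) (pt s b n ε j) (pt s b n ε k) := by
  simp only [orient, pt]
  fun_prop

theorem count {κ : Type} [Fintype κ] [DecidableEq κ] (σ : κ → ℤ) {p q : κ} (hpq : p ≠ q)
    (hσ : ∀ i, i ≠ p → i ≠ q → σ i = 1 ∨ σ i = -1) (hp : σ p = 0) (hq : σ q = 0)
    (bal : ∑ i, σ i = 0) :
    2 * (univ.filter fun i => σ i = 1).card + 2 = Fintype.card κ ∧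
      2 * (univ.filter fun i => σ i = -1).card + 2 = Fintype.card κ := by
  have e1 : ∑ i, σ i =
      ∑ i, ((if σ i = 1 then (1 : ℤ) else 0) - (if σ i = -1 then (1 : ℤ) else 0)) := by
    refine sum_congr rfl fun i _ => ?_
    by_cases h1 : i = p
    · simp [h1, hp]
    by_cases h2 : i = q
    · simp [h2, hq]
    rcases hσ i h1 h2 with h | h <;> simp [h]
  have e2 : ∑ _i : κ, (1 : ℤ) =
      ∑ i, ((if σ i = 1 then (1 : ℤ) else 0) + (if σ i = -1 then (1 : ℤ) else 0)
        + (if i = p then 1 else 0) + (if i = q then 1 else 0)) := by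
    refine sum_congr rfl fun i _ => ?_
    by_cases h1 : i = p
    · simp [h1, hp, hpq]
    by_cases h2 : i = q
    · simp [h2, hq, hpq.symm]
    rcases hσ i h1 h2 with h | h <;> simp [h, h1, h2]
  rw [bal, sum_sub_distrib, sum_boole, sum_boole] at e1
  rw [sum_add_distrib, sum_add_distrib, sum_add_distrib, sum_boole, sum_boole] at e2
  simp only [sum_const, card_univ, nsmul_eq_mul, mul_one, sum_ite_eq', mem_univ, if_true] at e2
  constructor <;> omega

end GP
open GP Filter Topology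

theorem gp {κ H : Type} [Fintype κ] [Fintype H] (s b : κ → ℝ) (P Q : H → κ) (t : H → ℝ)
    (σ : H → κ → ℤ) (hlt : ∀ h, s (P h) < s (Q h))
    (meet : ∀ h, s (P h) * t h + b (P h) = s (Q h) * t h + b (Q h))
    (inj : ∀ h h', P h = P h' → Q h = Q h' → h = h')
    (hσ : ∀ h i, i ≠ P h → i ≠ Q h →
      (σ h i = 1 ∧ s (P h) * t h + b (P h) < s i * t h + b i) ∨
      (σ h i = -1 ∧ s i * t h + b i < s (P h) * t h + b (P h)))
    (hP : ∀ h, σ h (P h) = 0) (hQ : ∀ h, σ h (Q h) = 0) (bal : ∀ h, ∑ i, σ h i = 0) :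
    ∃ X : Finset (ℝ × ℝ), X.card = Fintype.card κ ∧ GenPos X ∧ Fintype.card H ≤ halv X := by
  classical
  obtain ⟨n, hn⟩ : ∃ n : κ → ℝ, Function.Injective n :=
    ⟨fun i => ((Fintype.equivFin κ i : ℕ) : ℝ), fun i j h => by
      have : ((Fintype.equivFin κ i : ℕ)) = (Fintype.equivFin κ j : ℕ) := Nat.cast_injective (R := ℝ) h
      exact (Fintype.equivFin κ).injective (Fin.ext this)⟩
  have hPQ : ∀ h, P h ≠ Q h := fun h e => by have := hlt h; rw [e] at this; exact lt_irrefl _ this
  have E1 : ∀ᶠ ε in 𝓝[>] (0 : ℝ), ∀ i j, i ≠ j → pt s b n ε i ≠ pt s b n ε j := by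
    simp only [eventually_all]
    intro i j hij
    filter_upwards [lin_ev (s i - s j) (n i - n j) (sub_ne_zero.2 (hn.ne hij))] with ε h H
    have := congrArg Prod.fst H
    simp only [pt] at this
    exact h (by linarith)
  have E2 : ∀ᶠ ε in 𝓝[>] (0 : ℝ), ∀ i j k, i ≠ j → i ≠ k → j ≠ k →
      orient (pt s b n ε i) (pt s b n ε j) (pt s b n ε k) ≠ 0 := by
    simp only [eventually_all]
    intro i j k h1 h2 h3
    exact orient_ev s b n (hn.ne h1) (hn.ne h2) (hn.ne h3)
  have E3 : ∀ᶠ ε in 𝓝[>] (0 : ℝ), ∀ h i, i ≠ P h → i ≠ Q h →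
      (σ h i = 1 ∧ 0 < orient (pt s b n ε (P h)) (pt s b n ε (Q h)) (pt s b n ε i)) ∨
      (σ h i = -1 ∧ orient (pt s b n ε (P h)) (pt s b n ε (Q h)) (pt s b n ε i) < 0) := by
    simp only [eventually_all]
    intro h i h1 h2
    have e0 : orient (pt s b n 0 (P h)) (pt s b n 0 (Q h)) (pt s b n 0 i) =
        (s (Q h) - s (P h)) * (s i * t h + b i - (s (P h) * t h + b (P h))) := by
      simp only [orient, pt, zero_mul, add_zero]
      have := meet h
      have e : b (Q h) - b (P h) = -(s (Q h) - s (P h)) * t h := by linarith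
      rw [e]; ring
    have hd := sub_pos.2 (hlt h)
    rcases hσ h i h1 h2 with ⟨a, c⟩ | ⟨a, c⟩
    · filter_upwards [ev_pos (cont_orient s b n (P h) (Q h) i)
        (by rw [e0]; exact mul_pos hd (sub_pos.2 c))] with ε hε
      exact Or.inl ⟨a, hε⟩
    · filter_upwards [ev_neg (cont_orient s b n (P h) (Q h) i)
        (by rw [e0]; exact mul_neg_of_pos_of_neg hd (sub_neg.2 c))] with ε hε
      exact Or.inr ⟨a, hε⟩
  obtain ⟨ε, e1, e2, e3⟩ := (E1.and (E2.and E3)).exists
  have hinj : Function.Injective (pt s b n ε) := fun i j h => by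
    by_contra hij; exact e1 i j hij h
  have hcard : (univ.image (pt s b n ε)).card = Fintype.card κ := by
    rw [card_image_of_injective _ hinj, card_univ]
  refine ⟨univ.image (pt s b n ε), hcard, ?_, ?_⟩
  · intro a ha c hc d hd h1 h2 h3
    obtain ⟨i, -, rfl⟩ := mem_image.1 ha
    obtain ⟨j, -, rfl⟩ := mem_image.1 hc
    obtain ⟨k, -, rfl⟩ := mem_image.1 hd
    exact e2 i j k (fun e => h1 (by rw [e])) (fun e => h2 (by rw [e])) (fun e => h3 (by rw [e]))
  · rw [← card_univ, halv]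
    refine card_le_card_of_injOn (fun h => {pt s b n ε (P h), pt s b n ε (Q h)}) ?_ ?_
    · intro h _
      have hne : pt s b n ε (P h) ≠ pt s b n ε (Q h) := e1 _ _ (hPQ h)
      simp only [coe_filter, Set.mem_ofPred_eq, mem_powersetCard]
      refine ⟨⟨?_, card_pair hne⟩, _, _, rfl, hne, ?_⟩
      · intro x hx
        rcases mem_insert.1 hx with rfl | hx
        · exact mem_image_of_mem _ (mem_univ _)
        · rw [mem_singleton.1 hx]; exact mem_image_of_mem _ (mem_univ _)
      have hc := count (σ h) (hPQ h) (fun i h1 h2 => (hσ h i h1 h2).imp And.left And.left)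
        (hP h) (hQ h) (bal h)
      have oP : orient (pt s b n ε (P h)) (pt s b n ε (Q h)) (pt s b n ε (P h)) = 0 := by
        simp [orient]
      have oQ : orient (pt s b n ε (P h)) (pt s b n ε (Q h)) (pt s b n ε (Q h)) = 0 := by
        simp only [orient]; ring
      have f1 : (univ.filter fun i =>
          0 < orient (pt s b n ε (P h)) (pt s b n ε (Q h)) (pt s b n ε i)) =
          univ.filter fun i => σ h i = 1 := by
        refine filter_congr fun i _ => ?_
        by_cases h1 : i = P h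
        · simp [h1, oP, hP]
        by_cases h2 : i = Q h
        · simp [h2, oQ, hQ]
        rcases e3 h i h1 h2 with ⟨a, c⟩ | ⟨a, c⟩
        · simp [a, c]
        · simp [a, c.le]
      have f2 : (univ.filter fun i =>
          orient (pt s b n ε (P h)) (pt s b n ε (Q h)) (pt s b n ε i) < 0) =
          univ.filter fun i => σ h i = -1 := by
        refine filter_congr fun i _ => ?_
        by_cases h1 : i = P h
        · simp [h1, oP, hP]
        by_cases h2 : i = Q h
        · simp [h2, oQ, hQ]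
        rcases e3 h i h1 h2 with ⟨a, c⟩ | ⟨a, c⟩
        · simp [a, c.le]
        · simp [a, c]
      rw [hcard, filter_image, filter_image, card_image_of_injective _ hinj,
        card_image_of_injective _ hinj, f1, f2]
      exact hc
    · intro h _ h' _ H
      have H' : ({pt s b n ε (P h), pt s b n ε (Q h)} : Set (ℝ × ℝ)) =
          {pt s b n ε (P h'), pt s b n ε (Q h')} := by
        have := congrArg (fun S : Finset (ℝ × ℝ) => (S : Set (ℝ × ℝ))) H
        simpa using this
      rcases Set.pair_eq_pair_iff.1 H' with ⟨a, c⟩ | ⟨a, c⟩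
      · exact inj h h' (hinj a) (hinj c)
      · have a' := hinj a
        have c' := hinj c
        have := hlt h
        have := hlt h'
        rw [a', c'] at *
        linarith

end Vale.Agent.P065
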