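import Vale.Agent.P065.Stmt

/-! P065: k-sets, definition used in the statement. -/

namespace Vale.Agent.P065

open Classical in
/-- the number of `k`-element subsets of `P` that a line strictly separates from the rest -/
noncomputable def ksets (P : Finset (ℝ × ℝ)) (k : ℕ) : ℕ :=
  ((P.powersetCard k).filter fun S => ∃ α β γ : ℝ, (α ≠ 0 ∨ β ≠ 0) ∧
    (∀ x ∈ S, γ < α * x.1 + β * x.2) ∧ ∀ x ∈ P, x ∉ S → α * x.1 + β * x.2 < γ).card

end Vale.Agent.P065
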