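import Vale.Agent.P065.Defs
import Vale.Agent.P065.StmtK

/-! P065: from lines to k-sets of points in general position. -/

namespace Vale.Agent.P065
open Finset Filter Topology Set

namespace GPK

theorem ev_pos {f : ℝ → ℝ} (hf : Continuous f) (h : 0 < f 0) : ∀ᶠ ε in 𝓝[>] (0 : ℝ), 0 < f ε :=
  (hf.continuousAt.eventually (lt_mem_nhds h)).filter_mono nhdsWithin_le_nhds

theorem ev_ne {f : ℝ → ℝ} (hf : Continuous f) (h : f 0 ≠ 0) : ∀ᶠ ε in 𝓝[>] (0 : ℝ), f ε ≠ 0 :=
  (hf.continuousAt.eventually_ne h).filter_mono nhdsWithin_le_nhds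

theorem ev_lin {a b : ℝ} (ha : a ≠ 0) : ∀ᶠ ε in 𝓝[>] (0 : ℝ), a * ε + b ≠ 0 := by
  by_cases hb : b = 0
  · filter_upwards [self_mem_nhdsWithin] with ε hε
    rw [hb, add_zero]; exact mul_ne_zero ha (ne_of_gt hε)
  · exact ev_ne (by fun_prop) (by simpa using hb)

theorem ev_quad {a b c : ℝ} (ha : a ≠ 0) : ∀ᶠ ε in 𝓝[>] (0 : ℝ), (a * ε + b) * ε + c ≠ 0 := by
  by_cases hc : c = 0
  · filter_upwards [self_mem_nhdsWithin, ev_lin (b := b) ha] with ε hε h
    rw [hc, add_zero]; exact mul_ne_zero h (ne_of_gt hε)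
  · exact ev_ne (by fun_prop) (by simpa using hc)

theorem perturb {κ : Type} [Fintype κ] (s b n : κ → ℝ) (hn : Function.Injective n) :
    ∀ᶠ ε in 𝓝[>] (0 : ℝ), (∀ i j, i ≠ j → s i + ε * n i ≠ s j + ε * n j) ∧
      ∀ i j k, i ≠ j → i ≠ k → j ≠ k → orient (s i + ε * n i, b i + ε * n i ^ 2)
        (s j + ε * n j, b j + ε * n j ^ 2) (s k + ε * n k, b k + ε * n k ^ 2) ≠ 0 := by
  refine Eventually.and ?_ ?_
  · refine eventually_all.2 fun i => eventually_all.2 fun j => eventually_all.2 fun hij => ?_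
    filter_upwards [ev_lin (b := s i - s j) (sub_ne_zero.2 (hn.ne hij))] with ε h e
    exact h (by linarith)
  · refine eventually_all.2 fun i => eventually_all.2 fun j => eventually_all.2 fun k =>
      eventually_all.2 fun hij => eventually_all.2 fun hik => eventually_all.2 fun hjk => ?_
    have h0 : (n j - n i) * (n k - n i) * (n k - n j) ≠ 0 :=
      mul_ne_zero (mul_ne_zero (sub_ne_zero.2 (hn.ne hij.symm)) (sub_ne_zero.2 (hn.ne hik.symm)))
        (sub_ne_zero.2 (hn.ne hjk.symm))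
    filter_upwards [ev_quad (b := (s j - s i) * (n k ^ 2 - n i ^ 2) + (n j - n i) * (b k - b i)
      - (b j - b i) * (n k - n i) - (n j ^ 2 - n i ^ 2) * (s k - s i))
      (c := (s j - s i) * (b k - b i) - (b j - b i) * (s k - s i)) h0] with ε h e
    apply h
    simp only [orient] at e
    linarith

end GPK

open Classical in
theorem gpk {κ H : Type} [Fintype κ] [Fintype H] (s b : κ → ℝ) (P Q : H → κ) (t : H → ℝ) (k : ℕ)
    (hlt : ∀ h, s (P h) < s (Q h))
    (meet : ∀ h, s (P h) * t h + b (P h) = s (Q h) * t h + b (Q h))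
    (inj : ∀ h h', P h = P h' → Q h = Q h' → h = h')
    (hne : ∀ h i, i ≠ P h → i ≠ Q h → s i * t h + b i ≠ s (P h) * t h + b (P h))
    (cnt : ∀ h, (univ.filter fun i => s (P h) * t h + b (P h) < s i * t h + b i).card + 1 = k) :
    ∃ X : Finset (ℝ × ℝ), X.card = Fintype.card κ ∧ GenPos X ∧ Fintype.card H ≤ ksets X k := by
  let S : H → Finset κ := fun h =>
    insert (Q h) (univ.filter fun i => s (P h) * t h + b (P h) < s i * t h + b i)
  have mem : ∀ h i, i ∈ S h ↔ i = Q h ∨ s (P h) * t h + b (P h) < s i * t h + b i := fun h i => by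
    simp [S]
  have up : ∀ h i, i ∈ S h → s (P h) * t h + b (P h) ≤ s i * t h + b i := fun h i hi => by
    rcases (mem h i).1 hi with a | a
    · rw [a, meet h]
    · exact a.le
  have dn : ∀ h i, i ∉ S h → s i * t h + b i ≤ s (P h) * t h + b (P h) := fun h i hi =>
    not_lt.1 fun a => hi ((mem h i).2 (Or.inr a))
  have PQ : ∀ h, P h ≠ Q h := fun h e => (hlt h).ne (by rw [e])
  have nP : ∀ h, P h ∉ S h := fun h a => ((mem h _).1 a).elim (PQ h) (lt_irrefl _)
  have mQ : ∀ h, Q h ∈ S h := fun h => (mem h _).2 (Or.inl rfl)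
  have cS : ∀ h, (S h).card = k := fun h => by
    rw [← cnt h]
    exact Finset.card_insert_of_notMem fun a => (mem_filter.1 a).2.ne (meet h)
  have nlt : ∀ h h', S h = S h' → ¬ t h < t h' := fun h h' e a => by
    have b1 := up h (Q h') (e ▸ mQ h')
    have b2 := dn h (P h') (e ▸ nP h')
    have b3 := meet h'
    nlinarith [mul_pos (sub_pos.2 (hlt h')) (sub_pos.2 a)]
  have Sinj : Function.Injective S := fun h h' e => by
    have et : t h = t h' := le_antisymm (not_lt.1 (nlt h' h e.symm)) (not_lt.1 (nlt h h' e))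
    have b1 := up h' (Q h) (e ▸ mQ h)
    have b2 := dn h' (P h) (e ▸ nP h)
    have b3 := meet h
    rw [et] at b3
    refine inj h h' ?_ ?_
    · by_contra a
      exact hne h' (P h) a (fun c => nP h (by rw [c, e]; exact mQ h')) (by linarith)
    · by_contra a
      exact hne h' (Q h) (fun c => nP h' (by rw [← c, ← e]; exact mQ h)) a (by linarith)
  have sep : ∀ h, ∃ θ c : ℝ, (∀ i ∈ S h, c < s i * θ + b i) ∧ ∀ i ∉ S h, s i * θ + b i < c := by
    intro h
    have e1 : ∀ᶠ η in 𝓝[>] (0 : ℝ), ∀ i ∈ S h, 0 < s i * (t h + η) + b i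
        - (s (P h) * t h + b (P h) + (s (P h) + s (Q h)) / 2 * η) := by
      refine eventually_all.2 fun i => eventually_all.2 fun hi => ?_
      rcases (mem h i).1 hi with a | a
      · filter_upwards [self_mem_nhdsWithin] with η hη
        rw [a, meet h]
        nlinarith [mul_pos (sub_pos.2 (hlt h)) (show 0 < η from hη)]
      · exact GPK.ev_pos (by fun_prop) (by simpa using a)
    have e2 : ∀ᶠ η in 𝓝[>] (0 : ℝ), ∀ i ∉ S h,
        0 < (s (P h) * t h + b (P h) + (s (P h) + s (Q h)) / 2 * η) - (s i * (t h + η) + b i) := by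
      refine eventually_all.2 fun i => eventually_all.2 fun hi => ?_
      by_cases a : i = P h
      · filter_upwards [self_mem_nhdsWithin] with η hη
        rw [a]
        nlinarith [mul_pos (sub_pos.2 (hlt h)) (show 0 < η from hη)]
      · exact GPK.ev_pos (by fun_prop) (by
          simpa using lt_of_le_of_ne (dn h i hi) (hne h i a fun c => hi (c ▸ mQ h)))
    obtain ⟨η, a1, a2⟩ := (e1.and e2).exists
    exact ⟨t h + η, _, fun i hi => sub_pos.1 (a1 i hi), fun i hi => sub_pos.1 (a2 i hi)⟩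
  choose θ c h1 h2 using sep
  let n : κ → ℝ := fun i => ((Fintype.equivFin κ i : ℕ) : ℝ)
  have hn : Function.Injective n := fun i j e =>
    (Fintype.equivFin κ).injective (Fin.ext (Nat.cast_injective (R := ℝ) e))
  have e1 : ∀ᶠ ε in 𝓝[>] (0 : ℝ), ∀ h, ∀ i ∈ S h,
      0 < θ h * (s i + ε * n i) + 1 * (b i + ε * n i ^ 2) - c h :=
    eventually_all.2 fun h => eventually_all.2 fun i => eventually_all.2 fun hi =>
      GPK.ev_pos (by fun_prop) (by have := h1 h i hi; linarith)
  have e2 : ∀ᶠ ε in 𝓝[>] (0 : ℝ), ∀ h, ∀ i ∉ S h,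
      0 < c h - (θ h * (s i + ε * n i) + 1 * (b i + ε * n i ^ 2)) :=
    eventually_all.2 fun h => eventually_all.2 fun i => eventually_all.2 fun hi =>
      GPK.ev_pos (by fun_prop) (by have := h2 h i hi; linarith)
  obtain ⟨ε, ⟨a1, a2⟩, a3, a4⟩ := ((GPK.perturb s b n hn).and (e1.and e2)).exists
  let pt : κ → ℝ × ℝ := fun i => (s i + ε * n i, b i + ε * n i ^ 2)
  have hpt : Function.Injective pt := fun i j e => by
    by_contra a
    exact a1 i j a (congrArg Prod.fst e)
  refine ⟨univ.image pt, by rw [Finset.card_image_of_injective _ hpt, Finset.card_univ], ?_, ?_⟩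
  · intro x hx y hy z hz xy xz yz
    obtain ⟨i, -, rfl⟩ := Finset.mem_image.1 hx
    obtain ⟨j, -, rfl⟩ := Finset.mem_image.1 hy
    obtain ⟨l, -, rfl⟩ := Finset.mem_image.1 hz
    exact a2 i j l (fun e => xy (by rw [e])) (fun e => xz (by rw [e])) fun e => yz (by rw [e])
  · rw [← Finset.card_univ]
    refine Finset.card_le_card_of_injOn (fun h => (S h).image pt) (fun h _ => ?_)
      fun h _ h' _ e => Sinj (Finset.image_injective hpt e)
    refine Finset.mem_coe.2 (Finset.mem_filter.2 ⟨Finset.mem_powersetCard.2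
      ⟨Finset.image_subset_image (Finset.subset_univ _), by
        rw [Finset.card_image_of_injective _ hpt, cS]⟩, θ h, 1, c h, Or.inr one_ne_zero, ?_, ?_⟩)
    · intro x hx
      obtain ⟨i, hi, rfl⟩ := Finset.mem_image.1 hx
      exact sub_pos.1 (a3 h i hi)
    · intro x hx hx'
      obtain ⟨i, -, rfl⟩ := Finset.mem_image.1 hx
      exact sub_pos.1 (a4 h i fun a => hx' (Finset.mem_image_of_mem _ a))

end Vale.Agent.P065
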