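import Vale.Agent.P065.Step
import Vale.Agent.P065.Seed

/-! P065: iterating the step. -/

namespace Vale.Agent.P065
open Finset

def Lev (T M : ℕ) (g : ℝ) : Prop :=
  ∃ N V π : ℕ, Inn N V π M ∧ 0 < N ∧ N ≤ M ∧ 200 ≤ π ∧ (16 * π) ^ T ≤ M ∧
    g * N ≤ 5 / 11 * (V * π)

theorem IterX.ind {T M Q N V π : ℕ} {g : ℝ} (hI : Inn N V π M) (N0 : 0 < N) (NM : N ≤ M)
    (π1 : 200 ≤ π) (π2 : (16 * π) ^ T ≤ M) (hg : g * N ≤ 5 / 11 * (V * π)) (TM : T ≤ M)
    (hM : 1000 ≤ M) (g0 : 0 ≤ g) (hQ : Q = M * M) (b : ℕ) (hb : b < T) :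
    ∃ N' V' π' : ℕ, Has N' V' π' (1 / (M : ℝ) / (Q : ℝ) ^ (55 * b))
      (1 / (M : ℝ) / 2 / (Q : ℝ) ^ (59 * b)) (1 / (Q : ℝ) ^ 24) ((Q : ℝ) ^ 2) (M + b) ∧ 0 < N' ∧
      N' ≤ N * Q ^ (12 * b) ∧ 200 ≤ π' ∧ 16 * π' ≤ (16 * π) ^ (b + 1) ∧
      g ^ (b + 1) * N' ≤ 5 / 11 * (V' * π') := by
  have MR : (1000 : ℝ) ≤ M := by exact_mod_cast hM
  have M0 : (0 : ℝ) < M := by linarith
  have QR : (Q : ℝ) = M * M := by rw [hQ]; push_cast; rfl
  have Q4 : 4 * (M : ℝ) ≤ Q := by rw [QR]; nlinarith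
  have Q1 : (1 : ℝ) ≤ Q := by linarith
  have MQ : M ≤ Q := by exact_mod_cast (by linarith : (M : ℝ) ≤ Q)
  have QQ : (Q : ℝ) ≤ (Q : ℝ) ^ 2 := by nlinarith
  have iM : 1 / (M : ℝ) ≤ 1 := by rw [div_le_one M0]; linarith
  induction b with
  | zero =>
    refine ⟨N, V, π, ?_, N0, by simp, π1, by simp, by simpa using hg⟩
    have h := Has.theta hI (by positivity) (by positivity) le_rfl M0
    simp only [mul_zero, pow_zero, div_one, Nat.cast_zero, add_zero]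
    refine h.mono (by positivity) le_rfl ?_ (by gcongr) le_rfl
    rw [div_div, div_le_div_iff₀ (by positivity) (by positivity), one_mul, one_mul]
    calc (M : ℝ) * (4 * M) ≤ Q * Q := by gcongr
      _ = (Q : ℝ) ^ 2 := by ring
      _ ≤ (Q : ℝ) ^ 24 := pow_le_pow_right₀ Q1 (by norm_num)
  | succ b ih =>
    obtain ⟨N1, V1, π1', h, a0, a1, a2, a3, a4⟩ := ih (by omega)
    have p1 : π1' ≤ Q := by
      have := Nat.pow_le_pow_right (show 0 < 16 * π by omega) (show b + 1 ≤ T by omega)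
      omega
    have bM : (b : ℝ) ≤ M := by exact_mod_cast (by omega : b ≤ M)
    obtain ⟨N2, V2, π2', k, b0, b1, b2, b3, b4⟩ := step hI h (by omega) Q4 (by linarith) N0
      (by omega) (by omega) a2 p1 (by positivity)
      ((div_le_self (by positivity) (one_le_pow₀ Q1)).trans iM) (by positivity)
      ((div_le_self (by positivity) (one_le_pow₀ Q1)).trans (by linarith)) (by positivity)
      (by linarith)
    refine ⟨N2, V2, π2', ?_, by omega, ?_, b2, ?_, ?_⟩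
    · rw [div_div _ ((Q : ℝ) ^ (55 * b)), div_div _ ((Q : ℝ) ^ (59 * b)), ← pow_add, ← pow_add,
        add_assoc] at k
      push_cast
      exact k
    · calc N2 ≤ N1 * Q ^ 12 := b1
        _ ≤ N * Q ^ (12 * b) * Q ^ 12 := Nat.mul_le_mul_right _ a1
        _ = N * Q ^ (12 * (b + 1)) := by rw [mul_assoc, ← pow_add, mul_add, mul_one]
    · calc 16 * π2' ≤ 16 * (16 * π1' * π) := Nat.mul_le_mul_left _ b3
        _ = 16 * π1' * (16 * π) := by ring
        _ ≤ (16 * π) ^ (b + 1) * (16 * π) := Nat.mul_le_mul_right _ a3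
        _ = (16 * π) ^ (b + 1 + 1) := (pow_succ _ _).symm
    · have c1 : 5 * ((V1 : ℝ) * π1') * (V * π) * N2 ≤ 11 * (V2 * π2') * (N1 * N) := by
        exact_mod_cast b4
      have c2 : (0 : ℝ) < N1 * N := by positivity
      have c3 : g ^ (b + 1) * N1 * (g * N) ≤ 5 / 11 * (V1 * π1') * (5 / 11 * (V * π)) :=
        mul_le_mul a4 hg (by positivity) (by positivity)
      have c4 : g ^ (b + 1) * N1 * (g * N) * N2 ≤
          5 / 11 * (V1 * π1') * (5 / 11 * (V * π)) * N2 := by gcongr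
      refine le_of_mul_le_mul_right ?_ c2
      calc g ^ (b + 1 + 1) * N2 * (N1 * N) = g ^ (b + 1) * N1 * (g * N) * N2 := by ring
        _ ≤ _ := c4
        _ = 5 / 121 * (5 * ((V1 : ℝ) * π1') * (V * π) * N2) := by ring
        _ ≤ 5 / 121 * (11 * (V2 * π2') * (N1 * N)) := by gcongr
        _ = _ := by ring

theorem lev_succ {T M : ℕ} {g : ℝ} (h : Lev T M g) (T1 : 1 ≤ T) (TM : T ≤ M) (hM : 1000 ≤ M)
    (g0 : 0 ≤ g) : Lev T (M ^ (120 * T)) (g ^ T) := by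
  obtain ⟨N, V, π, hI, N0, NM, π1, π2, hg⟩ := h
  obtain ⟨b, rfl⟩ : ∃ b, T = b + 1 := ⟨T - 1, by omega⟩
  obtain ⟨N', V', π', k, a0, a1, a2, a3, a4⟩ :=
    IterX.ind hI N0 NM π1 π2 hg TM hM g0 rfl b (by omega)
  have MR : (1000 : ℝ) ≤ M := by exact_mod_cast hM
  have M0 : (0 : ℝ) < M := by linarith
  have M1 : (1 : ℝ) ≤ M := by linarith
  have e : ((M * M : ℕ) : ℝ) = (M : ℝ) ^ 2 := by push_cast; ring
  rw [e] at k
  refine ⟨N', V', π', ?_, a0, ?_, a2, ?_, a4⟩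
  · rw [Nat.cast_pow]
    refine k.toInn (by positivity) (by positivity) ?_ ?_ ?_
    · rw [div_div, ← pow_mul, ← pow_succ']
      exact one_div_le_one_div_of_le (by positivity) (pow_le_pow_right₀ M1 (by omega))
    · rw [div_div, div_div]
      refine one_div_le_one_div_of_le (by positivity) ?_
      calc (M : ℝ) * (2 * ((M : ℝ) ^ 2) ^ (59 * b)) ≤ M * (M * ((M : ℝ) ^ 2) ^ (59 * b)) := by
            gcongr; linarith
        _ = (M : ℝ) ^ (2 * (59 * b) + 1 + 1) := by rw [← pow_mul, ← pow_succ', ← pow_succ']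
        _ ≤ _ := pow_le_pow_right₀ M1 (by omega)
    · have bM : (b : ℝ) ≤ M := by exact_mod_cast (by omega : b ≤ M)
      calc (M : ℝ) + b ≤ (M : ℝ) ^ 2 := by nlinarith
        _ ≤ _ := pow_le_pow_right₀ M1 (by omega)
  · calc N' ≤ N * (M * M) ^ (12 * b) := a1
      _ ≤ M * (M * M) ^ (12 * b) := Nat.mul_le_mul_right _ NM
      _ = M ^ (2 * (12 * b) + 1) := by rw [← sq, ← pow_mul, ← pow_succ']
      _ ≤ _ := Nat.pow_le_pow_right (by omega) (by omega)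
  · calc (16 * π') ^ (b + 1) ≤ M ^ (b + 1) := Nat.pow_le_pow_left (a3.trans π2) _
      _ ≤ _ := Nat.pow_le_pow_right (by omega) (by omega)

theorem iter : ∃ c : ℕ, 2 ≤ c ∧ ∀ T d : ℕ, 1 ≤ T →
    Lev T (c ^ (T * (120 * T) ^ d)) ((12 / 11) ^ (T ^ d)) := by
  obtain ⟨N, V, π, M, hI, N0, NM, π1, hg⟩ := seed
  obtain ⟨c, c1, c2, c3⟩ : ∃ c, M ≤ c ∧ 16 * π ≤ c ∧ 1000 ≤ c :=
    ⟨M + 16 * π + 1000, by omega, by omega, by omega⟩
  refine ⟨c, by omega, fun T d T1 => ?_⟩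
  have cT : c ≤ c ^ T := Nat.le_self_pow (by omega) c
  induction d with
  | zero =>
    rw [pow_zero, mul_one, pow_zero, pow_one]
    have M0 : (0 : ℝ) < M := by exact_mod_cast (by omega : 0 < M)
    have m1 : (M : ℝ) ≤ (c ^ T : ℕ) := by exact_mod_cast c1.trans cT
    have m2 := one_div_le_one_div_of_le M0 m1
    refine ⟨N, V, π, Has.toInn hI le_rfl (by linarith) m2 m2 m1, N0, NM.trans (c1.trans cT), π1,
      Nat.pow_le_pow_left c2 _, ?_⟩
    have : 12 * (N : ℝ) ≤ 5 * (V * π) := by exact_mod_cast hg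
    linarith
  | succ d ih =>
    have a1 : c ^ T ≤ c ^ (T * (120 * T) ^ d) :=
      Nat.pow_le_pow_right (by omega) (Nat.le_mul_of_pos_right _ (by positivity))
    have a2 : T ≤ c ^ T := (Nat.lt_pow_self (by omega)).le
    have := lev_succ ih T1 (a2.trans a1) (c3.trans (cT.trans a1)) (by positivity)
    rw [← pow_mul, ← pow_mul, mul_assoc, ← pow_succ, ← pow_succ] at this
    exact this

end Vale.Agent.P065
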