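import Vale.Agent.P065.GPK

/-! P065: many k-sets from copies of a set with many halving lines. -/

namespace Vale.Agent.P065
open Finset Filter Topology Set

namespace KCopy

theorem shear (X : Finset (ℝ × ℝ)) :
    ∃ l : ℝ, ∀ a ∈ X, ∀ c ∈ X, a ≠ c → a.1 + l * a.2 ≠ c.1 + l * c.2 := by
  have : ∀ᶠ l in 𝓝[>] (0 : ℝ), ∀ a ∈ X, ∀ c ∈ X, a ≠ c → a.1 + l * a.2 ≠ c.1 + l * c.2 := by
    refine (eventually_all_finset X).2 fun a _ => (eventually_all_finset X).2 fun c _ =>
      eventually_all.2 fun hac => ?_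
    by_cases h : a.2 = c.2
    · exact Eventually.of_forall fun l e => hac (Prod.ext (by rw [h] at e; linarith) h)
    · filter_upwards [GPK.ev_lin (b := a.1 - c.1) (sub_ne_zero.2 h)] with l h1 e
      exact h1 (by linarith)
  exact this.exists

open Classical in
theorem lines (X : Finset (ℝ × ℝ)) (hX : GenPos X) :
    ∃ (H : Type) (_ : Fintype H) (s b : X → ℝ) (P Q : H → X) (t : H → ℝ),
      Fintype.card H = halv X ∧ (∀ h, s (P h) < s (Q h)) ∧
      (∀ h, s (P h) * t h + b (P h) = s (Q h) * t h + b (Q h)) ∧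
      (∀ h h', P h = P h' → Q h = Q h' → h = h') ∧
      (∀ h i, i ≠ P h → i ≠ Q h → s i * t h + b i ≠ s (P h) * t h + b (P h)) ∧
      ∀ h, 2 * (univ.filter fun i => s (P h) * t h + b (P h) < s i * t h + b i).card + 2
        = X.card := by
  obtain ⟨l, hl⟩ := shear X
  have key : ∀ S : ((X.powersetCard 2).filter fun S => ∃ a b, S = {a, b} ∧ Halving X a b),
      ∃ a c : X, S.1 = {a.1, c.1} ∧ a.1.1 + l * a.1.2 < c.1.1 + l * c.1.2 ∧
        2 * (X.filter fun x => 0 < orient a c x).card + 2 = X.card := by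
    intro S
    obtain ⟨h1, a, c, h2, h3, h4, h5⟩ := Finset.mem_filter.1 S.2
    have h6 := (Finset.mem_powersetCard.1 h1).1
    have ha : a ∈ X := h6 (by rw [h2]; simp)
    have hc : c ∈ X := h6 (by rw [h2]; simp)
    rcases lt_or_gt_of_ne (hl a ha c hc h3) with h | h
    · exact ⟨⟨a, ha⟩, ⟨c, hc⟩, h2, h, h4⟩
    · refine ⟨⟨c, hc⟩, ⟨a, ha⟩, by rw [h2, Finset.pair_comm], h, ?_⟩
      rw [← h5]
      congr 3
      ext x
      have : orient c a x = -orient a c x := by simp only [orient]; ring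
      simp only [Finset.mem_filter, this, Left.neg_pos_iff]
  choose P Q h1 h2 h3 using key
  let s : X → ℝ := fun a => a.1.1 + l * a.1.2
  let t := fun h => ((P h).1.2 - (Q h).1.2) / (s (Q h) - s (P h))
  have hD : ∀ h, 0 < s (Q h) - s (P h) := fun h => sub_pos.2 (h2 h)
  have ho : ∀ h (i : X), orient (P h) (Q h) i
      = (s (Q h) - s (P h)) * (s i * t h + i.1.2 - (s (P h) * t h + (P h).1.2)) := fun h i => by
    have := (hD h).ne'
    simp only [t]
    field_simp
    simp only [orient, s]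
    ring
  refine ⟨_, inferInstance, s, fun a => a.1.2, P, Q, t, by rw [Fintype.card_coe]; rfl, h2,
    fun h => ?_, fun h h' a c => Subtype.ext (by rw [h1, h1, a, c]), fun h i a c e => ?_,
    fun h => ?_⟩
  · have := (hD h).ne'
    simp only [t]
    field_simp
    ring
  · refine hX _ (P h).2 _ (Q h).2 _ i.2 (fun x => (h2 h).ne (by rw [x]))
      (fun x => a (Subtype.ext x.symm)) (fun x => c (Subtype.ext x.symm)) ?_
    rw [ho, e, sub_self, mul_zero]
  · rw [← h3 h]
    congr 2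
    refine Finset.card_bij (fun i _ => i.1) (fun i hi => Finset.mem_filter.2 ⟨i.2, ?_⟩)
      (fun _ _ _ _ e => Subtype.ext e) fun x hx => ?_
    · rw [ho]; exact mul_pos (hD h) (sub_pos.2 (Finset.mem_filter.1 hi).2)
    · obtain ⟨a, c⟩ := Finset.mem_filter.1 hx
      refine ⟨⟨x, a⟩, Finset.mem_filter.2 ⟨Finset.mem_univ _, ?_⟩, rfl⟩
      have := ho h ⟨x, a⟩
      rw [this] at c
      exact sub_pos.1 ((mul_pos_iff_of_pos_left (hD h)).1 c)

theorem bdd {H : Type} [Fintype H] (f : H → ℝ) : ∃ F : ℝ, 0 < F ∧ ∀ h, |f h| < F := by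
  have : ∀ᶠ F : ℝ in atTop, 0 < F ∧ ∀ h, |f h| < F :=
    (eventually_gt_atTop 0).and (eventually_all.2 fun h => eventually_gt_atTop _)
  exact this.exists

end KCopy

open Classical in
theorem ksets_of_halv (X : Finset (ℝ × ℝ)) (hX : GenPos X) (r u w k : ℕ)
    (hk : 2 * k = 2 * u + X.card) :
    ∃ Y : Finset (ℝ × ℝ), Y.card = r * X.card + (u + w) ∧ GenPos Y ∧ r * halv X ≤ ksets Y k := by
  obtain ⟨H, i1, s, b, P, Q, t, h0, h1, h2, h3, h4, h5⟩ := KCopy.lines X hX
  obtain ⟨D, D0, hD⟩ := KCopy.bdd fun h => 2 * t h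
  let v : ℝ → Fin r × X → ℝ → ℝ := fun ε x T =>
    (x.1 * D + ε * s x.2) * T + (-((x.1 : ℝ) * D) ^ 2 / 2 + ε * (b x.2 - s x.2 * (x.1 * D)))
  have e1 : ∀ᶠ ε in 𝓝[>] (0 : ℝ), ∀ (h : Fin r × H) (x : Fin r × X), x.1 ≠ h.1 →
      0 < v ε (h.1, P h.2) (h.1 * D + t h.2) - v ε x (h.1 * D + t h.2) := by
    refine eventually_all.2 fun h => eventually_all.2 fun x => eventually_all.2 fun hx =>
      GPK.ev_pos (by simp only [v]; fun_prop) ?_
    simp only [v, zero_mul, add_zero]
    have a := abs_lt.1 (hD h.2)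
    have c : ((x.1 : ℕ) : ℝ) + 1 ≤ (h.1 : ℕ) ∨ ((h.1 : ℕ) : ℝ) + 1 ≤ (x.1 : ℕ) := by
      rcases lt_or_gt_of_ne hx with c | c
      · exact Or.inl (by exact_mod_cast c)
      · exact Or.inr (by exact_mod_cast c)
    generalize ((x.1 : ℕ) : ℝ) = j at c
    generalize ((h.1 : ℕ) : ℝ) = j0 at c
    rcases c with c | c
    · have c1 : D ≤ (j0 - j) * D := by nlinarith
      nlinarith [mul_pos (lt_of_lt_of_le D0 c1) (show 0 < (j0 - j) * D + 2 * t h.2 by linarith [a.1])]
    · have c1 : D ≤ (j - j0) * D := by nlinarith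
      nlinarith [mul_pos (lt_of_lt_of_le D0 c1) (show 0 < (j - j0) * D - 2 * t h.2 by linarith [a.2])]
  have e0 : ∀ᶠ ε in 𝓝[>] (0 : ℝ), 0 < ε := self_mem_nhdsWithin
  obtain ⟨ε, ε0', hε⟩ := (e0.and e1).exists
  obtain ⟨F, F0, hF⟩ := KCopy.bdd fun h : Fin r × H => v ε (h.1, P h.2) (h.1 * D + t h.2)
  have own : ∀ (j : Fin r) (h : H) (i : X), v ε (j, i) (j * D + t h)
      = j * D * (j * D + t h) - (j * D) ^ 2 / 2 + ε * (s i * t h + b i) := fun j h i => by
    simp only [v]; ring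
  obtain ⟨Y, y1, y2, y3⟩ := gpk (κ := (Fin r × X) ⊕ (Fin u ⊕ Fin w)) (H := Fin r × H)
    (Sum.elim (fun x => x.1 * D + ε * s x.2) fun _ => 0)
    (Sum.elim (fun x => -((x.1 : ℝ) * D) ^ 2 / 2 + ε * (b x.2 - s x.2 * (x.1 * D)))
      (Sum.elim (fun _ => F) fun _ => -F))
    (fun h => Sum.inl (h.1, P h.2)) (fun h => Sum.inl (h.1, Q h.2)) (fun h => h.1 * D + t h.2) k
    (fun h => by simpa using mul_lt_mul_of_pos_left (h1 h.2) ε0')
    (fun h => by
      change v ε (h.1, P h.2) _ = v ε (h.1, Q h.2) _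
      rw [own, own, h2])
    (fun h h' a c => by
      simp only [Sum.inl.injEq, Prod.mk.injEq] at a c
      exact Prod.ext a.1 (h3 _ _ a.2 c.2))
    (fun h i a c => by
      have f := abs_lt.1 (hF h)
      rcases i with ⟨j, i⟩ | i | i
      · change v ε (j, i) _ ≠ v ε (h.1, P h.2) _
        by_cases hj : j = h.1
        · subst hj
          rw [own, own]
          intro e
          exact h4 h.2 i (fun x => a (by rw [x])) (fun x => c (by rw [x]))
            (mul_left_cancel₀ ε0'.ne' (add_left_cancel e))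
        · exact (sub_pos.1 (hε h (j, i) hj)).ne
      · change 0 * _ + F ≠ v ε (h.1, P h.2) _
        linarith [f.2]
      · change 0 * _ + -F ≠ v ε (h.1, P h.2) _
        linarith [f.1])
    (fun h => by
      have f := abs_lt.1 (hF h)
      have g := h5 h.2
      rw [Finset.card_filter] at g ⊢
      rw [Fintype.sum_sum_type, Fintype.sum_sum_type, Fintype.sum_prod_type,
        Finset.sum_eq_single h.1]
      · have a1 : ∀ i : X, (v ε (h.1, P h.2) (h.1 * D + t h.2) < v ε (h.1, i) (h.1 * D + t h.2))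
            ↔ s (P h.2) * t h.2 + b (P h.2) < s i * t h.2 + b i := fun i => by
          rw [own, own, add_lt_add_iff_left, mul_lt_mul_iff_right₀ ε0']
        have a2 : v ε (h.1, P h.2) (h.1 * D + t h.2) < 0 * (h.1 * D + t h.2) + F := by
          linarith [f.2]
        have a3 : ¬ v ε (h.1, P h.2) (h.1 * D + t h.2) < 0 * (h.1 * D + t h.2) + -F := by
          linarith [f.1]
        simp only [v] at a1 a2 a3
        simp only [Sum.elim_inl, Sum.elim_inr, a1, a2, a3, if_true, if_false, sum_const, card_univ,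
          Fintype.card_fin, smul_eq_mul, mul_one, mul_zero, add_zero]
        omega
      · intro j _ hj
        refine Finset.sum_eq_zero fun i _ => if_neg ?_
        exact not_lt.2 (sub_pos.1 (hε h (j, i) hj)).le
      · simp)
  refine ⟨Y, by simpa using y1, y2, by simpa [h0] using y3⟩

end Vale.Agent.P065
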