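import Vale.Agent.P065.Iter
import Vale.Agent.P065.Expand
import Vale.Agent.P065.Asym

/-! P065: the lower bound. -/

namespace Vale.Agent.P065
open Finset

theorem Lev.points {T M : ℕ} {g : ℝ} (h : Lev T M g) (g0 : 0 < g) {n : ℕ} (hn : M + 1 ≤ n)
    (he : Even n) : ∃ X : Finset (ℝ × ℝ), X.card = n ∧ GenPos X ∧ n * (g / 2) ≤ halv X := by
  obtain ⟨N, V, π, hI, N0, NM, π1, -, hg⟩ := h
  have M1 : (1 : ℝ) ≤ M := by exact_mod_cast (by omega : 1 ≤ M)
  have a0 : (0 : ℝ) < 1 / M := by positivity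
  have a1 : (1 : ℝ) / M ≤ 1 := by rw [div_le_one (by linarith)]; exact M1
  have NR : (0 : ℝ) < N := by exact_mod_cast N0
  have hodd : Odd N := by
    obtain ⟨X, h1, -, h3⟩ := Has.points hI a0 a0 le_rfl 0
    have : (0 : ℝ) < V * π := by nlinarith [mul_pos g0 NR]
    have h4 : 0 < halv X := lt_of_lt_of_le (by exact_mod_cast this) h3
    obtain ⟨S, hS⟩ := Finset.card_pos.1 h4
    classical
    obtain ⟨a, b, -, -, h5, -⟩ := (Finset.mem_filter.1 hS).2
    rw [Nat.odd_iff]; omega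
  obtain ⟨d, d1, d2⟩ : ∃ d, (2 * d + 1) * N + 1 ≤ n ∧ n ≤ (2 * d + 3) * N := by
    refine ⟨(n - 1 - N) / (2 * N), ?_, ?_⟩
    · have := Nat.div_mul_le_self (n - 1 - N) (2 * N)
      have e : (2 * ((n - 1 - N) / (2 * N)) + 1) * N = (n - 1 - N) / (2 * N) * (2 * N) + N := by ring
      omega
    · have := Nat.lt_div_mul_add (a := n - 1 - N) (show 0 < 2 * N by omega)
      have e : (2 * ((n - 1 - N) / (2 * N)) + 3) * N
          = (n - 1 - N) / (2 * N) * (2 * N) + 2 * N + N := by ring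
      omega
  obtain ⟨u, hu⟩ : ∃ u, n = (2 * d + 1) * N + 1 + 2 * u := by
    have : Odd ((2 * d + 1) * N) := (odd_two_mul_add_one d).mul hodd
    rw [Nat.odd_iff] at this
    rw [Nat.even_iff] at he
    exact ⟨(n - ((2 * d + 1) * N + 1)) / 2, by omega⟩
  obtain ⟨X, h1, h2, h3⟩ := (Has.scale hI a0 a1 a0 a1 le_rfl d).points a0 (by positivity) le_rfl u
  refine ⟨X, by omega, h2, le_trans ?_ (Nat.cast_le.2 h3)⟩
  have d3 : (n : ℝ) ≤ (2 * d + 3) * N := by exact_mod_cast d2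
  have d0 : (0 : ℝ) ≤ d := Nat.cast_nonneg d
  have e1 := mul_le_mul_of_nonneg_left hg (show (0 : ℝ) ≤ 2 * d + 1 by positivity)
  have e2 := mul_le_mul_of_nonneg_right d3 g0.le
  have e3 : 0 ≤ d * (g * N) := by positivity
  have e4 : 0 ≤ g * N := by positivity
  push_cast
  nlinarith

theorem main : ∃ C : ℝ, 0 < C ∧ ∃ n0 : ℕ, ∀ n ≥ n0, Even n →
    ∃ P : Finset (ℝ × ℝ), P.card = n ∧ GenPos P ∧
      n * Real.exp (Real.log n * Real.exp (-C * √(Real.log (Real.log n)))) ≤ halv P := by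
  obtain ⟨c, c2, hc⟩ := iter
  obtain ⟨C, C0, n0, h⟩ := asym c c2
  refine ⟨C, C0, n0, fun n hn he => ?_⟩
  obtain ⟨T, d, T1, h1, h2⟩ := h n hn
  obtain ⟨X, a1, a2, a3⟩ := (hc T d T1).points (by positivity) h1 he
  exact ⟨X, a1, a2, (mul_le_mul_of_nonneg_left h2 (Nat.cast_nonneg n)).trans a3⟩

end Vale.Agent.P065
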