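import Vale.Agent.P065.Main
import Vale.Agent.P065.KCopy

/-! P065: the lower bound for k-sets. -/

namespace Vale.Agent.P065
open Finset

theorem Has.pi_le {N V π : ℕ} {δ τ θ R A : ℝ} (h : Has N V π δ τ θ R A) (hV : 0 < V) : π ≤ N := by
  obtain ⟨ι, E, _, _, C, hC, -, h1, h2⟩ := h
  obtain ⟨e⟩ := Fintype.card_pos_iff.1 (h2 ▸ hV)
  rw [← h1, ← hC.wp e]
  exact (Finset.single_le_sum (f := C.w) (fun _ _ => Nat.zero_le _) (mem_univ _)).trans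
    (Nat.le_add_right _ _)

theorem Lev.ksets {T M : ℕ} {g : ℝ} (h : Lev T M g) (g0 : 0 < g) {k n : ℕ} (hk : M + 1 ≤ k)
    (hn : 2 * k ≤ n) : ∃ X : Finset (ℝ × ℝ), X.card = n ∧ GenPos X ∧ n * (g / 2) ≤ ksets X k := by
  obtain ⟨N, V, π, hI, N0, NM, π1, -, hg⟩ := h
  have M1 : (1 : ℝ) ≤ M := by exact_mod_cast (by omega : 1 ≤ M)
  have a0 : (0 : ℝ) < 1 / M := by positivity
  have NR : (0 : ℝ) < N := by exact_mod_cast N0
  obtain ⟨X, h1, h2, h3⟩ := Has.points hI a0 a0 le_rfl 0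
  have vp : (0 : ℝ) < V * π := by nlinarith [mul_pos g0 NR]
  have vp' : 0 < V * π := by exact_mod_cast vp
  have N1 : 200 ≤ N := π1.trans (Has.pi_le hI (Nat.pos_of_mul_pos_right vp'))
  obtain ⟨j, hj⟩ : ∃ j, N + 1 = 2 * j := by
    obtain ⟨S, hS⟩ := Finset.card_pos.1 (lt_of_lt_of_le vp' h3)
    classical
    obtain ⟨a, b, -, -, h5, -⟩ := (Finset.mem_filter.1 hS).2
    exact ⟨(N + 1) / 2, by omega⟩
  obtain ⟨r, r1, r2⟩ : ∃ r, r * (N + 1) ≤ n - (k - j) ∧ n ≤ 4 * (r * (N + 1)) := by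
    refine ⟨(n - (k - j)) / (N + 1), Nat.div_mul_le_self _ _, ?_⟩
    have := Nat.lt_div_mul_add (a := n - (k - j)) (show 0 < N + 1 by omega)
    omega
  obtain ⟨Y, y1, y2, y3⟩ := ksets_of_halv X h2 r (k - j) (n - (k - j) - r * (N + 1)) k (by omega)
  rw [h1] at y1
  refine ⟨Y, by simp only [mul_zero, add_zero] at y1; omega, y2, le_trans ?_
    (Nat.cast_le.2 ((Nat.mul_le_mul_left r h3).trans y3))⟩
  have d3 : (n : ℝ) ≤ 4 * (r * (N + 1)) := by exact_mod_cast r2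
  have d4 : (200 : ℝ) ≤ N := by exact_mod_cast N1
  have r0 : (0 : ℝ) ≤ r := Nat.cast_nonneg r
  have e1 := mul_le_mul_of_nonneg_left hg r0
  have e2 := mul_le_mul_of_nonneg_right d3 g0.le
  have e3 := mul_le_mul_of_nonneg_left d4 (mul_nonneg r0 g0.le)
  have e4 : 0 ≤ r * g := mul_nonneg r0 g0.le
  push_cast
  nlinarith

theorem main2 : ∃ C : ℝ, 0 < C ∧ ∃ n0 : ℕ,
    (∀ n ≥ n0, Even n → ∃ P : Finset (ℝ × ℝ), P.card = n ∧ GenPos P ∧
      n * Real.exp (Real.log n * Real.exp (-C * √(Real.log (Real.log n)))) ≤ halv P) ∧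
    ∀ k ≥ n0, ∀ n, 2 * k ≤ n → ∃ P : Finset (ℝ × ℝ), P.card = n ∧ GenPos P ∧
      n * Real.exp (Real.log k * Real.exp (-C * √(Real.log (Real.log k)))) ≤ ksets P k := by
  obtain ⟨c, c2, hc⟩ := iter
  obtain ⟨C, C0, n0, h⟩ := asym c c2
  refine ⟨C, C0, n0, fun n hn he => ?_, fun k hk n hn => ?_⟩
  · obtain ⟨T, d, T1, h1, h2⟩ := h n hn
    obtain ⟨X, a1, a2, a3⟩ := (hc T d T1).points (by positivity) h1 he
    exact ⟨X, a1, a2, (mul_le_mul_of_nonneg_left h2 (Nat.cast_nonneg n)).trans a3⟩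
  · obtain ⟨T, d, T1, h1, h2⟩ := h k hk
    obtain ⟨X, a1, a2, a3⟩ := (hc T d T1).ksets (by positivity) h1 hn
    exact ⟨X, a1, a2, (mul_le_mul_of_nonneg_left h2 (Nat.cast_nonneg n)).trans a3⟩

end Vale.Agent.P065
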