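import Vale.Agent.P065.Defs

/-! P065: changing the parameters, rounding the slopes. -/

namespace Vale.Agent.P065
open Finset
variable {ι E : Type} {C : Cfg ι E} {π N V : ℕ} {δ τ θ R A : ℝ}

theorem Cfg.Geo.mono (h : C.Geo π δ τ θ R A) (δ0 : 0 ≤ δ) {τ' θ' R' A' : ℝ} (h1 : τ' ≤ τ)
    (h2 : θ' ≤ θ) (h3 : R ≤ R') (h4 : A ≤ A') : C.Geo π δ τ' θ' R' A' := by
  refine ⟨h.wp, h.wq, h.lo, fun e => (h.hi e).trans (by nlinarith), h.meet,
    fun i => (h.bs i).trans h4, fun i => (h.bb i).trans h4, fun e => (h.bt e).trans h4,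
    fun e i => ?_, fun e e' he => ?_, h.self⟩
  · refine (h.side e i).imp_left fun a => a.mono ?_
    rw [sub_self, abs_zero, zero_add]
    exact mul_le_mul_of_nonneg_right h1 (by positivity)
  · refine (h.sidem e e' he).mono ?_
    rw [sub_self, abs_zero, zero_add]
    exact add_le_add (mul_le_mul_of_nonneg_right h1 (by positivity))
      (mul_le_mul_of_nonneg_right (mul_le_mul_of_nonneg_right h2 δ0) (abs_nonneg _))

theorem Cfg.Geo.theta (h : C.Geo π δ τ θ R A) (δ0 : 0 ≤ δ) (τ0 : 0 ≤ τ) (θ0 : 0 ≤ θ) (A0 : 0 < A) :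
    C.Geo π δ (τ / 2) (τ / (4 * A)) R A := by
  refine ⟨h.wp, h.wq, h.lo, h.hi, h.meet, h.bs, h.bb, h.bt,
    fun e i => ?_, fun e e' he => ?_, h.self⟩
  · refine (h.side e i).imp_left fun a => a.mono ?_
    rw [sub_self, abs_zero, zero_add]
    exact mul_le_mul_of_nonneg_right (by linarith) (by positivity)
  · refine (h.sidem e e' he).mono ?_
    rw [sub_self, abs_zero, zero_add]
    have t1 : |C.t e - C.t e'| ≤ 2 * A := (abs_sub _ _).trans (by linarith [h.bt e, h.bt e'])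
    have t2 : τ / (4 * A) * δ * |C.t e - C.t e'| ≤ τ / (4 * A) * δ * (2 * A) :=
      mul_le_mul_of_nonneg_left t1 (by positivity)
    have t3 : τ / (4 * A) * δ * (2 * A) = τ / 2 * δ := by field_simp; ring
    have t4 : 0 ≤ θ * δ * |C.t e - C.t e'| := by positivity
    have t5 : 0 ≤ τ * |C.ms e' - C.ms e| := by positivity
    nlinarith

theorem Cfg.Geo.toInn (h : C.Geo π δ τ θ R A) (θ0 : 0 ≤ θ) {M : ℝ} (M0 : 0 < M) (h1 : 1 / M ≤ δ)
    (h2 : 1 / M ≤ τ) (h3 : A ≤ M) : C.Geo π (1 / M) (1 / M) 0 (M ^ 2) M := by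
  have i0 : 0 < 1 / M := by positivity
  have δ0 : 0 < δ := i0.trans_le h1
  have key : ∀ x : ℝ, 0 ≤ x → 1 / M * (1 / M + x) ≤ τ * (δ + x) := fun x hx =>
    mul_le_mul h2 (by linarith) (by positivity) (i0.trans_le h2).le
  refine ⟨h.wp, h.wq, fun e => le_trans (by linarith) (h.lo e), fun e => ?_, h.meet,
    fun i => (h.bs i).trans h3, fun i => (h.bb i).trans h3, fun e => (h.bt e).trans h3,
    fun e i => ?_, fun e e' he => ?_, h.self⟩
  · have t1 := abs_le.1 (h.bs (C.p e))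
    have t2 := abs_le.1 (h.bs (C.q e))
    have t3 : 2 * M ^ 2 * (1 / M) = 2 * M := by field_simp
    rw [t3]
    linarith [t1.1, t2.2]
  · refine (h.side e i).imp_left fun a => a.mono ?_
    rw [sub_self, abs_zero, zero_add]
    exact key _ (abs_nonneg _)
  · refine (h.sidem e e' he).mono ?_
    rw [sub_self, abs_zero, zero_add]
    have t4 : 0 ≤ θ * δ * |C.t e - C.t e'| := by positivity
    have := key _ (abs_nonneg (C.ms e' - C.ms e))
    linarith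

theorem Has.mono (h : Has N V π δ τ θ R A) (δ0 : 0 ≤ δ) {τ' θ' R' A' : ℝ} (h1 : τ' ≤ τ)
    (h2 : θ' ≤ θ) (h3 : R ≤ R') (h4 : A ≤ A') : Has N V π δ τ' θ' R' A' := by
  obtain ⟨ι, E, i1, i2, C, g, r⟩ := h
  exact ⟨ι, E, i1, i2, C, g.mono δ0 h1 h2 h3 h4, r⟩

theorem Has.theta (h : Has N V π δ τ θ R A) (δ0 : 0 ≤ δ) (τ0 : 0 ≤ τ) (θ0 : 0 ≤ θ) (A0 : 0 < A) :
    Has N V π δ (τ / 2) (τ / (4 * A)) R A := by
  obtain ⟨ι, E, i1, i2, C, g, r⟩ := h
  exact ⟨ι, E, i1, i2, C, g.theta δ0 τ0 θ0 A0, r⟩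

theorem Has.toInn (h : Has N V π δ τ θ R A) (θ0 : 0 ≤ θ) {M : ℝ} (M0 : 0 < M) (h1 : 1 / M ≤ δ)
    (h2 : 1 / M ≤ τ) (h3 : A ≤ M) : Inn N V π M := by
  obtain ⟨ι, E, i1, i2, C, g, r⟩ := h
  exact ⟨ι, E, i1, i2, C, g.toInn θ0 M0 h1 h2 h3, r⟩

theorem round_aux {a a' m m' t t' c η : ℝ} {σ : ℤ} (δ0 : 0 < δ) (τ0 : 0 < τ) (τ1 : τ ≤ 1)
    (A1 : 1 ≤ A) (hη : η * (8 * A) = τ * δ) (ha : |a' - a| ≤ η) (hm : |m' - m| ≤ η)
    (ht : |t' - t| ≤ τ / 4) (hA : |t| ≤ A) (h : Side ((a - m) * t + c) (τ * (δ + |a - m|)) σ) :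
    Side ((a' - m') * t' + c) (τ / 2 * (δ / 2 + |a' - m'|)) σ := by
  refine h.mono ?_
  have η0 : 0 ≤ η := (abs_nonneg _).trans ha
  have e1 : (a' - m') * t' + c - ((a - m) * t + c) =
      (a - m) * (t' - t) + ((a' - a) - (m' - m)) * t' := by ring
  have e2 : |(a' - a) - (m' - m)| ≤ 2 * η := (abs_sub _ _).trans (by linarith)
  have e3 : |t'| ≤ 2 * A := by
    have : |t'| ≤ |t' - t| + |t| := by simpa using abs_add_le (t' - t) t
    linarith
  have e4 : |(a - m) * (t' - t) + ((a' - a) - (m' - m)) * t'| ≤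
      |a - m| * (τ / 4) + 2 * η * (2 * A) := by
    refine (abs_add_le _ _).trans ?_
    rw [abs_mul, abs_mul]
    exact add_le_add (mul_le_mul_of_nonneg_left ht (abs_nonneg _))
      (mul_le_mul e2 e3 (abs_nonneg _) (by positivity))
  have e5 : |a' - m'| ≤ |a - m| + 2 * η := by
    have : a' - m' = (a - m) + ((a' - a) - (m' - m)) := by ring
    rw [this]
    exact (abs_add_le _ _).trans (by linarith)
  have e6 : 8 * η ≤ δ := by nlinarith
  have e7 : τ / 2 * (δ / 2 + |a' - m'|) ≤ τ / 2 * (δ / 2 + (|a - m| + δ / 4)) :=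
    mul_le_mul_of_nonneg_left (by linarith) (by positivity)
  have e8 : 0 ≤ τ * |a - m| := by positivity
  have e9 : 0 ≤ τ * δ := by positivity
  rw [e1]
  nlinarith

/-- small changes of the slopes -/
theorem Cfg.Geo.round (h : C.Geo π δ τ 0 R A) (δ0 : 0 < δ) (δ1 : δ ≤ 1) (τ0 : 0 < τ) (τ1 : τ ≤ 1)
    (A1 : 1 ≤ A) (s' : ι → ℝ) (hs : ∀ i, |s' i - C.s i| ≤ τ * δ / (8 * A)) :
    ∃ t' : E → ℝ, ({ C with s := s', t := t' } : Cfg ι E).Geo π (δ / 2) (τ / 2) 0 (2 * R + 2)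
      (A + 1) := by
  obtain ⟨η, hη⟩ : ∃ η, η = τ * δ / (8 * A) := ⟨_, rfl⟩
  rw [← hη] at hs
  have A0 : 0 < A := by linarith
  have hη' : η * (8 * A) = τ * δ := by rw [hη]; field_simp
  have η0 : 0 ≤ η := by rw [hη]; positivity
  have e6 : 8 * η ≤ δ := by nlinarith
  have hD : ∀ e, |(s' (C.q e) - s' (C.p e)) - (C.s (C.q e) - C.s (C.p e))| ≤ 2 * η := fun e => by
    have : (s' (C.q e) - s' (C.p e)) - (C.s (C.q e) - C.s (C.p e)) =
        (s' (C.q e) - C.s (C.q e)) - (s' (C.p e) - C.s (C.p e)) := by ring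
    rw [this]
    exact (abs_sub _ _).trans (by linarith [hs (C.q e), hs (C.p e)])
  have hlo : ∀ e, δ ≤ s' (C.q e) - s' (C.p e) := fun e => by
    have := abs_le.1 (hD e)
    linarith [h.lo e, this.1]
  obtain ⟨t', ht'⟩ : ∃ t' : E → ℝ, ∀ e,
      t' e * (s' (C.q e) - s' (C.p e)) = C.b (C.p e) - C.b (C.q e) :=
    ⟨fun e => (C.b (C.p e) - C.b (C.q e)) / (s' (C.q e) - s' (C.p e)),
      fun e => div_mul_cancel₀ _ (δ0.trans_le (hlo e)).ne'⟩
  have ht : ∀ e, |t' e - C.t e| ≤ τ / 4 := fun e => by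
    have t1 : (t' e - C.t e) * (s' (C.q e) - s' (C.p e)) =
        -(C.t e * ((s' (C.q e) - s' (C.p e)) - (C.s (C.q e) - C.s (C.p e)))) := by
      linear_combination ht' e + h.meet e
    have t2 := congrArg abs t1
    rw [abs_neg, abs_mul, abs_mul, abs_of_pos (δ0.trans_le (hlo e))] at t2
    have t3 : |C.t e| * |(s' (C.q e) - s' (C.p e)) - (C.s (C.q e) - C.s (C.p e))| ≤
        A * (2 * η) := mul_le_mul (h.bt e) (hD e) (abs_nonneg _) A0.le
    have t4 : |t' e - C.t e| * δ ≤ |t' e - C.t e| * (s' (C.q e) - s' (C.p e)) :=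
      mul_le_mul_of_nonneg_left (hlo e) (abs_nonneg _)
    have t5 : |t' e - C.t e| * δ ≤ τ / 4 * δ := by linarith
    exact le_of_mul_le_mul_right t5 δ0
  have hms : ∀ e, |(s' (C.p e) + s' (C.q e)) / 2 - C.ms e| ≤ η := fun e => by
    have a := abs_le.1 (hs (C.p e))
    have b := abs_le.1 (hs (C.q e))
    rw [abs_le, Cfg.ms]
    constructor <;> linarith [a.1, a.2, b.1, b.2]
  refine ⟨t', h.wp, h.wq, fun e => ?_, fun e => ?_, fun e => ?_, fun i => ?_,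
    fun i => (h.bb i).trans (by linarith), fun e => ?_, fun e i => ?_, fun e e' he => ?_, h.self⟩
  · show 2 * (δ / 2) ≤ s' (C.q e) - s' (C.p e)
    linarith [hlo e]
  · show s' (C.q e) - s' (C.p e) ≤ 2 * (2 * R + 2) * (δ / 2)
    have := abs_le.1 (hD e)
    linarith [h.hi e, this.2]
  · show s' (C.p e) * t' e + C.b (C.p e) = s' (C.q e) * t' e + C.b (C.q e)
    linear_combination -ht' e
  · show |s' i| ≤ A + 1
    have : |s' i| ≤ |s' i - C.s i| + |C.s i| := by simpa using abs_add_le (s' i - C.s i) (C.s i)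
    linarith [hs i, h.bs i]
  · show |t' e| ≤ A + 1
    have : |t' e| ≤ |t' e - C.t e| + |C.t e| := by simpa using abs_add_le (t' e - C.t e) (C.t e)
    linarith [ht e, h.bt e]
  · exact (h.side e i).imp_left fun a =>
      round_aux δ0 τ0 τ1 A1 hη' (hs i) (hms e) (ht e) (h.bt e) a
  · have a := h.sidem e e' he
    rw [zero_mul, zero_mul, add_zero] at a ⊢
    exact round_aux δ0 τ0 τ1 A1 hη' (hms e') (hms e) (ht e) (h.bt e) a

end Vale.Agent.P065
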