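import Vale.Agent.P065.Defs

/-! P065: geometry of the lattice configuration. -/

namespace Vale.Agent.P065
open Finset
variable {ι E : Type}

namespace NG
variable {M : ℝ}

theorem pw (hM : 1000 ≤ M) {a b : ℕ} (h : a < b) : 1000 * M ^ a ≤ M ^ b := by
  have h1 : M ^ (a + 1) ≤ M ^ b := pow_le_pow_right₀ (by linarith) h
  have h2 : 0 ≤ M ^ a := by positivity
  rw [pow_succ] at h1
  nlinarith

theorem iw (hM : 1000 ≤ M) {a b : ℕ} (h : a < b) : 1000 * (1 / M ^ b) ≤ 1 / M ^ a := by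
  have M0 : 0 < M := by linarith
  rw [mul_one_div, div_le_div_iff₀ (by positivity) (by positivity)]
  linarith [pw hM h]

theorem vl_le {C : Cfg ι E} {π : ℕ} {δ τ θ R : ℝ} (hM : 1000 ≤ M) (hC : C.Geo π δ τ θ R M)
    (e : E) {a b : ℝ} (ha : |a| ≤ M) (hb : |b| ≤ M) :
    |1 / M ^ 21 * M ^ 4 * C.vl e a b| ≤ 4 * (1 / M ^ 15) := by
  have M0 : 0 < M := by linarith
  have h1 : |a - C.ms e| ≤ 2 * M := (abs_sub _ _).trans (by linarith [hC.ms_le e])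
  have h2 : |b - C.mb e| ≤ 2 * M := (abs_sub _ _).trans (by linarith [hC.mb_le e])
  have h3 : |(a - C.ms e) * C.t e| ≤ 2 * M * M := by
    rw [abs_mul]; exact mul_le_mul h1 (hC.bt e) (abs_nonneg _) (by linarith)
  have h4 : |C.vl e a b| ≤ 4 * M ^ 2 := (abs_add_le _ _).trans (by nlinarith)
  rw [abs_mul, abs_of_pos (by positivity : 0 < 1 / M ^ 21 * M ^ 4)]
  calc 1 / M ^ 21 * M ^ 4 * |C.vl e a b| ≤ 1 / M ^ 21 * M ^ 4 * (4 * M ^ 2) :=
        mul_le_mul_of_nonneg_left h4 (by positivity)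
    _ = 4 * (1 / M ^ 15) := by field_simp

theorem need (hM : 1000 ≤ M) {x y d : ℝ} (hx : |x| ≤ M) (hy : |y| ≤ M) (hd : |d| ≤ 2 * M) :
    1 / M ^ 23 * (M ^ 3 + |M ^ 4 * x - M ^ 4 * y|) + 1 / M ^ 24 * M ^ 3 * |d| ≤
      5 * (1 / M ^ 18) := by
  have M0 : 0 < M := by linarith
  have h1 : |M ^ 4 * x - M ^ 4 * y| ≤ M ^ 4 * (2 * M) := by
    rw [← mul_sub, abs_mul, abs_of_pos (by positivity : 0 < M ^ 4)]
    exact mul_le_mul_of_nonneg_left ((abs_sub _ _).trans (by linarith)) (by positivity)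
  have h2 := iw hM (show 18 < 20 by norm_num)
  have h3 : 0 < 1 / M ^ 20 := by positivity
  calc _ ≤ 1 / M ^ 23 * (M ^ 3 + M ^ 4 * (2 * M)) + 1 / M ^ 24 * M ^ 3 * (2 * M) := by gcongr
    _ = 3 * (1 / M ^ 20) + 2 * (1 / M ^ 18) := by field_simp; ring
    _ ≤ _ := by linarith

theorem small (hM : 1000 ≤ M) {X x y d : ℝ} {σ : ℤ} (h : Side X (1 / M * (1 / M + |x - y|)) σ)
    (hd : |d| ≤ 1) : Side (1 / M ^ 21 * M ^ 4 * X)
      (1 / M ^ 23 * (M ^ 3 + |M ^ 4 * x - M ^ 4 * y|) + 1 / M ^ 24 * M ^ 3 * |d|) σ := by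
  have M0 : 0 < M := by linarith
  refine (h.scale (c := 1 / M ^ 21 * M ^ 4) (by positivity)).mono ?_
  rw [sub_self, abs_zero, zero_add, ← mul_sub, abs_mul, abs_of_pos (by positivity : 0 < M ^ 4)]
  have h1 := iw hM (show 18 < 19 by norm_num)
  have h2 := iw hM (show 19 < 20 by norm_num)
  have h3 := iw hM (show 20 < 21 by norm_num)
  have h4 : 0 < 1 / M ^ 21 := by positivity
  have h5 := abs_nonneg (x - y)
  calc _ ≤ 1 / M ^ 23 * (M ^ 3 + M ^ 4 * |x - y|) + 1 / M ^ 24 * M ^ 3 * 1 := by gcongr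
    _ = 1 / M ^ 20 + 1 / M ^ 19 * |x - y| + 1 / M ^ 21 := by field_simp
    _ ≤ 1 / M ^ 19 + 1 / M ^ 18 * |x - y| := by nlinarith
    _ = _ := by field_simp

theorem w_ge (hM : 1000 ≤ M) {x : ℝ} (hx : |x| ≤ M) : 1 / 2 ≤ 1 - M ^ 4 * x / M ^ 14 := by
  have M0 : 0 < M := by linarith
  have h1 : M ^ 4 * x ≤ M ^ 4 * M := mul_le_mul_of_nonneg_left (abs_le.1 hx).2 (by positivity)
  have h2 := pw hM (show 5 < 14 by norm_num)
  have h3 : M ^ 4 * x / M ^ 14 ≤ 1 / 2 := by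
    rw [div_le_iff₀ (by positivity)]
    have : 0 < M ^ 5 := by positivity
    nlinarith
  linarith

theorem big {k : ℤ} (hk : k ≠ 0) {w err m : ℝ} (hw : 0 ≤ w) (h : |err| + m ≤ w) :
    Side (k * w + err) m k.sign :=
  (side_sign hk hw).mono (by rwa [add_sub_cancel_left])

theorem Dform {K a b : ℝ} {p q : ℝ} (hK : 0 < K) (hP : 0 < K + 2 * p) (hQ : 0 < K + 2 * q)
    (ha : a * (K + 2 * p) = K * (2 * p)) (hb : b * (K + 2 * q) = K * (2 * q)) :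
    (p + q) * (1 - (a + b) / 2 / K) - (a + b) / 2 =
      K * (p - q) ^ 2 / ((K + 2 * p) * (K + 2 * q)) := by
  have ea : a = K * (2 * p) / (K + 2 * p) := by rw [eq_div_iff hP.ne', ha]
  have eb : b = K * (2 * q) / (K + 2 * q) := by rw [eq_div_iff hQ.ne', hb]
  have h1 := hP.ne'
  have h2 := hQ.ne'
  have h3 := hK.ne'
  rw [ea, eb]
  generalize hp' : K + 2 * p = P at *
  generalize hq' : K + 2 * q = Q at *
  have e1 : p = (P - K) / 2 := by linarith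
  have e2 : q = (Q - K) / 2 := by linarith
  rw [e1, e2]
  field_simp
  ring

variable {C : Cfg ι E} {π : ℕ} {z : ι → ℤ}

theorem Dbd (hM : 1000 ≤ M) (hC : C.Geo π (1 / M) (1 / M) 0 (M ^ 2) M)
    (hz : ∀ i, M ^ 4 * C.s i * (M ^ 14 + 2 * z i) = M ^ 14 * (2 * z i))
    (hz' : ∀ i, |2 * (z i : ℝ)| ≤ M ^ 6) (e : E) :
    1 / 4 * (1 / M ^ 14) ≤ ((z (C.p e) : ℝ) + z (C.q e)) * (1 - M ^ 4 * C.ms e / M ^ 14)
        - M ^ 4 * C.ms e ∧
      ((z (C.p e) : ℝ) + z (C.q e)) * (1 - M ^ 4 * C.ms e / M ^ 14) - M ^ 4 * C.ms e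
        ≤ 4 * (1 / M ^ 2) := by
  have M0 : 0 < M := by linarith
  have K0 : 0 < M ^ 14 := by positivity
  have h6 : 0 < M ^ 6 := by positivity
  have h1 := pw hM (show 6 < 14 by norm_num)
  have hp := abs_le.1 (hz' (C.p e))
  have hq := abs_le.1 (hz' (C.q e))
  have P1 : M ^ 14 / 2 ≤ M ^ 14 + 2 * z (C.p e) := by linarith [hp.1]
  have Q1 : M ^ 14 / 2 ≤ M ^ 14 + 2 * z (C.q e) := by linarith [hq.1]
  have P2 : M ^ 14 + 2 * z (C.p e) ≤ 2 * M ^ 14 := by linarith [hp.2]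
  have Q2 : M ^ 14 + 2 * z (C.q e) ≤ 2 * M ^ 14 := by linarith [hq.2]
  have P0 : 0 < M ^ 14 + 2 * z (C.p e) := by linarith
  have Q0 : 0 < M ^ 14 + 2 * z (C.q e) := by linarith
  have e1 : M ^ 4 * C.ms e = (M ^ 4 * C.s (C.p e) + M ^ 4 * C.s (C.q e)) / 2 := by
    rw [Cfg.ms]; ring
  rw [e1, Dform K0 P0 Q0 (hz _) (hz _)]
  have hne : z (C.p e) ≠ z (C.q e) := fun H => by
    have a := hz (C.p e)
    have b := hz (C.q e)
    rw [H] at a
    have c := mul_right_cancel₀ Q0.ne' (a.trans b.symm)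
    have d := mul_left_cancel₀ (by positivity : M ^ 4 ≠ 0) c
    have := hC.lo e
    have : 0 < 1 / M := by positivity
    linarith
  have s1 : (1 : ℝ) ≤ ((z (C.p e) : ℝ) - z (C.q e)) ^ 2 := by
    have : (1 : ℤ) ≤ (z (C.p e) - z (C.q e)) ^ 2 :=
      (one_le_sq_iff_one_le_abs _).2 (Int.one_le_abs (sub_ne_zero.2 hne))
    exact_mod_cast this
  have s2 : ((z (C.p e) : ℝ) - z (C.q e)) ^ 2 ≤ (M ^ 6) ^ 2 :=
    sq_le_sq' (by linarith [hp.1, hq.2]) (by linarith [hp.2, hq.1])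
  constructor
  · calc 1 / 4 * (1 / M ^ 14) = M ^ 14 * 1 / ((2 * M ^ 14) * (2 * M ^ 14)) := by
          field_simp; norm_num
      _ ≤ _ := by gcongr
  · calc _ ≤ M ^ 14 * (M ^ 6) ^ 2 / ((M ^ 14 / 2) * (M ^ 14 / 2)) := by gcongr
      _ = _ := by field_simp; norm_num

theorem mk (hM : 1000 ≤ M) (hC : C.Geo π (1 / M) (1 / M) 0 (M ^ 2) M)
    (hz : ∀ i, M ^ 4 * C.s i * (M ^ 14 + 2 * z i) = M ^ 14 * (2 * z i))
    (hz' : ∀ i, |2 * (z i : ℝ)| ≤ M ^ 6) (ε ε' : E) {c c' v y : ℤ} (hc : |(c : ℝ) - c'| ≤ M)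
    (hne : ¬(y = v ∧ c' = c)) {m : ℝ} (hm : m ≤ 5 * (1 / M ^ 18)) :
    Side (((y : ℝ) - v) * (1 - M ^ 4 * C.ms ε' / M ^ 14) + M ^ 4 * C.ms ε' * ((c : ℝ) - c') +
      1 / M ^ 21 * M ^ 4 * C.vl ε (C.ms ε') (C.mb ε')) m (mkSg C z c v ε ε' c' y) := by
  have M0 : 0 < M := by linarith
  obtain ⟨d1, d2⟩ := Dbd hM hC hz hz' ε'
  have hw := w_ge hM (hC.ms_le ε')
  have hv := vl_le hM hC ε (hC.ms_le ε') (hC.mb_le ε')
  set w := 1 - M ^ 4 * C.ms ε' / M ^ 14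
  set D := ((z (C.p ε') : ℝ) + z (C.q ε')) * w - M ^ 4 * C.ms ε' with hD
  set X := 1 / M ^ 21 * M ^ 4 * C.vl ε (C.ms ε') (C.mb ε')
  have i0 : 0 < 1 / M ^ 18 := by positivity
  have i1 := iw hM (show 15 < 18 by norm_num)
  have i2 := iw hM (show 14 < 15 by norm_num)
  have i3 := iw hM (show 1 < 14 by norm_num)
  have i4 := iw hM (show 0 < 1 by norm_num)
  rw [pow_zero, div_one] at i4
  have D0 : 0 ≤ D := by linarith
  have ex : ((y : ℝ) - v) * w + M ^ 4 * C.ms ε' * ((c : ℝ) - c') + X =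
      ((y - v + (z (C.p ε') + z (C.q ε')) * (c - c') : ℤ) : ℝ) * w +
        (((c' - c : ℤ) : ℝ) * D + X) := by
    rw [hD]; push_cast; ring
  rw [ex, mkSg]
  split_ifs with h1 h2
  · refine big h1 (by linarith) ?_
    have h3 : |((c' - c : ℤ) : ℝ) * D| ≤ M * (4 * (1 / M ^ 2)) := by
      rw [abs_mul, abs_of_nonneg D0]
      push_cast
      exact mul_le_mul (by rwa [abs_sub_comm]) d2 D0 M0.le
    have h4 : M * (4 * (1 / M ^ 2)) = 4 * (1 / M ^ 1) := by field_simp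
    have h5 := abs_add_le (((c' - c : ℤ) : ℝ) * D) X
    linarith
  · rw [not_not.1 h1, Int.cast_zero, zero_mul, zero_add]
    exact big (sub_ne_zero.2 h2) D0 (by linarith)
  · rw [not_not] at h1 h2
    rw [h2, sub_self, mul_zero, add_zero] at h1
    exact absurd ⟨sub_eq_zero.1 h1, h2⟩ hne

end NG
open NG

theorem needle_geo {C : Cfg ι E} {π : ℕ} {M : ℝ} (hM : 1000 ≤ M)
    (hC : C.Geo π (1 / M) (1 / M) 0 (M ^ 2) M) (z : ι → ℤ)
    (hz : ∀ i, M ^ 4 * C.s i * (M ^ 14 + 2 * z i) = M ^ 14 * (2 * z i))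
    (hz' : ∀ i, |2 * (z i : ℝ)| ≤ M ^ 6) {G Y H : ℕ} (hG : (G : ℝ) ≤ M) (hY : (Y : ℝ) ≤ M ^ 8)
    (hH : (H : ℝ) ≤ M ^ 7) (jo : ι → Fin G → Fin Y → Fin (Y + 2 * H))
    (hjo : ∀ i c v, ((jo i c v : ℕ) : ℤ) = H + (v : ℕ) - 2 * z i * (c : ℕ)) :
    (needleCfg C z G Y H jo (M ^ 14) (M ^ 4) (1 / M ^ 21)).Geo π (M ^ 3) (1 / M ^ 23) (1 / M ^ 24)
      (M ^ 2) (M ^ 9) := by
  have M0 : 0 < M := by linarith
  have K0 : 0 < M ^ 14 := by positivity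
  set N := needleCfg C z G Y H jo (M ^ 14) (M ^ 4) (1 / M ^ 21) with hN
  have hjo' : ∀ i c v, ((jo i c v : ℕ) : ℝ) = H + (v : ℕ) - 2 * z i * (c : ℕ) := fun i c v => by
    exact_mod_cast hjo i c v
  have hb : ∀ i c v, N.b (Sum.inl (i, jo i c v)) = ((v : ℕ) : ℝ) -
      M ^ 4 * C.s i * (1 + ((c : ℕ) : ℝ) + ((v : ℕ) : ℝ) / M ^ 14) + 1 / M ^ 21 * M ^ 4 * C.b i := by
    intro i c v
    have h1 : M ^ 4 * C.s i * (2 * z i) / M ^ 14 = 2 * z i - M ^ 4 * C.s i := by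
      rw [div_eq_iff K0.ne']; linear_combination hz i
    simp only [hN, needleCfg, Sum.elim_inl, hjo']
    linear_combination ((c : ℕ) : ℝ) * h1
  have hms : ∀ e, N.ms e = M ^ 4 * C.ms e.2.2 := fun e => by
    simp only [hN, needleCfg, Cfg.ms, Sum.elim_inl]; ring
  have hmb : ∀ e, N.mb e = ((e.2.1 : ℕ) : ℝ) - M ^ 4 * C.ms e.2.2 *
      (1 + ((e.1 : ℕ) : ℝ) + ((e.2.1 : ℕ) : ℝ) / M ^ 14) + 1 / M ^ 21 * M ^ 4 * C.mb e.2.2 := by
    intro e
    have h1 := hb (C.p e.2.2) e.1 e.2.1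
    have h2 := hb (C.q e.2.2) e.1 e.2.1
    change (N.b (Sum.inl (C.p e.2.2, jo _ e.1 e.2.1)) +
      N.b (Sum.inl (C.q e.2.2, jo _ e.1 e.2.1))) / 2 = _
    rw [h1, h2, Cfg.ms, Cfg.mb]; ring
  have ht : ∀ e, N.t e = 1 + ((e.1 : ℕ) : ℝ) + ((e.2.1 : ℕ) : ℝ) / M ^ 14 +
      1 / M ^ 21 * C.t e.2.2 := fun e => rfl
  have hvm : ∀ (e : Fin G × Fin Y × E) (ε' : E) (c' y : ℝ), N.vl e (M ^ 4 * C.ms ε')
      (y - M ^ 4 * C.ms ε' * (1 + c' + y / M ^ 14) + 1 / M ^ 21 * M ^ 4 * C.mb ε') =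
      (y - (e.2.1 : ℕ)) * (1 - M ^ 4 * C.ms ε' / M ^ 14) +
        M ^ 4 * C.ms ε' * (((e.1 : ℕ) : ℝ) - c') +
        1 / M ^ 21 * M ^ 4 * C.vl e.2.2 (C.ms ε') (C.mb ε') := by
    intro e ε' c' y
    simp only [Cfg.vl, hms, hmb, ht]; ring
  have cb : ∀ c : Fin G, 0 ≤ ((c : ℕ) : ℝ) ∧ ((c : ℕ) : ℝ) + 1 ≤ M := fun c =>
    ⟨Nat.cast_nonneg _, le_trans (by exact_mod_cast c.2) hG⟩
  have cc : ∀ c c' : Fin G, |(((c : ℕ) : ℤ) : ℝ) - ((c' : ℕ) : ℤ)| ≤ M := fun c c' => by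
    rw [abs_le]; push_cast; constructor <;> linarith [cb c, cb c']
  have p1 := pw hM (show 8 < 14 by norm_num)
  have p2 := pw hM (show 7 < 8 by norm_num)
  have p3 := pw hM (show 8 < 9 by norm_num)
  have p4 := pw hM (show 6 < 7 by norm_num)
  have p5 := pw hM (show 5 < 6 by norm_num)
  have p6 := pw hM (show 1 < 5 by norm_num)
  rw [pow_one] at p6
  have vb : ∀ v : Fin Y, 0 ≤ ((v : ℕ) : ℝ) / M ^ 14 ∧ ((v : ℕ) : ℝ) / M ^ 14 ≤ 1 := fun v => by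
    refine ⟨by positivity, (div_le_one K0).2 ?_⟩
    have : ((v : ℕ) : ℝ) ≤ Y := by exact_mod_cast v.2.le
    linarith
  have rb : ∀ x : ℝ, |x| ≤ M → |1 / M ^ 21 * x| ≤ 1 / 2 := fun x hx => by
    have := iw hM (show 0 < 20 by norm_num)
    rw [pow_zero, div_one] at this
    rw [abs_mul, abs_of_pos (by positivity : 0 < 1 / M ^ 21)]
    calc 1 / M ^ 21 * |x| ≤ 1 / M ^ 21 * M := by gcongr
      _ = 1 / M ^ 20 := by field_simp
      _ ≤ _ := by linarith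
  have tb : ∀ e, 0 ≤ N.t e ∧ N.t e ≤ 2 * M := fun e => by
    have := abs_le.1 (rb _ (hC.bt e.2.2))
    rw [ht]
    constructor <;> linarith [cb e.1, vb e.2.1, this.1, this.2]
  have sb : ∀ x : ℝ, |x| ≤ M → |M ^ 4 * x| ≤ M ^ 5 := fun x hx => by
    rw [abs_mul, abs_of_pos (by positivity : 0 < M ^ 4), pow_succ M 4]; gcongr
  have bbd : ∀ (j : Fin (Y + 2 * H)) (x c β : ℝ), |x| ≤ M → |β| ≤ M → 0 ≤ c → c + 1 ≤ M →
      |(((j : ℕ) : ℝ) - H) - M ^ 4 * x * (1 + c + (((j : ℕ) : ℝ) - H) / M ^ 14) +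
        1 / M ^ 21 * M ^ 4 * β| ≤ M ^ 9 := by
    intro j x c β hx hβ c0 c1
    have j0 : (0 : ℝ) ≤ (j : ℕ) := Nat.cast_nonneg _
    have j1 : ((j : ℕ) : ℝ) ≤ Y + 2 * H := by exact_mod_cast j.2.le
    have a1 : |((j : ℕ) : ℝ) - H| ≤ 2 * M ^ 8 := by rw [abs_le]; constructor <;> linarith
    have a2 : |(((j : ℕ) : ℝ) - H) / M ^ 14| ≤ 1 := by
      rw [abs_div, abs_of_pos K0, div_le_one K0]; linarith
    have a3 : |1 + c + (((j : ℕ) : ℝ) - H) / M ^ 14| ≤ 2 * M := by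
      have := abs_le.1 a2
      rw [abs_le]; constructor <;> linarith [this.1, this.2]
    have a4 : |M ^ 4 * x * (1 + c + (((j : ℕ) : ℝ) - H) / M ^ 14)| ≤ M ^ 5 * (2 * M) := by
      rw [abs_mul]; exact mul_le_mul (sb x hx) a3 (abs_nonneg _) (by positivity)
    have a5 : |1 / M ^ 21 * M ^ 4 * β| ≤ M ^ 4 * (1 / 2) := by
      rw [mul_comm (1 / M ^ 21), mul_assoc, abs_mul, abs_of_pos (by positivity : 0 < M ^ 4)]
      exact mul_le_mul_of_nonneg_left (rb β hβ) (by positivity)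
    have a6 := pw hM (show 4 < 5 by norm_num)
    have a7 : M ^ 5 * (2 * M) = 2 * M ^ 6 := by ring
    have a8 : 0 < M ^ 4 := by positivity
    refine (abs_add_le _ _).trans ((add_le_add_left (abs_sub _ _) _).trans ?_)
    linarith
  have nd : ∀ x y : ℝ, |x| ≤ M → |y| ≤ M →
      1 / M ^ 23 * (M ^ 3 + |M ^ 4 * x - M ^ 4 * y|) ≤ 5 * (1 / M ^ 18) := fun x y hx hy => by
    have := need hM hx hy (d := 0) (by rw [abs_zero]; linarith)
    rwa [abs_zero, mul_zero, add_zero] at this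
  refine ⟨fun e => hC.wp _, fun e => hC.wq _, fun e => ?_, fun e => ?_, fun e => ?_, ?_, ?_,
    fun e => ?_, fun e x => ?_, fun e e' hne => ?_, fun e => ?_⟩
  · change _ ≤ M ^ 4 * C.s (C.q e.2.2) - M ^ 4 * C.s (C.p e.2.2)
    calc 2 * M ^ 3 = M ^ 4 * (2 * (1 / M)) := by field_simp
      _ ≤ _ := by rw [← mul_sub]; exact mul_le_mul_of_nonneg_left (hC.lo _) (by positivity)
  · change M ^ 4 * C.s (C.q e.2.2) - M ^ 4 * C.s (C.p e.2.2) ≤ _
    calc _ ≤ M ^ 4 * (2 * M ^ 2 * (1 / M)) := by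
          rw [← mul_sub]; exact mul_le_mul_of_nonneg_left (hC.hi _) (by positivity)
      _ = _ := by field_simp
  · change M ^ 4 * C.s (C.p e.2.2) * N.t e + N.b (Sum.inl (C.p e.2.2, jo _ e.1 e.2.1)) =
      M ^ 4 * C.s (C.q e.2.2) * N.t e + N.b (Sum.inl (C.q e.2.2, jo _ e.1 e.2.1))
    rw [hb, hb, ht]
    linear_combination (1 / M ^ 21 * M ^ 4) * hC.meet e.2.2
  · rintro (x | x)
    · exact (sb _ (hC.bs x.1)).trans (by linarith)
    · exact (sb _ (hC.ms_le x.1)).trans (by linarith)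
  · rintro (x | x)
    · have := bbd x.2 _ 0 _ (hC.bs x.1) (hC.bb x.1) le_rfl (by linarith)
      rw [add_zero] at this
      exact this
    · exact bbd x.2.2 _ _ _ (hC.ms_le x.1) (hC.mb_le x.1) (cb _).1 (cb _).2
  · rw [abs_of_nonneg (tb e).1]; linarith [(tb e).2]
  · rcases x with ⟨i, j⟩ | ⟨ε', c', j⟩
    · have hv : N.vl e (N.s (Sum.inl (i, j))) (N.b (Sum.inl (i, j))) =
          ((((j : ℕ) : ℤ) - ((jo i e.1 e.2.1 : ℕ) : ℤ) : ℤ) : ℝ) * (1 - M ^ 4 * C.s i / M ^ 14) +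
            1 / M ^ 21 * M ^ 4 * C.vl e.2.2 (C.s i) (C.b i) := by
        have h1 := hb i e.1 e.2.1
        simp only [Cfg.vl, hms, hmb, ht]
        simp only [hN, needleCfg, Sum.elim_inl] at h1 ⊢
        push_cast
        linear_combination h1
      rw [hv, hms]
      change Side _ (_ * (_ + |M ^ 4 * C.s i - _|)) (if j = jo i e.1 e.2.1 then C.sg e.2.2 i
        else (((j : ℕ) : ℤ) - ((jo i e.1 e.2.1 : ℕ) : ℤ)).sign) ∨
        ((if j = jo i e.1 e.2.1 then C.sg e.2.2 i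
        else (((j : ℕ) : ℤ) - ((jo i e.1 e.2.1 : ℕ) : ℤ)).sign) = 0 ∧ (C.w i = 0 ∨
          Sum.inl (i, j) = Sum.inl (C.p e.2.2, jo _ e.1 e.2.1) ∨
          Sum.inl (i, j) = Sum.inl (C.q e.2.2, jo _ e.1 e.2.1)))
      by_cases hj : j = jo i e.1 e.2.1
      · rw [if_pos hj, hj, sub_self, Int.cast_zero, zero_mul, zero_add]
        rcases hC.side e.2.2 i with h | ⟨h, h'⟩
        · have := small hM h (d := 0) (by simp)
          rw [abs_zero, mul_zero, add_zero] at this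
          exact Or.inl this
        · exact Or.inr ⟨h, h'.imp id (Or.imp (fun a => by rw [a]) fun a => by rw [a])⟩
      · rw [if_neg hj]
        have hw := w_ge hM (hC.bs i)
        have h1 := vl_le hM hC e.2.2 (hC.bs i) (hC.bb i)
        have h2 := nd _ _ (hC.bs i) (hC.ms_le e.2.2)
        have i1 := iw hM (show 15 < 18 by norm_num)
        have i2 := iw hM (show 0 < 15 by norm_num)
        rw [pow_zero, div_one] at i2
        have i0 : 0 < 1 / M ^ 18 := by positivity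
        exact Or.inl (big (sub_ne_zero.2 fun a => hj (Fin.ext (by exact_mod_cast a)))
          (by linarith) (by linarith))
    · by_cases hj : H ≤ (j : ℕ) ∧ (j : ℕ) < H + Y
      · exact Or.inr ⟨if_pos hj, Or.inl (if_pos hj)⟩
      · left
        have h1 := mk hM hC hz hz' e.2.2 ε' (cc e.1 c') (v := (e.2.1 : ℕ))
          (y := ((j : ℕ) : ℤ) - H) (fun a => hj (by have := e.2.1.2; omega))
          (nd _ _ (hC.ms_le ε') (hC.ms_le e.2.2))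
        have h2 := hvm e ε' (c' : ℕ) (((j : ℕ) : ℝ) - H)
        push_cast at h1
        rw [← h2, ← hms e] at h1
        have h3 : N.sg e (Sum.inr (ε', c', j)) =
          mkSg C z (e.1 : ℕ) (e.2.1 : ℕ) e.2.2 ε' (c' : ℕ) (((j : ℕ) : ℤ) - H) := if_neg hj
        rw [h3]
        exact h1
  · have h2 := hvm e e'.2.2 (e'.1 : ℕ) (e'.2.1 : ℕ)
    rw [hms e', hmb e', h2, hms e]
    change Side _ _ (mkSg C z (e.1 : ℕ) (e.2.1 : ℕ) e.2.2 e'.2.2 (e'.1 : ℕ) (e'.2.1 : ℕ))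
    by_cases h : e'.2.1 = e.2.1 ∧ e'.1 = e.1
    · have h3 : e'.2.2 ≠ e.2.2 := fun a => hne (Prod.ext h.2 (Prod.ext h.1 a))
      have h4 := hC.sidem e.2.2 e'.2.2 h3
      rw [zero_mul, zero_mul, add_zero] at h4
      have h5 : |N.t e - N.t e'| ≤ 1 := by
        have a := abs_le.1 (rb _ (hC.bt e.2.2))
        have b := abs_le.1 (rb _ (hC.bt e'.2.2))
        rw [ht, ht, h.1, h.2, abs_le]
        constructor <;> linarith [a.1, a.2, b.1, b.2]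
      have h6 := small hM h4 h5
      simpa only [h.1, h.2, mkSg, sub_self, zero_mul, mul_zero, zero_add, add_zero, ne_eq,
        not_true_eq_false, if_false] using h6
    · have h1 := mk hM hC hz hz' e.2.2 e'.2.2 (cc e.1 e'.1) (v := (e.2.1 : ℕ))
        (y := (e'.2.1 : ℕ)) (fun a => h ⟨Fin.ext (by exact_mod_cast a.1),
          Fin.ext (by exact_mod_cast a.2)⟩)
        (need hM (hC.ms_le e'.2.2) (hC.ms_le e.2.2) (d := N.t e - N.t e') (by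
          rw [abs_le]; constructor <;> linarith [tb e, tb e']))
      push_cast at h1
      exact h1
  · change mkSg C z _ _ _ _ _ _ = 0
    simp [mkSg, hC.self]

end Vale.Agent.P065
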