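import Vale.Agent.P065.Defs

/-! P065: weights of the lattice configuration. -/

namespace Vale.Agent.P065
open Finset
variable {ι E : Type} [Fintype ι] [Fintype E] (C : Cfg ι E) (z : ι → ℤ) {G Y H : ℕ}
  (jo : ι → Fin G → Fin Y → Fin (Y + 2 * H)) (K Λ r : ℝ)

theorem needleS_sgn (j0 : ℤ) (h0 : 0 ≤ j0) (n : ℕ) :
    ∑ j ∈ range n, ((j : ℤ) - j0).sign = if (n : ℤ) ≤ j0 then -(n : ℤ) else n - 1 - 2 * j0 := by
  induction n with
  | zero => simp [h0]
  | succ n ih =>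
    rw [sum_range_succ, ih]
    push_cast
    rcases lt_trichotomy (n : ℤ) j0 with h | h | h
    · rw [Int.sign_eq_neg_one_of_neg (by omega), if_pos (by omega), if_pos (by omega)]
      ring
    · rw [if_pos (by omega), if_neg (by omega), h, sub_self, Int.sign_zero]
      ring
    · rw [Int.sign_eq_one_of_pos (by omega), if_neg (by omega), if_neg (by omega)]
      ring

theorem needleS_sum {n : ℕ} (j0 x : ℤ) (h0 : 0 ≤ j0) (h1 : j0 < n) (f : Fin n → ℤ)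
    (hf : ∀ j : Fin n, f j = if ((j : ℕ) : ℤ) = j0 then x else (((j : ℕ) : ℤ) - j0).sign) :
    ∑ j, f j = n - 1 - 2 * j0 + x := by
  have h2 := needleS_sgn j0 h0 n
  rw [if_neg (by omega), ← Fin.sum_univ_eq_sum_range (fun j : ℕ => ((j : ℤ) - j0).sign)] at h2
  obtain ⟨m, rfl⟩ := Int.eq_ofNat_of_zero_le h0
  have hm : m < n := by exact_mod_cast h1
  have h3 : ∀ j : Fin n, f j = (((j : ℕ) : ℤ) - m).sign + if j = ⟨m, hm⟩ then x else 0 := by
    intro j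
    rw [hf]
    by_cases h : j = ⟨m, hm⟩
    · subst h
      simp
    · have h4 : ((j : ℕ) : ℤ) ≠ m := fun h5 => h (Fin.ext (by exact_mod_cast h5))
      rw [if_neg h, if_neg h4, add_zero]
  rw [sum_congr rfl fun j _ => h3 j, sum_add_distrib, h2]
  simp

theorem needleS_split {M : Type} [AddCommMonoid M] (Y H : ℕ) (f : ℕ → M) :
    ∑ j : Fin (Y + 2 * H), (if H ≤ (j : ℕ) ∧ (j : ℕ) < H + Y then 0 else f j) +
      ∑ v : Fin Y, f (H + v) = ∑ j : Fin (Y + 2 * H), f j := by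
  have h1 : ∑ v : Fin Y, f (H + v) =
      ∑ j : Fin (Y + 2 * H), (if H ≤ (j : ℕ) ∧ (j : ℕ) < H + Y then f j else 0) := by
    rw [Fin.sum_univ_eq_sum_range (fun j => f (H + j)),
      Fin.sum_univ_eq_sum_range (fun j => if H ≤ j ∧ j < H + Y then f j else 0), ← sum_filter]
    have h2 : (range (Y + 2 * H)).filter (fun j => H ≤ j ∧ j < H + Y) = Ico H (H + Y) := by
      ext j
      simp only [mem_filter, mem_range, mem_Ico]
      omega
    rw [h2, sum_Ico_eq_sum_range, Nat.add_sub_cancel_left]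
  rw [h1, ← sum_add_distrib]
  refine sum_congr rfl fun j _ => ?_
  split_ifs <;> simp

theorem needleS_id {G0 : ℕ} (hG : G = 2 * G0 + 1) :
    ∑ c : Fin G, ((c : ℕ) : ℤ) = G * G0 := by
  rw [Fin.sum_univ_eq_sum_range (fun j => (j : ℤ)), ← Nat.cast_sum]
  have h1 := sum_range_id_mul_two G
  have h2 : ∑ i ∈ range G, i = G * G0 := by
    have h3 : G * (G - 1) = G * G0 * 2 := by
      rw [hG, Nat.add_sub_cancel]
      ring
    omega
  rw [h2]
  push_cast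
  ring

theorem needle_tot : (needleCfg C z G Y H jo K Λ r).tot
    = (∑ i, C.w i + G * Fintype.card E) * (Y + 2 * H) := by
  have h1 := needleS_split Y H (fun _ => (1 : ℕ))
  simp only [sum_const, card_univ, Fintype.card_fin, smul_eq_mul, mul_one] at h1
  have h2 : ∑ j : Fin (Y + 2 * H), (if H ≤ (j : ℕ) ∧ (j : ℕ) < H + Y then 0 else 1) = 2 * H := by
    omega
  have h3 : ∀ (ε : E) (c : Fin G), ∑ j : Fin (Y + 2 * H),
      (needleCfg C z G Y H jo K Λ r).w (Sum.inr (ε, c, j)) = 2 * H := fun _ _ => h2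
  have h4 : ∀ i, ∑ j : Fin (Y + 2 * H),
      (needleCfg C z G Y H jo K Λ r).w (Sum.inl (i, j)) = C.w i * (Y + 2 * H) := fun i => by
    simp [needleCfg, mul_comm]
  unfold Cfg.tot
  simp only [Fintype.sum_sum_type, Fintype.sum_prod_type, h3, h4,
    Fintype.card_prod, sum_const, card_univ, smul_eq_mul, Fintype.card_fin, ← sum_mul]
  ring

theorem needle_imb {G0 Y0 : ℕ} (hG : G = 2 * G0 + 1) (hY : Y = 2 * Y0 + 1)
    (hH : ∀ i, |2 * z i| * G ≤ H)
    (hjo : ∀ i c v, ((jo i c v : ℕ) : ℤ) = H + (v : ℕ) - 2 * z i * (c : ℕ))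
    (bal : ∀ ε, C.imb ε = 0) {μ V S S' : ℤ} (hV : V = Fintype.card E)
    (hμ : μ = ∑ i, (C.w i : ℤ) + G * V) (hS : S = ∑ i, (C.w i : ℤ) * (2 * z i))
    (hS' : S' = ∑ ε, (z (C.p ε) + z (C.q ε))) (e : Fin G × Fin Y × E) :
    (needleCfg C z G Y H jo K Λ r).imb e
      = 2 * (μ * Y0 + V * G0 - G * G0 * S' - μ * (e.2.1 : ℕ) + (S + G * S' - V) * (e.1 : ℕ)) := by
  obtain ⟨c, v, ε⟩ := e
  have hY' : (Y : ℤ) = 2 * Y0 + 1 := by exact_mod_cast hY
  have hG' : (G : ℤ) = 2 * G0 + 1 := by exact_mod_cast hG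
  have hc : ((c : ℕ) : ℤ) < G := by exact_mod_cast c.2
  have hv : ((v : ℕ) : ℤ) < Y := by exact_mod_cast v.2
  have h1 : ∀ i, ∑ j, (needleCfg C z G Y H jo K Λ r).sg (c, v, ε) (Sum.inl (i, j)) *
      ((needleCfg C z G Y H jo K Λ r).w (Sum.inl (i, j)) : ℤ) =
      (2 * Y0 - 2 * (v : ℕ)) * (C.w i : ℤ) + 2 * (c : ℕ) * ((C.w i : ℤ) * (2 * z i)) +
        C.sg ε i * C.w i := by
    intro i
    simp only [needleCfg, Sum.elim_inl]
    rw [← sum_mul, needleS_sum ((jo i c v : ℕ) : ℤ) (C.sg ε i) (Int.natCast_nonneg _)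
      (by exact_mod_cast (jo i c v).2) _ (fun j => by simp only [Nat.cast_inj, Fin.ext_iff]),
      hjo]
    push_cast
    rw [hY']
    ring
  have h2 : ∀ (ε' : E) (c' : Fin G),
      ∑ j, (needleCfg C z G Y H jo K Λ r).sg (c, v, ε) (Sum.inr (ε', c', j)) *
      ((needleCfg C z G Y H jo K Λ r).w (Sum.inr (ε', c', j)) : ℤ) +
      ∑ v', (needleCfg C z G Y H jo K Λ r).sm (c, v, ε) (c', v', ε') =
      2 * Y0 - 2 * (v : ℕ) + 2 * (z (C.p ε') + z (C.q ε')) * (c : ℕ)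
        - 2 * (z (C.p ε') + z (C.q ε')) * (c' : ℕ) +
        if ((c' : ℕ) : ℤ) = (c : ℕ) then C.sm ε ε' else (((c' : ℕ) : ℤ) - (c : ℕ)).sign := by
    intro ε' c'
    have hc' : ((c' : ℕ) : ℤ) < G := by exact_mod_cast c'.2
    have a1 := needleS_split Y H
      (fun j : ℕ => mkSg C z (c : ℕ) (v : ℕ) ε ε' (c' : ℕ) ((j : ℤ) - H))
    have a2 : |(z (C.p ε') + z (C.q ε')) * (((c : ℕ) : ℤ) - (c' : ℕ))| ≤ H := by
      have b1 := hH (C.p ε')
      have b2 := hH (C.q ε')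
      rw [abs_mul, abs_two] at b1 b2
      have b3 := abs_add_le (z (C.p ε')) (z (C.q ε'))
      have b4 : |((c : ℕ) : ℤ) - (c' : ℕ)| ≤ G := by
        rw [abs_le]
        constructor <;> omega
      rw [abs_mul]
      have b5 := mul_le_mul b3 b4 (abs_nonneg _) (by positivity)
      linarith
    rw [abs_le] at a2
    rw [needleS_sum ((v : ℕ) + H - (z (C.p ε') + z (C.q ε')) * (((c : ℕ) : ℤ) - (c' : ℕ)))
      (if ((c' : ℕ) : ℤ) = (c : ℕ) then C.sm ε ε' else (((c' : ℕ) : ℤ) - (c : ℕ)).sign)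
      (by linarith [a2.2, Int.natCast_nonneg (v : ℕ)]) (by push_cast; linarith [a2.1])
      (fun j : Fin (Y + 2 * H) => mkSg C z (c : ℕ) (v : ℕ) ε ε' (c' : ℕ) (((j : ℕ) : ℤ) - H))
      (fun j => by
        unfold mkSg
        have b1 : ((j : ℕ) : ℤ) - H - (v : ℕ) +
            (z (C.p ε') + z (C.q ε')) * (((c : ℕ) : ℤ) - (c' : ℕ)) = ((j : ℕ) : ℤ) -
            ((v : ℕ) + H - (z (C.p ε') + z (C.q ε')) * (((c : ℕ) : ℤ) - (c' : ℕ))) := by ring
        rw [b1]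
        simp only [ne_eq, sub_eq_zero, ite_not])] at a1
    simp only [needleCfg, Sum.elim_inr]
    have a3 : ∀ j : Fin (Y + 2 * H), (if H ≤ (j : ℕ) ∧ (j : ℕ) < H + Y then (0 : ℤ)
        else mkSg C z (c : ℕ) (v : ℕ) ε ε' (c' : ℕ) (((j : ℕ) : ℤ) - H)) *
        ((if H ≤ (j : ℕ) ∧ (j : ℕ) < H + Y then 0 else 1 : ℕ) : ℤ) =
        if H ≤ (j : ℕ) ∧ (j : ℕ) < H + Y then (0 : ℤ)
        else mkSg C z (c : ℕ) (v : ℕ) ε ε' (c' : ℕ) (((j : ℕ) : ℤ) - H) := by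
      intro j
      split_ifs <;> simp
    rw [sum_congr rfl fun j _ => a3 j]
    simp only [Nat.cast_add, add_sub_cancel_left] at a1
    rw [a1]
    push_cast
    rw [hY']
    ring
  have h3 : ∀ ε' : E, ∑ c' : Fin G,
      (2 * Y0 - 2 * (v : ℕ) + 2 * (z (C.p ε') + z (C.q ε')) * (c : ℕ)
        - 2 * (z (C.p ε') + z (C.q ε')) * (c' : ℕ) +
        if ((c' : ℕ) : ℤ) = (c : ℕ) then C.sm ε ε' else (((c' : ℕ) : ℤ) - (c : ℕ)).sign) =
      (G * (2 * Y0 - 2 * (v : ℕ)) + (2 * G0 - 2 * (c : ℕ))) +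
        (2 * G * ((c : ℕ) - G0)) * (z (C.p ε') + z (C.q ε')) + C.sm ε ε' := by
    intro ε'
    rw [sum_add_distrib, needleS_sum ((c : ℕ) : ℤ) (C.sm ε ε') (Int.natCast_nonneg _) hc _
      (fun _ => rfl), sum_sub_distrib, ← mul_sum, needleS_id hG]
    simp only [sum_const, card_univ, Fintype.card_fin, nsmul_eq_mul]
    linear_combination hG'
  have h4 := bal ε
  unfold Cfg.imb at h4 ⊢
  have h5 : ∑ e', (needleCfg C z G Y H jo K Λ r).sm (c, v, ε) e' =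
      ∑ ε', ∑ c', ∑ v', (needleCfg C z G Y H jo K Λ r).sm (c, v, ε) (c', v', ε') := by
    rw [Fintype.sum_prod_type, sum_comm (s := univ) (t := univ)
      (f := fun (ε' : E) (c' : Fin G) => ∑ v', (needleCfg C z G Y H jo K Λ r).sm (c, v, ε)
        (c', v', ε'))]
    refine sum_congr rfl fun c' _ => ?_
    rw [Fintype.sum_prod_type, sum_comm]
  rw [h5, Fintype.sum_sum_type, Fintype.sum_prod_type, Fintype.sum_prod_type, add_assoc,
    ← sum_add_distrib, sum_congr rfl fun i _ => h1 i]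
  have h6 : ∀ ε' : E, ∑ x : Fin G × Fin (Y + 2 * H),
      (needleCfg C z G Y H jo K Λ r).sg (c, v, ε) (Sum.inr (ε', x)) *
      ((needleCfg C z G Y H jo K Λ r).w (Sum.inr (ε', x)) : ℤ) +
      ∑ c', ∑ v', (needleCfg C z G Y H jo K Λ r).sm (c, v, ε) (c', v', ε') =
      (G * (2 * Y0 - 2 * (v : ℕ)) + (2 * G0 - 2 * (c : ℕ))) +
        (2 * G * ((c : ℕ) - G0)) * (z (C.p ε') + z (C.q ε')) + C.sm ε ε' := by
    intro ε'
    rw [Fintype.sum_prod_type, ← sum_add_distrib, sum_congr rfl fun c' _ => h2 ε' c', h3]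
  rw [sum_congr rfl fun i _ => h6 i, sum_add_distrib, sum_add_distrib, sum_add_distrib,
    sum_add_distrib, ← mul_sum, ← mul_sum, ← mul_sum, ← hS, ← hS', sum_const, card_univ,
    nsmul_eq_mul, ← hV, hμ]
  linear_combination h4

end Vale.Agent.P065
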