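import Vale.Agent.P065.Defs

/-! P065: the pattern of parallel lines that drives the median through the lattice. -/

namespace Vale.Agent.P065
open Finset

theorem PatAux.cnt {m n : ℕ} (h : m ≤ n) :
    ∑ i : Fin n, (if (i : ℕ) < m then (1 : ℤ) else 0) = m := by
  rw [Fin.sum_univ_eq_sum_range (fun i => if i < m then (1 : ℤ) else 0) n, Finset.sum_boole]
  have : (range n).filter (fun i => i < m) = range m := by
    ext i
    simp only [mem_filter, mem_range]
    omega
  rw [this, card_range]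

theorem PatAux.one {c n : ℕ} (h : c < n) :
    ∑ i : Fin n, (if (i : ℕ) = c then (1 : ℤ) else 0) = 1 := by
  rw [Fin.sum_univ_eq_sum_range (fun i => if i = c then (1 : ℤ) else 0) n, Finset.sum_ite_eq',
    if_pos (mem_range.mpr h)]

theorem pattern (G Y μ lam O Z : ℕ) {K : ℝ} (hK : 2 * (Y : ℝ) ≤ K) (hK2 : 2 ≤ K) :
    ∃ (J : Type) (_ : Fintype J) (_ : J) (o : J → ℝ) (a : J → ℕ), (∀ j, |o j| ≤ G + 2) ∧
      ∑ j, a j = G * Y * μ + G * lam + O + Z ∧
      ∀ (c v : ℕ) (x : ℝ), c < G → v < Y → |x - (1 + c + v / K)| ≤ 1 / (4 * K) →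
        ∃ sp sq : J → ℤ, (∀ j, Side (o j - x) (1 / (4 * K)) (sp j)) ∧
          (∀ j, Side (o j + x) (1 / (4 * K)) (sq j)) ∧
          ∑ j, (sp j + sq j) * a j = 2 * (lam * (G - c) - μ * (G * Y - c * Y - v) - O) := by
  have hK0 : 0 < K := by linarith
  set u : ℝ := 1 / K with hu
  have hu0 : 0 < u := by positivity
  have huK : u * K = 1 := by rw [hu]; field_simp
  have hu2 : u ≤ 1 / 2 := by nlinarith
  have hYu : Y * u ≤ 1 / 2 := by nlinarith
  have hdiv : ∀ y : ℝ, y / K = y * u := fun y => by rw [hu]; ring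
  have h4 : 1 / (4 * K) = u / 4 := by rw [hu]; field_simp
  refine ⟨(Fin G × Fin Y) ⊕ Fin G ⊕ Bool, inferInstance, Sum.inr (Sum.inr true),
    Sum.elim (fun x => -(1 + ((x.1 : ℕ) : ℝ) + (((x.2 : ℕ) : ℝ) + 1 / 2) * u))
      (Sum.elim (fun c' => 1 + ((c' : ℕ) : ℝ) + 3 / 4) fun β => if β then -((G : ℝ) + 2) else 0),
    Sum.elim (fun _ => μ) (Sum.elim (fun _ => lam) fun β => if β then O else Z), ?_, ?_, ?_⟩
  · rintro (⟨c', v'⟩ | c' | β)
    · have h1 : ((c' : ℕ) : ℝ) + 1 ≤ G := by exact_mod_cast c'.2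
      have h2 : ((v' : ℕ) : ℝ) + 1 ≤ Y := by exact_mod_cast v'.2
      have h3 : (0 : ℝ) ≤ (c' : ℕ) := Nat.cast_nonneg _
      have h5 : (0 : ℝ) ≤ (v' : ℕ) := Nat.cast_nonneg _
      simp only [Sum.elim_inl]
      rw [abs_le]
      constructor <;> nlinarith
    · have h1 : ((c' : ℕ) : ℝ) + 1 ≤ G := by exact_mod_cast c'.2
      have h3 : (0 : ℝ) ≤ (c' : ℕ) := Nat.cast_nonneg _
      simp only [Sum.elim_inr, Sum.elim_inl]
      rw [abs_le]
      constructor <;> linarith
    · have h3 : (0 : ℝ) ≤ G := Nat.cast_nonneg _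
      simp only [Sum.elim_inr]
      rw [abs_le]
      split_ifs <;> constructor <;> linarith
  · rw [Fintype.sum_sum_type, Fintype.sum_sum_type, Fintype.sum_bool]
    simp
    ring
  · intro c v x hc hv hx
    rw [h4, hdiv] at hx
    rw [h4]
    obtain ⟨hx1, hx2⟩ := abs_le.mp hx
    have hc' : (c : ℝ) + 1 ≤ G := by exact_mod_cast hc
    have hv' : (v : ℝ) + 1 ≤ Y := by exact_mod_cast hv
    have hc0 : (0 : ℝ) ≤ c := Nat.cast_nonneg _
    have hv0 : (0 : ℝ) ≤ v := Nat.cast_nonneg _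
    have hvu0 : 0 ≤ (v : ℝ) * u := by positivity
    have hvu : (v : ℝ) * u + u ≤ 1 / 2 := by nlinarith
    refine ⟨Sum.elim (fun _ => -1)
        (Sum.elim (fun c' => if (c' : ℕ) < c then -1 else 1) fun _ => -1),
      Sum.elim (fun y => if (y.1 : ℕ) < c ∨ ((y.1 : ℕ) = c ∧ (y.2 : ℕ) < v) then 1 else -1)
        (Sum.elim (fun _ => 1) fun β => if β then -1 else 1), ?_, ?_, ?_⟩
    · rintro (⟨c', v'⟩ | c' | β)
      · have h3 : (0 : ℝ) ≤ (c' : ℕ) := Nat.cast_nonneg _
        have h5 : (0 : ℝ) ≤ (((v' : ℕ) : ℝ) + 1 / 2) * u := by positivity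
        right
        simp only [Sum.elim_inl]
        exact ⟨trivial, by linarith⟩
      · simp only [Sum.elim_inr, Sum.elim_inl]
        split_ifs with h
        · have : ((c' : ℕ) : ℝ) + 1 ≤ c := by exact_mod_cast h
          exact Or.inr ⟨rfl, by linarith⟩
        · have : (c : ℝ) ≤ (c' : ℕ) := by exact_mod_cast not_lt.mp h
          exact Or.inl ⟨rfl, by linarith⟩
      · simp only [Sum.elim_inr]
        refine Or.inr ⟨rfl, ?_⟩
        cases β <;> simp <;> linarith
    · rintro (⟨c', v'⟩ | c' | β)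
      · have h2 : ((v' : ℕ) : ℝ) + 1 ≤ Y := by exact_mod_cast v'.2
        have h5 : (0 : ℝ) ≤ ((v' : ℕ) : ℝ) * u := by positivity
        have h6 : ((v' : ℕ) : ℝ) * u + u ≤ 1 / 2 := by nlinarith
        simp only [Sum.elim_inl]
        split_ifs with h
        · left
          refine ⟨rfl, ?_⟩
          rcases h with h | ⟨h, h'⟩
          · have : ((c' : ℕ) : ℝ) + 1 ≤ c := by exact_mod_cast h
            linarith
          · have h7 : ((c' : ℕ) : ℝ) = c := by exact_mod_cast h
            have h8 : ((v' : ℕ) : ℝ) + 1 ≤ v := by exact_mod_cast h'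
            nlinarith
        · right
          refine ⟨rfl, ?_⟩
          by_cases h' : (c' : ℕ) = c
          · have h7 : ((c' : ℕ) : ℝ) = c := by exact_mod_cast h'
            have h8 : (v : ℝ) ≤ (v' : ℕ) := by exact_mod_cast (by omega : v ≤ (v' : ℕ))
            nlinarith
          · have h7 : (c : ℝ) + 1 ≤ (c' : ℕ) := by exact_mod_cast (by omega : c + 1 ≤ (c' : ℕ))
            linarith
      · have h3 : (0 : ℝ) ≤ (c' : ℕ) := Nat.cast_nonneg _
        simp only [Sum.elim_inr, Sum.elim_inl]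
        exact Or.inl ⟨rfl, by linarith⟩
      · simp only [Sum.elim_inr]
        cases β
        · refine Or.inl ⟨by simp, ?_⟩
          simp
          linarith
        · refine Or.inr ⟨by simp, ?_⟩
          simp
          linarith
    · rw [Fintype.sum_sum_type, Fintype.sum_sum_type, Fintype.sum_bool, Fintype.sum_prod_type]
      simp only [Sum.elim_inl, Sum.elim_inr]
      have e1 : ∀ (c' : Fin G) (v' : Fin Y),
          (-1 + if (c' : ℕ) < c ∨ ((c' : ℕ) = c ∧ (v' : ℕ) < v) then (1 : ℤ) else -1) * (μ : ℤ)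
          = (-2 * μ) + (2 * μ) * (if (c' : ℕ) < c then (1 : ℤ) else 0)
            + (2 * μ) * ((if (c' : ℕ) = c then (1 : ℤ) else 0)
              * (if (v' : ℕ) < v then (1 : ℤ) else 0)) := by
        intro c' v'
        split_ifs <;> omega
      have e2 : ∀ c' : Fin G, ((if (c' : ℕ) < c then (-1 : ℤ) else 1) + 1) * (lam : ℤ)
          = 2 * lam - (2 * lam) * (if (c' : ℕ) < c then (1 : ℤ) else 0) := by
        intro c'
        split_ifs <;> ring
      simp only [e1, e2, Finset.sum_add_distrib, Finset.sum_sub_distrib, ← Finset.mul_sum,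
        ← Finset.sum_mul, PatAux.cnt hv.le, PatAux.cnt hc.le, PatAux.one hc, Finset.sum_const,
        Finset.card_univ, Fintype.card_fin, nsmul_eq_mul]
      simp
      ring

end Vale.Agent.P065
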