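import Vale.Agent.P065.Defs

/-! P065: geometry of the plugged configuration. -/

namespace Vale.Agent.P065
open Finset
variable {ι E κ F J : Type}

namespace PlugGX

theorem amul {x y a b : ℝ} (hx : |x| ≤ a) (hy : |y| ≤ b) : |x * y| ≤ a * b := by
  rw [abs_mul]
  exact mul_le_mul hx hy (abs_nonneg _) ((abs_nonneg _).trans hx)

theorem pmul {c x a : ℝ} (hc : 0 ≤ c) (hx : |x| ≤ a) : |c * x| ≤ c * a :=
  amul (abs_of_nonneg hc).le hx

theorem far {δ τ θ τ' δ' θn d dt P Pm X X2 Bt Yt : ℝ} (δ0 : 0 < δ) (τ0 : 0 < τ) (θ0 : 0 < θ)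
    (θ1 : θ ≤ 1) (hτ : τ' ≤ τ / 16) (hδ0 : 0 ≤ δ') (hδ : δ' ≤ δ * θ / 16)
    (θn1 : θn ≤ 1) (hP : |P| ≤ δ * θ / 16) (hPm : |Pm| ≤ δ * θ / 16)
    (hX : |X| ≤ τ / 16) (hX2 : |X2| ≤ τ / 16) (hB : |Bt| ≤ δ * τ / 128) (hY : |Yt| ≤ δ * τ / 128) :
    |P * dt + Bt + d * X + P * X - Yt| + (τ' * (δ' + |d + P - Pm|) + θn * δ' * |dt + X - X2|) ≤
      τ * (δ + |d|) + θ * δ * |dt| := by
  have h0 : δ * θ ≤ δ := mul_le_of_le_one_right δ0.le θ1
  have a1 : |P * dt| ≤ δ * θ / 16 * |dt| := amul hP le_rfl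
  have a2 : |d * X| ≤ |d| * (τ / 16) := amul le_rfl hX
  have a3 : |P * X| ≤ δ / 16 * (τ / 16) := amul (by linarith) hX
  have a4 : |P * dt + Bt + d * X + P * X - Yt| ≤ |P * dt| + |Bt| + |d * X| + |P * X| + |Yt| := by
    have b1 := abs_sub (P * dt + Bt + d * X + P * X) Yt
    have b2 := abs_add_le (P * dt + Bt + d * X) (P * X)
    have b3 := abs_add_three (P * dt) Bt (d * X)
    linarith
  have a5 : δ' + |d + P - Pm| ≤ δ + |d| := by
    have b1 := abs_sub (d + P) Pm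
    have b2 := abs_add_le d P
    linarith
  have a6 : τ' * (δ' + |d + P - Pm|) ≤ τ / 16 * (δ + |d|) :=
    mul_le_mul hτ a5 (by positivity) (by positivity)
  have a7 : |dt + X - X2| ≤ |dt| + τ / 8 := by
    have b1 := abs_sub (dt + X) X2
    have b2 := abs_add_le dt X
    linarith
  have a8 : θn * δ' ≤ δ * θ / 16 := (mul_le_of_le_one_left hδ0 θn1).trans hδ
  have a9 : θn * δ' * |dt + X - X2| ≤ δ * θ / 16 * (|dt| + τ / 8) :=
    mul_le_mul a8 a7 (abs_nonneg _) (by positivity)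
  have c1 : δ * θ * τ ≤ δ * τ := by gcongr
  have c2 : 0 ≤ δ * τ := by positivity
  have c3 : 0 ≤ τ * |d| := by positivity
  have c4 : 0 ≤ δ * θ * |dt| := by positivity
  nlinarith

theorem plain {δ τ τ' δ' d Pm X Bt Yt : ℝ} (δ0 : 0 < δ) (τ0 : 0 < τ) (hτ : τ' ≤ τ / 16)
    (hδ0 : 0 ≤ δ') (hδ : δ' ≤ δ / 16) (hPm : |Pm| ≤ δ / 16) (hX : |X| ≤ τ / 16)
    (hB : |Bt| ≤ δ * τ / 16) (hY : |Yt| ≤ δ * τ / 128) :
    |Bt + d * X - Yt| + τ' * (δ' + |d - Pm|) ≤ τ * (δ + |d|) := by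
  have a2 : |d * X| ≤ |d| * (τ / 16) := amul le_rfl hX
  have b1 := abs_sub (Bt + d * X) Yt
  have b2 := abs_add_le Bt (d * X)
  have a5 : δ' + |d - Pm| ≤ δ + |d| := by
    have b3 := abs_sub d Pm
    linarith
  have a6 : τ' * (δ' + |d - Pm|) ≤ τ / 16 * (δ + |d|) :=
    mul_le_mul hτ a5 (by positivity) (by positivity)
  have c2 : 0 ≤ δ * τ := by positivity
  have c3 : 0 ≤ τ * |d| := by positivity
  nlinarith

theorem own {δ τ' δ' Δ d Pm Yt u γ kp : ℝ} (δ0 : 0 < δ) (hτ : τ' ≤ u * γ / 6) (hu : 0 ≤ u * γ)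
    (hδ0 : 0 ≤ δ') (hδ : δ' ≤ δ / 16) (hPm : |Pm| ≤ δ / 16) (hΔ : δ ≤ Δ) (hd : |d| = Δ)
    (hk : u * Δ = kp) (hY : |Yt| ≤ kp * γ / 8) :
    |Yt| + τ' * (δ' + |d - Pm|) ≤ kp * γ := by
  have a5 : δ' + |d - Pm| ≤ 3 * Δ := by
    have b3 := abs_sub d Pm
    linarith
  have a6 : τ' * (δ' + |d - Pm|) ≤ u * γ / 6 * (3 * Δ) :=
    mul_le_mul hτ a5 (by positivity) (by positivity)
  have a7 : u * γ / 6 * (3 * Δ) = kp * γ / 2 := by rw [← hk]; ring
  have a8 := abs_nonneg Yt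
  linarith

section
variable (C : Cfg ι E) (D : Cfg κ F) (j0 : J) (o : J → ℝ) (a : J → ℕ) (sp sq : F → J → ℤ)
  (π W : ℕ) (kp ω : ℝ)

noncomputable def uu (e : E) : ℝ := 2 * kp / (C.s (C.q e) - C.s (C.p e))

theorem ms_eq (e : E) (f : F) :
    (plugCfg C D j0 o a sp sq π W kp ω).ms (e, f) = C.ms e + ω * D.ms f := by
  simp only [Cfg.ms, plugCfg, Sum.elim_inr]
  ring

theorem mb_eq (e : E) (f : F) : (plugCfg C D j0 o a sp sq π W kp ω).mb (e, f) =
    C.mb e - ω * D.ms f * C.t e + ω * uu C kp e * D.mb f := by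
  simp only [Cfg.mb, Cfg.ms, plugCfg, Sum.elim_inr, uu]
  ring

theorem t_eq (e : E) (f : F) :
    (plugCfg C D j0 o a sp sq π W kp ω).t (e, f) = C.t e + uu C kp e * D.t f := rfl

theorem vl_eq (e : E) (f : F) (x y : ℝ) : (plugCfg C D j0 o a sp sq π W kp ω).vl (e, f) x y =
    C.vl e x y + (x - C.ms e) * (uu C kp e * D.t f) -
      ω * uu C kp e * (D.ms f * D.t f + D.mb f) := by
  rw [Cfg.vl, ms_eq, mb_eq, t_eq, Cfg.vl]
  ring

end

end PlugGX

open PlugGX in
theorem plug_geo {C : Cfg ι E} {D : Cfg κ F} {π π' : ℕ} {δ τ θ R A δn τn θn Rn An γ k : ℝ}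
    (hC : C.Geo π δ τ θ R A) (hD : D.Geo π' δn τn θn Rn An) (hπ : 0 < π)
    (δ0 : 0 < δ) (δ1 : δ ≤ 1) (τ0 : 0 < τ) (τ1 : τ ≤ 1) (θ0 : 0 < θ) (θ1 : θ ≤ 1) (R1 : 1 ≤ R)
    (A0 : 0 ≤ A) (hA : A + 1 ≤ An) (δn0 : 0 < δn) (δn1 : δn ≤ An) (τn0 : 0 < τn)
    (τn1 : τn ≤ γ / 6) (θn0 : 0 ≤ θn) (θn1 : θn ≤ 1) (γ1 : γ ≤ 1) (k0 : 0 < k)
    (k1 : 16 * k * An ^ 2 ≤ γ) (j0 : J) (o : J → ℝ) (a : J → ℕ) (sp sq : F → J → ℤ) (W : ℕ)
    (ho : ∀ j, |o j| ≤ An) (hsp : ∀ f j, Side (o j - D.t f) γ (sp f j))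
    (hsq : ∀ f j, Side (o j + D.t f) γ (sq f j)) :
    (plugCfg C D j0 o a sp sq π W (τ * δ * k) (δ * θ * k)).Geo π' (δ * θ * k * δn)
      (τ * k * τn / R) θn Rn (A + 1) := by
  have An1 : 1 ≤ An := by linarith
  have γ0 : 0 < γ := by linarith
  have g2 : k * An ^ 2 ≤ γ / 16 := by linarith
  have g1 : k * An ≤ 1 / 16 := by
    have : k * An ≤ k * An ^ 2 := by
      have := mul_le_mul_of_nonneg_left An1 (by positivity : 0 ≤ k * An)
      nlinarith
    linarith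
  have g0 : k ≤ 1 / 16 := by nlinarith
  obtain ⟨kp, hkp⟩ : ∃ kp, kp = τ * δ * k := ⟨_, rfl⟩
  obtain ⟨ω, hω⟩ : ∃ ω, ω = δ * θ * k := ⟨_, rfl⟩
  obtain ⟨τ', hτ'⟩ : ∃ τ', τ' = τ * k * τn / R := ⟨_, rfl⟩
  rw [← hkp, ← hω, ← hτ']
  have kp0 : 0 < kp := by rw [hkp]; positivity
  have ω0 : 0 < ω := by rw [hω]; positivity
  have hδθ : δ * θ ≤ δ := mul_le_of_le_one_right δ0.le θ1
  have ωk : ω ≤ k := by
    rw [hω]
    exact mul_le_of_le_one_left k0.le (hδθ.trans δ1)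
  have ωA : ω * An ≤ δ * θ / 16 := by
    have : δ * θ * (k * An) ≤ δ * θ * (1 / 16) := by gcongr
    rw [hω]; linarith
  have kA : kp * An ≤ δ * τ / 16 := by
    have : δ * τ * (k * An) ≤ δ * τ * (1 / 16) := by gcongr
    rw [hkp]; linarith
  have Δ0 : ∀ e, 0 < C.s (C.q e) - C.s (C.p e) := fun e => by linarith [hC.lo e]
  have u0 : ∀ e, 0 < uu C kp e := fun e => div_pos (by positivity) (Δ0 e)
  have uΔ : ∀ e, uu C kp e * ((C.s (C.q e) - C.s (C.p e)) / 2) = kp := fun e => by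
    have := (Δ0 e).ne'
    unfold uu
    field_simp
  have u1 : ∀ e, uu C kp e ≤ τ * k := fun e => by
    rw [uu, div_le_iff₀ (Δ0 e), hkp]
    have := mul_le_mul_of_nonneg_left (hC.lo e) (by positivity : 0 ≤ τ * k)
    linarith
  have u2 : ∀ e, τ' ≤ uu C kp e * τn := fun e => by
    have b1 : τ * k / R ≤ uu C kp e := by
      rw [uu, div_le_div_iff₀ (by linarith) (Δ0 e), hkp]
      have := mul_le_mul_of_nonneg_left (hC.hi e) (by positivity : 0 ≤ τ * k)
      linarith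
    calc τ' = τ * k / R * τn := by rw [hτ']; ring
      _ ≤ _ := by gcongr
  have uA : ∀ e, uu C kp e * An ≤ τ / 16 := fun e => by
    have b1 : uu C kp e * An ≤ τ * k * An := by gcongr; exact u1 e
    have b2 : τ * (k * An) ≤ τ * (1 / 16) := by gcongr
    linarith
  have τ'1 : ∀ _ : E, τ' ≤ τ / 16 := fun e => by
    have b1 : uu C kp e * τn ≤ uu C kp e * An := by gcongr; exacts [(u0 e).le, by linarith]
    linarith [u2 e, uA e]
  have δ'0 : 0 ≤ ω * δn := by positivity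
  have δ'1 : ω * δn ≤ δ * θ / 16 := le_trans (by gcongr) ωA
  have hP : ∀ x, |x| ≤ An → |ω * x| ≤ δ * θ / 16 := fun x hx => (pmul ω0.le hx).trans ωA
  have hX : ∀ e x, |x| ≤ An → |uu C kp e * x| ≤ τ / 16 := fun e x hx =>
    (pmul (u0 e).le hx).trans (uA e)
  have yn : ∀ f, |D.ms f * D.t f + D.mb f| ≤ 2 * An ^ 2 := fun f => by
    have b1 := abs_add_le (D.ms f * D.t f) (D.mb f)
    have b2 := amul (hD.ms_le f) (hD.bt f)
    have b3 := hD.mb_le f
    nlinarith
  have hY0 : ∀ e y, |y| ≤ 2 * An ^ 2 → |ω * uu C kp e * y| ≤ δ * τ / 128 := fun e y hy => by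
    have b1 := pmul (mul_pos ω0 (u0 e)).le hy
    have b2 : ω * An * (uu C kp e * An) ≤ δ / 16 * (τ / 16) :=
      mul_le_mul (by linarith) (uA e) (mul_pos (u0 e) (by linarith)).le (by positivity)
    linarith
  have hY1 : ∀ e y, |y| ≤ 2 * An ^ 2 → |ω * uu C kp e * y| ≤ kp * γ / 8 := fun e y hy => by
    have b1 := pmul (mul_pos ω0 (u0 e)).le hy
    have b2 : ω * uu C kp e ≤ δ * k * (τ * k) :=
      mul_le_mul (by rw [hω]; gcongr) (u1 e) (u0 e).le (by positivity)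
    have b3 : ω * uu C kp e * (2 * An ^ 2) ≤ δ * k * (τ * k) * (2 * An ^ 2) := by gcongr
    have b4 : kp * (k * An ^ 2) ≤ kp * (γ / 16) := by gcongr
    have b5 : δ * k * (τ * k) * (2 * An ^ 2) = 2 * (kp * (k * An ^ 2)) := by rw [hkp]; ring
    linarith
  have hAn : An ≤ 2 * An ^ 2 := by nlinarith
  have farK : ∀ (e e2 : E) (f : F) (x y x2 m : ℝ), e2 ≠ e → |x| ≤ An → |y| ≤ An → |x2| ≤ An →
      m ≤ θn * (ω * δn) * |C.t e + uu C kp e * D.t f - (C.t e2 + uu C kp e2 * x2)| →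
      Side ((plugCfg C D j0 o a sp sq π W kp ω).vl (e, f) (C.ms e2 + ω * x)
        (C.mb e2 - ω * x * C.t e2 + ω * uu C kp e2 * y))
        (τ' * (ω * δn + |C.ms e2 + ω * x - (plugCfg C D j0 o a sp sq π W kp ω).ms (e, f)|) + m)
        (C.sm e e2) := by
    intro e e2 f x y x2 m hne hx hy hx2 hm
    refine (hC.sidem e e2 hne).mono ?_
    have := far (d := C.ms e2 - C.ms e) (dt := C.t e - C.t e2) δ0 τ0 θ0 θ1 (τ'1 e) δ'0 δ'1 θn1
      (hP x hx) (hP _ (hD.ms_le f)) (hX e _ (hD.bt f)) (hX e2 _ hx2) (hY0 e2 y (hy.trans hAn))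
      (hY0 e _ (yn f))
    rw [vl_eq, ms_eq]
    have e1 : C.vl e (C.ms e2 + ω * x) (C.mb e2 - ω * x * C.t e2 + ω * uu C kp e2 * y) +
        (C.ms e2 + ω * x - C.ms e) * (uu C kp e * D.t f) -
        ω * uu C kp e * (D.ms f * D.t f + D.mb f) - C.vl e (C.ms e2) (C.mb e2) =
        ω * x * (C.t e - C.t e2) + ω * uu C kp e2 * y + (C.ms e2 - C.ms e) * (uu C kp e * D.t f) +
          ω * x * (uu C kp e * D.t f) - ω * uu C kp e * (D.ms f * D.t f + D.mb f) := by
      simp only [Cfg.vl]; ring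
    have e2' : C.ms e2 + ω * x - (C.ms e + ω * D.ms f) =
        C.ms e2 - C.ms e + ω * x - ω * D.ms f := by ring
    have e3 : C.t e + uu C kp e * D.t f - (C.t e2 + uu C kp e2 * x2) =
        C.t e - C.t e2 + uu C kp e * D.t f - uu C kp e2 * x2 := by ring
    rw [e3] at hm
    rw [e1, e2']
    linarith
  have nearK : ∀ (e : E) (f : F) (x y m m' : ℝ) (σ : ℤ),
      Side (D.vl f x y) (τn * (δn + |x - D.ms f|) + m) σ → m' ≤ ω * uu C kp e * m →
      Side ((plugCfg C D j0 o a sp sq π W kp ω).vl (e, f) (C.ms e + ω * x)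
        (C.mb e - ω * x * C.t e + ω * uu C kp e * y))
        (τ' * (ω * δn + |C.ms e + ω * x - (plugCfg C D j0 o a sp sq π W kp ω).ms (e, f)|) + m')
        σ := by
    intro e f x y m m' σ h hm
    refine (h.scale (mul_pos ω0 (u0 e)).le).mono ?_
    rw [vl_eq, ms_eq]
    have e1 : C.vl e (C.ms e + ω * x) (C.mb e - ω * x * C.t e + ω * uu C kp e * y) +
        (C.ms e + ω * x - C.ms e) * (uu C kp e * D.t f) -
        ω * uu C kp e * (D.ms f * D.t f + D.mb f) - ω * uu C kp e * D.vl f x y = 0 := by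
      simp only [Cfg.vl]; ring
    have e2 : C.ms e + ω * x - (C.ms e + ω * D.ms f) = ω * (x - D.ms f) := by ring
    rw [e1, e2, abs_zero, abs_mul, abs_of_pos ω0]
    have b1 : τ' * (ω * (δn + |x - D.ms f|)) ≤ uu C kp e * τn * (ω * (δn + |x - D.ms f|)) := by
      gcongr; exact u2 e
    linarith
  refine ⟨fun e => hD.wp e.2, fun e => hD.wq e.2, ?_, ?_, ?_, ?_, ?_, ?_, ?_, ?_, ?_⟩
  · rintro ⟨e, f⟩
    have := mul_le_mul_of_nonneg_left (hD.lo f) ω0.le
    simp only [plugCfg, Sum.elim_inr]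
    linarith
  · rintro ⟨e, f⟩
    have := mul_le_mul_of_nonneg_left (hD.hi f) ω0.le
    simp only [plugCfg, Sum.elim_inr]
    linarith
  · rintro ⟨e, f⟩
    have := hD.meet f
    simp only [plugCfg, Sum.elim_inr]
    linear_combination ω * (2 * kp / (C.s (C.q e) - C.s (C.p e))) * this
  · rintro (⟨i, j⟩ | ⟨e, c⟩)
    · exact (hC.bs i).trans (by linarith)
    · have b1 := abs_add_le (C.ms e) (ω * D.s c)
      have b2 := hP _ (hD.bs c)
      have b3 := hC.ms_le e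
      show |C.ms e + ω * D.s c| ≤ A + 1
      linarith
  · rintro (⟨i, j⟩ | ⟨e, c⟩)
    · have b1 := abs_add_le (C.b i) (kp * o j)
      have b2 := pmul kp0.le (ho j)
      have b3 := hC.bb i
      have b4 : δ * τ ≤ 1 := mul_le_one₀ δ1 τ0.le τ1
      show |C.b i + kp * o j| ≤ A + 1
      linarith
    · have b1 := abs_add_le (C.mb e - ω * D.s c * C.t e) (ω * uu C kp e * D.b c)
      have b2 := abs_sub (C.mb e) (ω * D.s c * C.t e)
      have b3 := hC.mb_le e
      have b4 := hY0 e _ ((hD.bb c).trans hAn)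
      have b5 := amul (pmul ω0.le (hD.bs c)) ((hC.bt e).trans (by linarith : A ≤ An))
      have b6 : ω * (An * An) ≤ k * (An * An) := by gcongr
      have b7 : δ * τ ≤ 1 := mul_le_one₀ δ1 τ0.le τ1
      show |C.mb e - ω * D.s c * C.t e + ω * uu C kp e * D.b c| ≤ A + 1
      nlinarith
  · rintro ⟨e, f⟩
    have b1 := abs_add_le (C.t e) (uu C kp e * D.t f)
    have b2 := hX e _ (hD.bt f)
    have b3 := hC.bt e
    rw [t_eq]
    linarith
  · rintro ⟨e, f⟩ (⟨i, j⟩ | ⟨e2, c⟩)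
    · have hτu : τ' ≤ uu C kp e * γ / 6 := by
        have : uu C kp e * τn ≤ uu C kp e * (γ / 6) := by gcongr; exact (u0 e).le
        linarith [u2 e]
      have hΔ : δ ≤ (C.s (C.q e) - C.s (C.p e)) / 2 := by linarith [hC.lo e]
      have hPm : |ω * D.ms f| ≤ δ / 16 := (hP _ (hD.ms_le f)).trans (by linarith)
      have es : (plugCfg C D j0 o a sp sq π W kp ω).s (Sum.inl (i, j)) = C.s i := rfl
      have eb : (plugCfg C D j0 o a sp sq π W kp ω).b (Sum.inl (i, j)) = C.b i + kp * o j := rfl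
      have ed : C.s i - (C.ms e + ω * D.ms f) = C.s i - C.ms e - ω * D.ms f := by ring
      have ev : C.vl e (C.s i) (C.b i + kp * o j) = C.vl e (C.s i) (C.b i) + kp * o j := by
        simp only [Cfg.vl]; ring
      rw [es, eb, vl_eq, ms_eq, ed, ev]
      by_cases h1 : i = C.p e
      · left
        have eg : (plugCfg C D j0 o a sp sq π W kp ω).sg (e, f) (Sum.inl (i, j)) = sp f j := by
          simp [plugCfg, h1]
        rw [eg]
        refine ((hsp f j).scale kp0.le).mono ?_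
        have e0 : C.s i - C.ms e = -((C.s (C.q e) - C.s (C.p e)) / 2) := by
          rw [h1, Cfg.ms]; ring
        have := own (d := C.s i - C.ms e) δ0 hτu (mul_pos (u0 e) γ0).le δ'0 (by linarith) hPm hΔ
          (by rw [e0, abs_neg, abs_of_pos (by linarith)]) (uΔ e) (hY1 e _ (yn f))
        have e1 : C.vl e (C.s i) (C.b i) + kp * o j + (C.s i - C.ms e) * (uu C kp e * D.t f) -
            ω * uu C kp e * (D.ms f * D.t f + D.mb f) - kp * (o j - D.t f) =
            -(ω * uu C kp e * (D.ms f * D.t f + D.mb f)) := by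
          rw [e0, h1, hC.vl_p]
          linear_combination (-D.t f) * uΔ e
        rw [e1, abs_neg]
        exact this
      by_cases h2 : i = C.q e
      · left
        have eg : (plugCfg C D j0 o a sp sq π W kp ω).sg (e, f) (Sum.inl (i, j)) = sq f j := by
          simp only [plugCfg, Sum.elim_inl]
          rw [if_neg h1, if_pos h2]
        rw [eg]
        refine ((hsq f j).scale kp0.le).mono ?_
        have e0 : C.s i - C.ms e = (C.s (C.q e) - C.s (C.p e)) / 2 := by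
          rw [h2, Cfg.ms]; ring
        have := own (d := C.s i - C.ms e) δ0 hτu (mul_pos (u0 e) γ0).le δ'0 (by linarith) hPm hΔ
          (by rw [e0, abs_of_pos (by linarith)]) (uΔ e) (hY1 e _ (yn f))
        have e1 : C.vl e (C.s i) (C.b i) + kp * o j + (C.s i - C.ms e) * (uu C kp e * D.t f) -
            ω * uu C kp e * (D.ms f * D.t f + D.mb f) - kp * (o j + D.t f) =
            -(ω * uu C kp e * (D.ms f * D.t f + D.mb f)) := by
          rw [e0, h2, hC.vl_q]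
          linear_combination (D.t f) * uΔ e
        rw [e1, abs_neg]
        exact this
      have eg : (plugCfg C D j0 o a sp sq π W kp ω).sg (e, f) (Sum.inl (i, j)) = C.sg e i := by
        simp only [plugCfg, Sum.elim_inl]
        rw [if_neg h1, if_neg h2]
      rw [eg]
      rcases hC.side e i with h | ⟨h3, h4 | h4 | h4⟩
      · left
        refine h.mono ?_
        have := plain (d := C.s i - C.ms e) δ0 τ0 (τ'1 e) δ'0 (by linarith) hPm
          (hX e _ (hD.bt f)) ((pmul kp0.le (ho j)).trans kA) (hY0 e _ (yn f))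
        have e1 : C.vl e (C.s i) (C.b i) + kp * o j + (C.s i - C.ms e) * (uu C kp e * D.t f) -
            ω * uu C kp e * (D.ms f * D.t f + D.mb f) - C.vl e (C.s i) (C.b i) =
            kp * o j + (C.s i - C.ms e) * (uu C kp e * D.t f) -
              ω * uu C kp e * (D.ms f * D.t f + D.mb f) := by ring
        rw [e1]
        exact this
      · refine Or.inr ⟨h3, Or.inl ?_⟩
        simp only [plugCfg, Sum.elim_inl, h4]
        rw [if_neg hπ.ne]
        simp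
      · exact absurd h4 h1
      · exact absurd h4 h2
    · by_cases h1 : e2 = e
      · subst h1
        have eg : (plugCfg C D j0 o a sp sq π W kp ω).sg (e2, f) (Sum.inr (e2, c)) = D.sg f c := by
          simp [plugCfg]
        rw [eg]
        rcases hD.side f c with h | ⟨h3, h4 | h4 | h4⟩
        · left
          have := nearK e2 f (D.s c) (D.b c) 0 0 _ (by rw [add_zero]; exact h) (by simp)
          rw [add_zero] at this
          exact this
        · exact Or.inr ⟨h3, Or.inl h4⟩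
        · exact Or.inr ⟨h3, Or.inr (Or.inl (by rw [h4]; rfl))⟩
        · exact Or.inr ⟨h3, Or.inr (Or.inr (by rw [h4]; rfl))⟩
      · left
        have eg : (plugCfg C D j0 o a sp sq π W kp ω).sg (e, f) (Sum.inr (e2, c)) = C.sm e e2 := by
          simp [plugCfg, h1]
        rw [eg]
        have := farK e e2 f (D.s c) (D.b c) 0 0 h1 (hD.bs c) (hD.bb c) (by simp; linarith)
          (by positivity)
        rw [add_zero] at this
        exact this
  · rintro ⟨e, f⟩ ⟨e2, f2⟩ hne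
    rw [ms_eq C D j0 o a sp sq π W kp ω e2, mb_eq, t_eq, t_eq]
    by_cases h1 : e2 = e
    · subst h1
      have eg : (plugCfg C D j0 o a sp sq π W kp ω).sm (e2, f) (e2, f2) = D.sm f f2 := by
        simp [plugCfg]
      rw [eg]
      refine nearK e2 f _ _ _ _ _ (hD.sidem f f2 fun h => hne (by rw [h])) (le_of_eq ?_)
      rw [show C.t e2 + uu C kp e2 * D.t f - (C.t e2 + uu C kp e2 * D.t f2) =
        uu C kp e2 * (D.t f - D.t f2) by ring, abs_mul, abs_of_pos (u0 e2)]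
      ring
    · have eg : (plugCfg C D j0 o a sp sq π W kp ω).sm (e, f) (e2, f2) = C.sm e e2 := by
        simp [plugCfg, h1]
      rw [eg]
      exact farK e e2 f _ _ _ _ h1 (hD.ms_le f2) (hD.mb_le f2) (hD.bt f2) le_rfl
  · rintro ⟨e, f⟩
    simp [plugCfg, hD.self]

end Vale.Agent.P065
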