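import Vale.Agent.P065.Defs

/-! P065: weights of the plugged configuration. -/

namespace Vale.Agent.P065
open Finset
variable {ι E κ F J : Type} [Fintype ι] [Fintype E] [Fintype κ] [Fintype F] [Fintype J]
  {C : Cfg ι E} {D : Cfg κ F} {π : ℕ} (j0 : J) (o : J → ℝ) (a : J → ℕ) (sp sq : F → J → ℤ)
  (k ω : ℝ)

open Classical in
theorem plugS_row {W : ℕ} (ha : ∑ j, a j = π * W) (n : ℕ) :
    ∑ j, (if n = π then a j else if j = j0 then n * W else 0) = n * W := by
  by_cases h : n = π
  · simp only [h, if_true, ha]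
  · simp [h]

theorem plug_tot (ha : ∑ j, a j = π * D.tot) :
    (plugCfg C D j0 o a sp sq π D.tot k ω).tot = C.tot * D.tot := by
  have h1 := plugS_row j0 a ha
  unfold Cfg.tot at h1 ⊢
  simp only [plugCfg, Fintype.sum_sum_type, Fintype.sum_prod_type, Sum.elim_inl, Sum.elim_inr,
    Cfg.tot, h1, Fintype.card_prod, sum_const, card_univ, smul_eq_mul, ← sum_mul]
  ring

theorem plug_imb (hp : ∀ e, C.sg e (C.p e) = 0) (hq : ∀ e, C.sg e (C.q e) = 0)
    (hne : ∀ e, C.p e ≠ C.q e) (wp : ∀ e, C.w (C.p e) = π) (wq : ∀ e, C.w (C.q e) = π)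
    (self : ∀ e, C.sm e e = 0) (ha : ∑ j, a j = π * D.tot) (bal : ∀ e, C.imb e = 0)
    (hb : ∀ f, ∑ j, (sp f j + sq f j) * a j + D.imb f = 0) (e : E × F) :
    (plugCfg C D j0 o a sp sq π D.tot k ω).imb e = 0 := by
  classical
  obtain ⟨e, f⟩ := e
  have h1 : ∀ i, ∑ j, (plugCfg C D j0 o a sp sq π D.tot k ω).sg (e, f) (Sum.inl (i, j)) *
      ((plugCfg C D j0 o a sp sq π D.tot k ω).w (Sum.inl (i, j)) : ℤ) =
      (if i = C.p e then ∑ j, sp f j * a j else 0) + (if i = C.q e then ∑ j, sq f j * a j else 0)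
        + C.sg e i * C.w i * D.tot := by
    intro i
    simp only [plugCfg, Sum.elim_inl]
    by_cases a1 : i = C.p e
    · subst a1
      simp [hne e, hp e, wp e]
    · by_cases a2 : i = C.q e
      · subst a2
        simp [a1, hq e, wq e]
      · simp only [if_neg a1, if_neg a2, zero_add]
        rw [← mul_sum, ← Nat.cast_sum, plugS_row j0 a ha]
        push_cast
        ring
  have h2 : ∀ e', ∑ x, (plugCfg C D j0 o a sp sq π D.tot k ω).sg (e, f) (Sum.inr (e', x)) *
      ((plugCfg C D j0 o a sp sq π D.tot k ω).w (Sum.inr (e', x)) : ℤ) +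
      ∑ f', (plugCfg C D j0 o a sp sq π D.tot k ω).sm (e, f) (e', f') =
      (if e' = e then D.imb f else 0) + C.sm e e' * D.tot := by
    intro e'
    simp only [plugCfg, Sum.elim_inr]
    by_cases a1 : e' = e
    · subst a1
      simp [self e', Cfg.imb]
    · simp only [if_neg a1, zero_add, Cfg.tot, ← mul_sum, sum_const, card_univ]
      push_cast
      ring
  have h3 := bal e
  have h4 := hb f
  unfold Cfg.imb
  rw [Fintype.sum_sum_type, Fintype.sum_prod_type, Fintype.sum_prod_type, Fintype.sum_prod_type,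
    add_assoc, ← sum_add_distrib, sum_congr rfl fun i _ => h1 i, sum_congr rfl fun i _ => h2 i]
  simp only [sum_add_distrib, sum_ite_eq', mem_univ, if_true, ← sum_mul]
  simp only [add_mul, sum_add_distrib] at h4
  unfold Cfg.imb at h3
  linear_combination h4 + (D.tot : ℤ) * h3

end Vale.Agent.P065
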