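import Vale.Agent.P065.Defs

/-! P065: multiplying all weights by an odd number. -/

namespace Vale.Agent.P065
open Finset

theorem Has.scale {N V π : ℕ} {δ τ θ R A : ℝ} (h : Has N V π δ τ θ R A) (δ0 : 0 < δ) (δ1 : δ ≤ 1)
    (τ0 : 0 < τ) (τ1 : τ ≤ 1) (θ0 : 0 ≤ θ) (d : ℕ) :
    Has ((2 * d + 1) * N) V ((2 * d + 1) * π) δ (τ / 2) θ R (A + 1) := by
  classical
  obtain ⟨ι, E, _, _, C, hG, hI, hT, hV⟩ := h
  let C' : Cfg (ι ⊕ (E × Bool)) E :=
    { s := Sum.elim C.s fun x => C.ms x.1
      b := Sum.elim C.b fun x => C.mb x.1 + (if x.2 then 1 else -1) * (τ * δ / 2)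
      w := Sum.elim (fun i => (2 * d + 1) * C.w i) fun _ => d
      p := fun e => Sum.inl (C.p e)
      q := fun e => Sum.inl (C.q e)
      t := C.t
      sg := fun e => Sum.elim (C.sg e)
        fun x => if x.1 = e then (if x.2 then 1 else -1) else C.sm e x.1
      sm := C.sm }
  have hτδ : τ * δ ≤ 1 := mul_le_one₀ τ1 δ0.le δ1
  have hτδ0 : 0 < τ * δ := by positivity
  have hms : ∀ e, C'.ms e = C.ms e := fun _ => rfl
  have hmb : ∀ e, C'.mb e = C.mb e := fun _ => rfl
  have hvl : ∀ e a b, C'.vl e a b = C.vl e a b := fun _ _ _ => rfl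
  refine ⟨ι ⊕ (E × Bool), E, inferInstance, inferInstance, C', ⟨fun e => ?_, fun e => ?_, hG.lo,
    hG.hi, hG.meet, ?_, ?_, fun e => (hG.bt e).trans (by linarith), ?_, ?_, hG.self⟩, ?_, ?_, hV⟩
  · change (2 * d + 1) * C.w (C.p e) = _
    rw [hG.wp]
  · change (2 * d + 1) * C.w (C.q e) = _
    rw [hG.wq]
  · rintro (i | x)
    · exact (hG.bs i).trans (by linarith)
    · exact (hG.ms_le x.1).trans (by linarith)
  · rintro (i | ⟨e, β⟩)
    · exact (hG.bb i).trans (by linarith)
    · have := abs_le.mp (hG.mb_le e)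
      change |C.mb e + (if β then 1 else -1) * (τ * δ / 2)| ≤ _
      rw [abs_le]
      cases β <;> simp <;> constructor <;> linarith [this.1, this.2]
  · rintro e (i | ⟨e', β⟩)
    · rcases hG.side e i with h | ⟨h, h'⟩
      · left
        refine Side.mono h ?_
        change |C.vl e (C.s i) (C.b i) - C.vl e (C.s i) (C.b i)| +
          τ / 2 * (δ + |C.s i - C.ms e|) ≤ _
        rw [sub_self, abs_zero]
        have : 0 ≤ τ * (δ + |C.s i - C.ms e|) := by positivity
        linarith
      · right
        refine ⟨h, ?_⟩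
        rcases h' with h' | h' | h'
        · left
          change (2 * d + 1) * C.w i = 0
          rw [h', mul_zero]
        · right; left; rw [h']
        · right; right; rw [h']
    · left
      change Side (C.vl e (C.ms e') (C.mb e' + (if β then 1 else -1) * (τ * δ / 2)))
        (τ / 2 * (δ + |C.ms e' - C.ms e|))
        (if e' = e then (if β then 1 else -1) else C.sm e e')
      by_cases he : e' = e
      · subst he
        rw [if_pos rfl, sub_self, abs_zero]
        cases β
        · right
          refine ⟨by simp, ?_⟩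
          simp only [Cfg.vl]
          simp
          linarith
        · left
          refine ⟨by simp, ?_⟩
          simp only [Cfg.vl]
          simp
          linarith
      · rw [if_neg he]
        refine Side.mono (hG.sidem e e' he) ?_
        have e1 : C.vl e (C.ms e') (C.mb e' + (if β then 1 else -1) * (τ * δ / 2))
            - C.vl e (C.ms e') (C.mb e') = (if β then 1 else -1) * (τ * δ / 2) := by
          simp only [Cfg.vl]; ring
        have e2 : |(if β then (1 : ℝ) else -1) * (τ * δ / 2)| = τ * δ / 2 := by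
          rw [abs_mul, abs_of_pos (by positivity : 0 < τ * δ / 2)]
          cases β <;> simp
        rw [e1, e2]
        have h1 : 0 ≤ τ * |C.ms e' - C.ms e| := by positivity
        have h2 : 0 ≤ θ * δ * |C.t e - C.t e'| := by positivity
        nlinarith
  · intro e e' he
    refine Side.mono (hG.sidem e e' he) ?_
    change |C.vl e (C.ms e') (C.mb e') - C.vl e (C.ms e') (C.mb e')| +
      (τ / 2 * (δ + |C.ms e' - C.ms e|) + θ * δ * |C.t e - C.t e'|) ≤ _
    rw [sub_self, abs_zero]
    have : 0 ≤ τ * (δ + |C.ms e' - C.ms e|) := by positivity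
    linarith
  · intro e
    have h0 := hI e
    unfold Cfg.imb at h0 ⊢
    rw [Fintype.sum_sum_type, Fintype.sum_prod_type]
    have e1 : ∑ i, C'.sg e (Sum.inl i) * (C'.w (Sum.inl i) : ℤ)
        = (2 * d + 1) * ∑ i, C.sg e i * (C.w i : ℤ) := by
      rw [Finset.mul_sum]
      refine Finset.sum_congr rfl fun i _ => ?_
      change C.sg e i * (((2 * d + 1) * C.w i : ℕ) : ℤ) = _
      push_cast; ring
    have e2 : ∑ e', ∑ β, C'.sg e (Sum.inr (e', β)) * (C'.w (Sum.inr (e', β)) : ℤ)
        = (2 * d) * ∑ e', C.sm e e' := by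
      rw [Finset.mul_sum]
      refine Finset.sum_congr rfl fun e' _ => ?_
      rw [Fintype.sum_bool]
      change (if e' = e then (if true then 1 else -1) else C.sm e e') * (d : ℤ) +
        (if e' = e then (if false then 1 else -1) else C.sm e e') * (d : ℤ) = _
      by_cases he : e' = e
      · subst he
        simp [hG.self]
      · simp only [if_neg he]; ring
    rw [e1, e2]
    change _ + ∑ e', C.sm e e' = 0
    linear_combination (2 * d + 1 : ℤ) * h0
  · unfold Cfg.tot at hT ⊢
    rw [Fintype.sum_sum_type, ← hT]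
    change ∑ i, (2 * d + 1) * C.w i + ∑ _x : E × Bool, d + Fintype.card E = _
    rw [← Finset.mul_sum, Finset.sum_const, Finset.card_univ, Fintype.card_prod,
      Fintype.card_bool, smul_eq_mul]
    ring

end Vale.Agent.P065
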