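import Vale.Agent.P065.Mono
import Vale.Agent.P065.Scale
import Vale.Agent.P065.Pattern
import Vale.Agent.P065.PlugG
import Vale.Agent.P065.PlugS
import Vale.Agent.P065.NeedleG
import Vale.Agent.P065.NeedleS

/-! P065: one step of the construction. -/

namespace Vale.Agent.P065
open Finset

namespace StepX

theorem rnd {M x : ℝ} (hM : 1000 ≤ M) (hx : |x| ≤ M) : ∃ z : ℤ, |2 * (z : ℝ)| ≤ M ^ 6 ∧
    0 < M ^ 14 + 2 * z ∧ |M ^ 14 * (2 * z) / ((M ^ 14 + 2 * z) * M ^ 4) - x| ≤ 3 / M ^ 4 := by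
  have M0 : 0 < M := by linarith
  have h1 := Int.floor_le (M ^ 4 * x / 2)
  have h2 := Int.lt_floor_add_one (M ^ 4 * x / 2)
  set z := ⌊M ^ 4 * x / 2⌋
  have a4 : 0 < M ^ 4 := by positivity
  have a5 : 1 ≤ M ^ 5 := one_le_pow₀ (by linarith)
  have h3 : |M ^ 4 * x| ≤ M ^ 5 := by
    rw [abs_mul, abs_of_pos a4, pow_succ M 4]
    exact mul_le_mul_of_nonneg_left hx a4.le
  have h4 : M ^ 5 * 1000 ≤ M ^ 6 := by
    rw [pow_succ M 5]; exact mul_le_mul_of_nonneg_left hM (by positivity)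
  have h5 : |2 * (z : ℝ)| ≤ M ^ 6 := by
    rw [abs_le] at h3 ⊢
    constructor <;> linarith [h3.1, h3.2]
  have h6 : 2 * M ^ 12 ≤ M ^ 14 / 2 := by
    have : M ^ 14 = M ^ 12 * M ^ 2 := by ring
    have h : 4 ≤ M ^ 2 := by nlinarith
    have : M ^ 12 * 4 ≤ M ^ 12 * M ^ 2 := mul_le_mul_of_nonneg_left h (by positivity)
    linarith
  have h7 : M ^ 6 ≤ M ^ 12 := pow_le_pow_right₀ (by linarith) (by norm_num)
  have h8 : (2 * (z : ℝ)) ^ 2 ≤ M ^ 12 := by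
    rw [← sq_abs, show M ^ 12 = (M ^ 6) ^ 2 by ring]
    exact pow_le_pow_left₀ (abs_nonneg _) h5 2
  have h9 : M ^ 12 ≤ M ^ 14 + 2 * z := by linarith [(abs_le.1 h5).1, pow_pos M0 12]
  have h10 : 0 < M ^ 14 + 2 * z := lt_of_lt_of_le (pow_pos M0 12) h9
  refine ⟨z, h5, h10, ?_⟩
  have e : M ^ 14 * (2 * z) / ((M ^ 14 + 2 * z) * M ^ 4) - x
      = ((2 * z - M ^ 4 * x) - (2 * (z : ℝ)) ^ 2 / (M ^ 14 + 2 * z)) / M ^ 4 := by
    field_simp; ring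
  have b1 : (2 * (z : ℝ)) ^ 2 / (M ^ 14 + 2 * z) ≤ 1 := by rw [div_le_one h10]; linarith
  have b0 : 0 ≤ (2 * (z : ℝ)) ^ 2 / (M ^ 14 + 2 * z) := by positivity
  rw [e, abs_div, abs_of_pos a4]
  refine div_le_div_of_nonneg_right (abs_le.2 ⟨by linarith, by linarith⟩) a4.le

theorem ar {μ0 V μ S S' X G0 G H π : ℤ} (m0 : 0 ≤ μ0) (V0 : 0 ≤ V) (X1 : 1 ≤ X) (g0 : 0 ≤ G0)
    (hG : G = 2 * G0 + 1) (hμ : μ = μ0 + G * V) (hS : |S| ≤ X * μ0) (hS' : |S'| ≤ X * V)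
    (hH : H = X * G) (hπ : 2 * G + 1 ≤ π) :
    0 ≤ μ * (2 * (32 * H) + 1) + (S + G * S' - V) ∧
    0 ≤ G * (S + G * S' - V) + (μ * (32 * H) + V * G0 - G * G0 * S') ∧
    G * (2 * (32 * H) + 1) * μ + G * (μ * (2 * (32 * H) + 1) + (S + G * S' - V))
      + (G * (S + G * S' - V) + (μ * (32 * H) + V * G0 - G * G0 * S'))
      ≤ π * (μ * (2 * (32 * H) + 1 + 2 * H)) := by
  have G1 : 1 ≤ G := by omega
  have GV : V ≤ G * V := by nlinarith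
  have GV0 : 0 ≤ G * V := by linarith
  have μ0' : 0 ≤ μ := by linarith
  have Vμ : G * V ≤ μ := by linarith
  have a1 : |G * S'| ≤ X * (G * V) := by
    rw [abs_mul, abs_of_nonneg (by linarith : 0 ≤ G)]; nlinarith
  have Xμ : μ ≤ X * μ := by nlinarith
  have a2 : |S + G * S' - V| ≤ 2 * (X * μ) := by
    have e : X * μ = X * μ0 + X * (G * V) := by rw [hμ]; ring
    rw [abs_le] at *
    constructor <;> linarith [hS.1, hS.2, a1.1, a1.2]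
  have HX : X * μ ≤ H * μ := by rw [hH]; nlinarith
  have a3 : |G * (S + G * S' - V)| ≤ 2 * (H * μ) := by
    rw [abs_mul, abs_of_nonneg (by linarith : 0 ≤ G), hH]; nlinarith
  have a4 : |G * G0 * S'| ≤ H * μ := by
    rw [show G * G0 * S' = G0 * (G * S') by ring, abs_mul, abs_of_nonneg g0, hH]
    have b1 : X * (G * V) ≤ X * μ := by nlinarith
    have b2 : G0 * |G * S'| ≤ G0 * (X * μ) := mul_le_mul_of_nonneg_left (a1.trans b1) g0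
    have b3 : G0 * (X * μ) ≤ G * (X * μ) := mul_le_mul_of_nonneg_right (by omega) (by linarith)
    linarith
  have a5 : V * G0 ≤ μ := by nlinarith
  have a6 : 0 ≤ V * G0 := by positivity
  have H0 : 0 ≤ H := by rw [hH]; nlinarith
  have a7 : 0 ≤ μ * (2 * (32 * H) + 1 + 2 * H) := by positivity
  have a8 := mul_le_mul_of_nonneg_right hπ a7
  have a9 : 0 ≤ G * (H * μ) := by positivity
  rw [abs_le] at a2 a3 a4
  refine ⟨by nlinarith [a2.1], by nlinarith [a3.1, a4.2], by nlinarith [a3.2, a4.1]⟩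

theorem gain {G H π μ Ni : ℕ} (g : 98 ≤ G) (hπ : π ≤ 2 * G + 4) (hμ : μ ≤ (33 * G + 1) * Ni) :
    5 * π * (μ * (2 * (32 * H) + 1 + 2 * H)) ≤ 11 * (G * (2 * (32 * H) + 1) * (2 * (16 * G) + 1)) * Ni := by
  have a1 : 32 * (2 * (32 * H) + 1 + 2 * H) ≤ 33 * (2 * (32 * H) + 1) := by omega
  have a2 : 32 * μ ≤ 33 * ((2 * (16 * G) + 1) * Ni) := by nlinarith
  have a3 : 5 * π * 1089 ≤ 11 * G * 1024 := by omega
  have a4 := Nat.mul_le_mul a3 (Nat.mul_le_mul a1 a2)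
  refine Nat.le_of_mul_le_mul_left (c := 1024 * 1089) ?_ (by norm_num)
  exact le_trans (le_of_eq (by ring)) (a4.trans (le_of_eq (by ring)))

/-- the inner configuration with lattice slopes -/
theorem inner {Ni Vi πi M : ℕ} {M0 : ℝ} (hI : Inn Ni Vi πi M0) (hM : 1000 ≤ M) (h4 : 4 * M0 ≤ M)
    (M1 : 1 ≤ M0) (d : ℕ) :
    ∃ (ι E : Type) (_ : Fintype ι) (_ : Fintype E) (C : Cfg ι E) (z : ι → ℤ),
      C.Geo ((2 * d + 1) * πi) (1 / M) (1 / M) 0 ((M : ℝ) ^ 2) M ∧ (∀ e, C.imb e = 0) ∧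
      C.tot = (2 * d + 1) * Ni ∧ Fintype.card E = Vi ∧
      (∀ i, (M : ℝ) ^ 4 * C.s i * ((M : ℝ) ^ 14 + 2 * z i) = (M : ℝ) ^ 14 * (2 * z i)) ∧
      ∀ i, |2 * (z i : ℝ)| ≤ (M : ℝ) ^ 6 := by
  have hMR : (1000 : ℝ) ≤ M := by exact_mod_cast hM
  have a0 : 0 < 1 / M0 := by positivity
  have a1 : 1 / M0 ≤ 1 := by rw [div_le_one (by linarith)]; exact M1
  obtain ⟨ι, E, i1, i2, C, hC, bal, htot, hV⟩ := Has.scale hI a0 a1 a0 a1 le_rfl d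
  choose z z1 z2 z3 using fun i => rnd hMR (x := C.s i) ((hC.bs i).trans (by linarith))
  have M0' : (0 : ℝ) < M := by linarith
  obtain ⟨t', hC'⟩ := hC.round a0 a1 (by positivity) (by linarith) (by linarith)
    (fun i => (M : ℝ) ^ 14 * (2 * z i) / (((M : ℝ) ^ 14 + 2 * z i) * (M : ℝ) ^ 4)) fun i => by
      refine (z3 i).trans ?_
      have e : 1 / M0 / 2 * (1 / M0) / (8 * (M0 + 1)) = 1 / (16 * M0 ^ 2 * (M0 + 1)) := by
        field_simp; ring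
      rw [e, div_le_div_iff₀ (by positivity) (by positivity)]
      have b1 : (4 * M0) ^ 4 ≤ (M : ℝ) ^ 4 := pow_le_pow_left₀ (by positivity) h4 4
      have b2 : M0 ^ 2 * (M0 + 1) ≤ M0 ^ 2 * (2 * M0 ^ 2) :=
        mul_le_mul_of_nonneg_left (by nlinarith) (by positivity)
      nlinarith [pow_pos (show 0 < M0 by linarith) 4]
  have c1 : 1 / (M : ℝ) ≤ 1 / (4 * M0) := one_div_le_one_div_of_le (by positivity) h4
  have c2 : 1 / (4 * M0) = 1 / M0 / 2 / 2 := by field_simp; ring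
  refine ⟨ι, E, i1, i2, _, z, hC'.toInn le_rfl M0' (by linarith) (by linarith) (by linarith),
    bal, htot, hV, fun i => ?_, z1⟩
  have := (z2 i).ne'
  simp only
  field_simp

theorem pw {M : ℝ} (hM : 1000 ≤ M) : 2 * M ^ 8 ≤ M ^ 14 ∧ M ^ 2 + 1 ≤ M ^ 9 ∧ M + 2 ≤ M ^ 9 ∧
    M ^ 3 ≤ M ^ 9 ∧ 1 / M ^ 23 ≤ 1 / (4 * M ^ 14) / 6 ∧ 1 / M ^ 24 ≤ 1 ∧ 1 / (4 * M ^ 14) ≤ 1 ∧
    16 * (1 / M ^ 34) * (M ^ 9) ^ 2 ≤ 1 / (4 * M ^ 14) ∧ 1 / M ^ 21 * M ≤ 1 / (4 * M ^ 14) ∧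
    1 ≤ M ^ 2 := by
  have M0 : 0 < M := by linarith
  have M1 : 1 ≤ M := by linarith
  have p : ∀ {i j : ℕ}, i + 1 ≤ j → 1000 * M ^ i ≤ M ^ j := fun {i j} h =>
    le_trans (by rw [pow_succ, mul_comm]; exact mul_le_mul_of_nonneg_left hM (by positivity))
      (pow_le_pow_right₀ M1 h)
  have o : ∀ i : ℕ, 1 ≤ M ^ i := fun i => one_le_pow₀ M1
  refine ⟨by linarith [p (show 8 + 1 ≤ 14 by norm_num), o 8],
    by linarith [p (show 2 + 1 ≤ 9 by norm_num), o 2],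
    by linarith [p (show 1 + 1 ≤ 9 by norm_num), pow_one M],
    pow_le_pow_right₀ M1 (by norm_num), ?_, ?_, ?_, ?_, ?_, o 2⟩
  · rw [div_div]
    exact one_div_le_one_div_of_le (by positivity)
      (by linarith [p (show 14 + 1 ≤ 23 by norm_num), o 14])
  · rw [div_le_one (by positivity)]; exact o 24
  · rw [div_le_one (by positivity)]; linarith [o 14]
  · have e : 16 * (1 / M ^ 34) * (M ^ 9) ^ 2 = 1 / (M ^ 16 / 16) := by field_simp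
    rw [e]
    exact one_div_le_one_div_of_le (by positivity)
      (by linarith [p (show 14 + 1 ≤ 16 by norm_num), o 14])
  · have e : 1 / M ^ 21 * M = 1 / M ^ 20 := by field_simp
    rw [e]
    exact one_div_le_one_div_of_le (by positivity)
      (by linarith [p (show 14 + 1 ≤ 20 by norm_num), o 14])

theorem sizes {G H Y M : ℕ} (hM : 1000 ≤ M) (GM : 2 * G ≤ M) (hH : H = M ^ 6 * G)
    (hY : Y = 2 * (32 * H) + 1) : H ≤ M ^ 7 ∧ Y ≤ M ^ 8 ∧ Y + 2 * H ≤ M ^ 9 := by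
  have H7 : 2 * H ≤ M ^ 7 := by rw [hH, pow_succ M 6]; nlinarith [Nat.zero_le (M ^ 6)]
  have M7 : 1 ≤ M ^ 7 := Nat.one_le_pow _ _ (by omega)
  have Y8 : Y ≤ M ^ 8 := by rw [pow_succ M 7]; nlinarith
  have : M ^ 7 ≤ M ^ 8 := Nat.pow_le_pow_right (by omega) (by norm_num)
  refine ⟨by omega, Y8, ?_⟩
  rw [pow_succ M 8]; nlinarith

/-- the lattice configuration with its explicit imbalance -/
theorem ndl {ι E : Type} [Fintype ι] [Fintype E] {C : Cfg ι E} {z : ι → ℤ} {π' M G0 G H Y π μ : ℕ}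
    (hM : 1000 ≤ M) (hC : C.Geo π' (1 / M) (1 / M) 0 ((M : ℝ) ^ 2) M) (bal : ∀ e, C.imb e = 0)
    (hz : ∀ i, (M : ℝ) ^ 4 * C.s i * ((M : ℝ) ^ 14 + 2 * z i) = (M : ℝ) ^ 14 * (2 * z i))
    (hz' : ∀ i, |2 * (z i : ℝ)| ≤ (M : ℝ) ^ 6) (hG : G = 2 * G0 + 1) (GM : 2 * G ≤ M)
    (hH : H = M ^ 6 * G) (hY : Y = 2 * (32 * H) + 1) (hπ : 2 * G + 1 ≤ π)
    (hμ : μ = ∑ i, C.w i + G * Fintype.card E) :
    ∃ (κ : Type) (_ : Fintype κ) (D : Cfg κ (Fin G × Fin Y × E)) (lam O Z : ℕ),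
      D.Geo π' ((M : ℝ) ^ 3) (1 / (M : ℝ) ^ 23) (1 / (M : ℝ) ^ 24) ((M : ℝ) ^ 2) ((M : ℝ) ^ 9) ∧
      D.tot = μ * (Y + 2 * H) ∧ π * D.tot = G * Y * μ + G * lam + O + Z ∧
      ∀ f, |D.t f - (1 + (f.1 : ℕ) + (f.2.1 : ℕ) / (M : ℝ) ^ 14)| ≤ 1 / (M : ℝ) ^ 21 * M ∧
        2 * ((lam : ℤ) * (G - (f.1 : ℕ)) - μ * (G * Y - (f.1 : ℕ) * Y - (f.2.1 : ℕ)) - O)
          + D.imb f = 0 := by
  have hMR : (1000 : ℝ) ≤ M := by exact_mod_cast hM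
  have zX : ∀ i, |2 * z i| ≤ (M : ℤ) ^ 6 := fun i => by exact_mod_cast hz' i
  have zH : ∀ i, |2 * z i| * G ≤ H := fun i => by
    rw [hH]; push_cast; exact mul_le_mul_of_nonneg_right (zX i) (by positivity)
  have zc : ∀ i (c : Fin G), |2 * z i * (c : ℕ)| ≤ H := fun i c => by
    rw [abs_mul, Nat.abs_cast]
    exact (mul_le_mul_of_nonneg_left (by exact_mod_cast c.2.le) (abs_nonneg _)).trans (zH i)
  obtain ⟨jo, hjo⟩ : ∃ jo : ι → Fin G → Fin Y → Fin (Y + 2 * H),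
      ∀ i c v, ((jo i c v : ℕ) : ℤ) = H + (v : ℕ) - 2 * z i * (c : ℕ) := by
    refine ⟨fun i c v => ⟨((H : ℤ) + (v : ℕ) - 2 * z i * (c : ℕ)).toNat, ?_⟩, fun i c v => ?_⟩
    · have := abs_le.1 (zc i c)
      have := v.2
      omega
    · have := abs_le.1 (zc i c)
      simp only
      omega
  obtain ⟨H7, Y8, -⟩ := sizes hM GM hH hY
  have hD := needle_geo hMR hC z hz hz' (G := G) (Y := Y) (H := H)
    (by exact_mod_cast (by omega : G ≤ M)) (by exact_mod_cast Y8) (by exact_mod_cast H7) jo hjo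
  have hDt := needle_tot C z jo ((M : ℝ) ^ 14) ((M : ℝ) ^ 4) (1 / (M : ℝ) ^ 21)
  have hDi := needle_imb C z jo ((M : ℝ) ^ 14) ((M : ℝ) ^ 4) (1 / (M : ℝ) ^ 21) hG hY zH hjo bal
    rfl rfl rfl rfl
  have hDx : ∀ f, |(needleCfg C z G Y H jo ((M : ℝ) ^ 14) ((M : ℝ) ^ 4) (1 / (M : ℝ) ^ 21)).t f
      - (1 + (f.1 : ℕ) + (f.2.1 : ℕ) / (M : ℝ) ^ 14)| ≤ 1 / (M : ℝ) ^ 21 * M := fun f => by
    simp only [needleCfg, add_sub_cancel_left]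
    rw [abs_mul, abs_of_pos (by positivity)]
    exact mul_le_mul_of_nonneg_left (hC.bt _) (by positivity)
  generalize needleCfg C z G Y H jo _ _ _ = D at hD hDt hDi hDx
  have hμ' : (μ : ℤ) = ∑ i, (C.w i : ℤ) + G * (Fintype.card E : ℤ) := by rw [hμ]; push_cast; rfl
  rw [← hμ] at hDt
  rw [← hμ'] at hDi
  obtain ⟨r1, r2, r3⟩ := ar (μ0 := ∑ i, (C.w i : ℤ)) (V := Fintype.card E) (μ := μ)
    (S := ∑ i, (C.w i : ℤ) * (2 * z i)) (S' := ∑ ε, (z (C.p ε) + z (C.q ε))) (X := (M : ℤ) ^ 6)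
    (G0 := G0) (G := G) (H := H) (π := π) (by positivity) (by positivity)
    (one_le_pow₀ (by omega)) (by positivity) (by omega) hμ'
    (by
      refine (Finset.abs_sum_le_sum_abs _ _).trans ?_
      rw [Finset.mul_sum]
      refine Finset.sum_le_sum fun i _ => ?_
      rw [abs_mul, Nat.abs_cast, mul_comm]
      exact mul_le_mul_of_nonneg_right (zX i) (by positivity))
    (by
      refine (Finset.abs_sum_le_sum_abs _ _).trans ?_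
      refine (Finset.sum_le_card_nsmul _ _ ((M : ℤ) ^ 6) fun ε _ => ?_).trans ?_
      · have a := abs_le.1 (zX (C.p ε))
        have b := abs_le.1 (zX (C.q ε))
        rw [abs_le]; constructor <;> linarith [a.1, a.2, b.1, b.2]
      · rw [nsmul_eq_mul, mul_comm, Finset.card_univ])
    (by rw [hH]; push_cast; rfl) (by omega)
  generalize ∑ i, (C.w i : ℤ) * (2 * z i) = S at hDi r1 r2 r3
  generalize ∑ ε, (z (C.p ε) + z (C.q ε)) = S' at hDi r1 r2 r3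
  obtain ⟨lam, hl⟩ := Int.eq_ofNat_of_zero_le r1
  obtain ⟨O, hO⟩ := Int.eq_ofNat_of_zero_le r2
  have hY' : (Y : ℤ) = 2 * (32 * H) + 1 := by rw [hY]; push_cast; rfl
  rw [hl, hO, ← hY'] at r3
  have r4 : G * Y * μ + G * lam + O ≤ π * D.tot := by rw [hDt]; exact_mod_cast r3
  obtain ⟨Z, hZ⟩ := Nat.exists_eq_add_of_le r4
  refine ⟨_, inferInstance, D, lam, O, Z, hD, hDt, hZ, fun f => ⟨hDx f, ?_⟩⟩
  rw [hDi f, ← hl, ← hO, hY']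
  push_cast
  ring

theorem plug {κ E : Type} [Fintype κ] [Fintype E] {G Y : ℕ} {D : Cfg κ (Fin G × Fin Y × E)}
    {N V π π' μ lam O Z : ℕ} {M δ τ A : ℝ} (hO : Has N V π δ τ (1 / M ^ 24) (M ^ 2) A)
    (hM : 1000 ≤ M) (π0 : 0 < π) (δ0 : 0 < δ) (δ1 : δ ≤ 1) (τ0 : 0 < τ) (τ1 : τ ≤ 1) (A0 : 0 ≤ A)
    (A1 : A ≤ M ^ 2) (GM : (G : ℝ) ≤ M) (Y8 : (Y : ℝ) ≤ M ^ 8)
    (hD : D.Geo π' (M ^ 3) (1 / M ^ 23) (1 / M ^ 24) (M ^ 2) (M ^ 9))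
    (hZ : π * D.tot = G * Y * μ + G * lam + O + Z)
    (hf : ∀ f, |D.t f - (1 + (f.1 : ℕ) + (f.2.1 : ℕ) / M ^ 14)| ≤ 1 / M ^ 21 * M ∧
        2 * ((lam : ℤ) * (G - (f.1 : ℕ)) - μ * (G * Y - (f.1 : ℕ) * Y - (f.2.1 : ℕ)) - O)
          + D.imb f = 0) :
    Has (N * D.tot) (V * (G * (Y * Fintype.card E))) π' (δ / M ^ 55) (τ / M ^ 59) (1 / M ^ 24)
      (M ^ 2) (A + 1) := by
  have M0 : 0 < M := by linarith
  obtain ⟨ι', E', i3, i4, Co, hCo, balo, toto, hVo⟩ := hO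
  obtain ⟨n1, n2, n3, n4, n5, n6, n7, n8, n9, n10⟩ := pw hM
  obtain ⟨J, i5, j0, o, a, ho, ha, hp⟩ := pattern G Y μ lam O Z (K := M ^ 14) (by linarith)
    (by linarith [one_le_pow₀ (n := 8) (show (1 : ℝ) ≤ M by linarith)])
  choose sp sq hsp hsq hb using fun f : Fin G × Fin Y × E =>
    hp f.1 f.2.1 (D.t f) f.1.2 f.2.1.2 ((hf f).1.trans n9)
  rw [← hZ] at ha
  have geo := plug_geo hCo hD π0 δ0 δ1 τ0 τ1 (by positivity) n6 n10 A0 (by linarith)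
    (by positivity) n4 (by positivity) n5 (by positivity) n6 n7 (by positivity) n8 j0 o a sp sq
    D.tot (fun j => (ho j).trans (by linarith)) hsp hsq
  have e1 : δ * (1 / M ^ 24) * (1 / M ^ 34) * M ^ 3 = δ / M ^ 55 := by field_simp
  have e2 : τ * (1 / M ^ 34) * (1 / M ^ 23) / M ^ 2 = τ / M ^ 59 := by field_simp
  rw [e1, e2] at geo
  refine ⟨_, _, inferInstance, inferInstance, _, geo, plug_imb j0 o a sp sq _ _ (hCo.sg_p δ0 τ0)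
    (hCo.sg_q δ0 τ0) (hCo.ne δ0) hCo.wp hCo.wq hCo.self ha balo fun f => ?_, ?_, ?_⟩
  · rw [hb f]; exact (hf f).2
  · rw [plug_tot j0 o a sp sq _ _ ha, toto]
  · simp only [Fintype.card_prod, Fintype.card_fin, hVo]

theorem mu_bd {w Vi Ni G μ M : ℕ} (hw : w + Vi = (2 * (16 * G) + 1) * Ni) (VN : Vi ≤ Ni)
    (hμ : μ = w + G * Vi) (N0 : 0 < Ni) (G1 : 98 ≤ G) (hM : 1000 ≤ M) (GM : 2 * G ≤ M)
    (hN : Ni ≤ M) : μ ≤ (33 * G + 1) * Ni ∧ 1 ≤ μ ∧ μ ≤ M ^ 3 := by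
  have μ1 : μ ≤ (33 * G + 1) * Ni := by nlinarith
  refine ⟨μ1, by nlinarith, ?_⟩
  refine μ1.trans ((Nat.mul_le_mul (show 33 * G + 1 ≤ M * M by nlinarith) hN).trans ?_)
  exact le_of_eq (by ring)

end StepX

theorem step {Ni Vi πi N V π M : ℕ} {M0 δ τ A : ℝ} (hI : Inn Ni Vi πi M0)
    (hO : Has N V π δ τ (1 / (M : ℝ) ^ 24) ((M : ℝ) ^ 2) A) (hM : 1000 ≤ M) (h4 : 4 * M0 ≤ M)
    (M1 : 1 ≤ M0) (N0 : 0 < Ni) (hN : Ni ≤ M) (πi1 : 1 ≤ πi) (π1 : 200 ≤ π) (π2 : π ≤ M)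
    (δ0 : 0 < δ) (δ1 : δ ≤ 1) (τ0 : 0 < τ) (τ1 : τ ≤ 1) (A0 : 0 ≤ A) (A1 : A ≤ (M : ℝ) ^ 2) :
    ∃ N' V' π' : ℕ,
      Has N' V' π' (δ / (M : ℝ) ^ 55) (τ / (M : ℝ) ^ 59) (1 / (M : ℝ) ^ 24) ((M : ℝ) ^ 2) (A + 1) ∧
      N ≤ N' ∧ N' ≤ N * M ^ 12 ∧ 200 ≤ π' ∧ π' ≤ 16 * π * πi ∧
      5 * (V * π) * (Vi * πi) * N' ≤ 11 * (V' * π') * (N * Ni) := by
  obtain ⟨G0, g1, g2⟩ : ∃ G0, 4 * G0 + 3 ≤ π ∧ π ≤ 4 * G0 + 6 := ⟨(π - 3) / 4, by omega, by omega⟩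
  obtain ⟨G, hG⟩ : ∃ G, G = 2 * G0 + 1 := ⟨_, rfl⟩
  obtain ⟨H, hH⟩ : ∃ H, H = M ^ 6 * G := ⟨_, rfl⟩
  obtain ⟨Y, hY⟩ : ∃ Y, Y = 2 * (32 * H) + 1 := ⟨_, rfl⟩
  have G1 : 98 ≤ G := by omega
  have GM : 2 * G ≤ M := by omega
  have G2 : π ≤ 2 * G + 4 := by omega
  have G3 : 2 * G + 1 ≤ π := by omega
  have VN : Vi ≤ Ni := by
    obtain ⟨_, _, _, _, _, _, _, h1, h2⟩ := hI
    rw [← h1, ← h2]; exact Nat.le_add_left _ _
  obtain ⟨ι, E, i1, i2, C, z, hC, bal, htot, hV, hz, hz'⟩ := StepX.inner hI hM h4 M1 (16 * G)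
  obtain ⟨μ, hμ⟩ : ∃ μ, μ = ∑ i, C.w i + G * Fintype.card E := ⟨_, rfl⟩
  obtain ⟨κ, i3, D, lam, O, Z, hD, hDt, hZ, hf⟩ := StepX.ndl hM hC bal hz hz' hG GM hH hY G3 hμ
  obtain ⟨-, Y8, Y9⟩ := StepX.sizes hM GM hH hY
  have key := StepX.plug hO (by exact_mod_cast hM) (by omega) δ0 δ1 τ0 τ1 A0 A1
    (by exact_mod_cast (by omega : G ≤ M)) (by exact_mod_cast Y8) hD hZ hf
  have hw : ∑ i, C.w i + Vi = (2 * (16 * G) + 1) * Ni := by rw [← htot, ← hV]; rfl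
  rw [hV] at hμ key
  obtain ⟨μ1, μ2, μ3⟩ := StepX.mu_bd hw VN hμ N0 G1 hM GM hN
  rw [hDt] at key
  refine ⟨_, _, _, key, Nat.le_mul_of_pos_right _ (Nat.mul_pos μ2 (by omega)),
    Nat.mul_le_mul_left _ ((Nat.mul_le_mul μ3 Y9).trans (le_of_eq (by ring))),
    le_trans (by omega) (Nat.le_mul_of_pos_right _ πi1), Nat.mul_le_mul_right _ (by omega), ?_⟩
  have := Nat.mul_le_mul_left (V * Vi * πi * N) (StepX.gain (H := H) G1 G2 μ1)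
  rw [← hY] at this
  exact le_trans (le_of_eq (by ring)) (this.trans (le_of_eq (by ring)))

end Vale.Agent.P065
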